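import Vale.Agent.P240.R2.H38.D7

/-!
Groups of type D, part 8: the diagram is connected; the quotient by the centre is of Lie type.
-/

set_option autoImplicit false
set_option linter.all false

namespace Vale.Agent.P240.R2.H38.DD

open Subgroup Matrix Vale.Agent.P240.H195

section
variable {k : ℕ}

lemma pp_val (u : VI k) : (pp k u).val =
    if u.val = k then k + 1 else if u.val = k + 1 then k else u.val := by
  have e0 : (c0 k).val = k := rfl
  have e1 : (c1 k).val = k + 1 := rfl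
  unfold pp
  rw [Equiv.swap_apply_def]
  simp only [Fin.ext_iff, e0, e1]
  split_ifs <;> first | exact e1 | exact e0 | rfl

lemma pp_tau {i : Fin k} (h : i.val + 1 < k) : pp k * tau i * pp k = tau i := by
  ext u
  rw [Equiv.Perm.mul_apply, Equiv.Perm.mul_apply]
  have h1 := pp_val u
  have h2 := tau_val i (pp k u)
  have h3 := pp_val (tau i (pp k u))
  have h4 := tau_val i u
  have hu := u.2
  generalize (pp k u).val = x at *
  generalize (tau i (pp k u)).val = y at *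
  generalize (pp k (tau i (pp k u))).val = z at *
  generalize (tau i u).val = w at *
  split_ifs at h1 <;> split_ifs at h4 <;> split_ifs at h2 <;> split_ifs at h3 <;> omega

lemma tau_nc {i : ℕ} (h : i + 1 < k) (h' : i < k) :
    tau (⟨i, h'⟩ : Fin k) * tau (⟨i + 1, h⟩ : Fin k) ≠
      tau (⟨i + 1, h⟩ : Fin k) * tau (⟨i, h'⟩ : Fin k) := by
  intro heq
  have h1 := congrArg (fun v : Equiv.Perm (VI k) => (v (ia ⟨i, h'⟩)).val) heq
  simp only [Equiv.Perm.mul_apply] at h1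
  rw [tau_a] at h1
  have e1 : tau (⟨i + 1, h⟩ : Fin k) (ia ⟨i, h'⟩) = ia ⟨i, h'⟩ := by
    apply Fin.ext
    rw [tau_val, ia_val]
    dsimp only
    split_ifs <;> omega
  have e2 : (ib ⟨i, h'⟩ : VI k) = ia (⟨i + 1, h⟩ : Fin k) := rfl
  rw [e1, tau_a, e2, tau_a, ia_val, ib_val] at h1
  simp only at h1
  omega

/-- types of simple reflections -/
def STy (τ : Equiv.Perm (VI k)) : Prop := ∃ i : Fin k, τ = tau i ∨ τ = pp k * tau i * pp k

lemma STy.sq {τ : Equiv.Perm (VI k)} (h : STy τ) : τ⁻¹ * τ = 1 := inv_mul_cancel _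

lemma all_same (hk : 2 ≤ k) {P : Equiv.Perm (VI k) → Prop}
    (h : ∀ τ τ' : Equiv.Perm (VI k), STy τ → STy τ' → τ * τ' ≠ τ' * τ → (P τ ↔ P τ')) :
    ∀ τ : Equiv.Perm (VI k), STy τ → (P τ ↔ P (tau ⟨0, by omega⟩)) := by
  have h1 : ∀ i : ℕ, ∀ hi : i < k, (P (tau ⟨i, hi⟩) ↔ P (tau ⟨0, by omega⟩)) := by
    intro i
    induction i with
    | zero => exact fun _ => Iff.rfl
    | succ i ih =>
      intro hi
      have h' : i < k := by omega
      exact (h _ _ ⟨_, Or.inl rfl⟩ ⟨_, Or.inl rfl⟩ (tau_nc hi h').symm).trans (ih h')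
  rintro τ ⟨i, rfl | rfl⟩
  · exact h1 i.val i.2
  · by_cases hi : i.val + 1 < k
    · rw [pp_tau hi]
      exact h1 i.val i.2
    · have hi1 : i.val = k - 1 := by have := i.2; omega
      have hlt : k - 2 + 1 < k := by omega
      have hlt' : k - 2 < k := by omega
      have e : i = ⟨k - 2 + 1, hlt⟩ := Fin.ext (by change i.val = k - 2 + 1; omega)
      refine (h _ (tau ⟨k - 2, hlt'⟩) ⟨_, Or.inr rfl⟩ ⟨_, Or.inl rfl⟩ ?_).trans (h1 _ hlt')
      intro heq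
      apply tau_nc hlt hlt'
      rw [e] at heq
      have h2 : pp k * _ * pp k = pp k * _ * pp k :=
        congrArg (fun v : Equiv.Perm (VI k) => pp k * v * pp k) heq
      have h3 : pp k * tau (⟨k - 2, hlt'⟩ : Fin k) * pp k = tau ⟨k - 2, hlt'⟩ := pp_tau hlt
      have e1 : pp k * (pp k * tau (⟨k - 2 + 1, hlt⟩ : Fin k) * pp k *
          tau (⟨k - 2, hlt'⟩ : Fin k)) * pp k =
          (pp k * pp k) * tau (⟨k - 2 + 1, hlt⟩ : Fin k) *
            (pp k * tau (⟨k - 2, hlt'⟩ : Fin k) * pp k) := by group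
      have e2 : pp k * (tau (⟨k - 2, hlt'⟩ : Fin k) *
          (pp k * tau (⟨k - 2 + 1, hlt⟩ : Fin k) * pp k)) * pp k =
          (pp k * tau (⟨k - 2, hlt'⟩ : Fin k) * pp k) * tau (⟨k - 2 + 1, hlt⟩ : Fin k) *
            (pp k * pp k) := by group
      rw [e1, e2, h3, pp_mul, one_mul, mul_one] at h2
      exact h2.symm

end

section
variable {k : ℕ} {F : Type*} [Field F] [Finite F] {H : Subgroup (SLm (2 * k + 1) F)}

/-- the projection onto the quotient by the centre -/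
abbrev pH (H : Subgroup (SLm (2 * k + 1) F)) : ↥H →* (↥H ⧸ center ↥H) :=
  QuotientGroup.mk' (center ↥H)

omit [Finite F] in
lemma Sim_iff {s : SLm (2 * k + 1) F} : Sim s ↔ ∃ τ, STy τ ∧ Mon s τ := by
  constructor
  · rintro ⟨i, hi | hi⟩
    · exact ⟨_, ⟨i, Or.inl rfl⟩, hi⟩
    · exact ⟨_, ⟨i, Or.inr rfl⟩, hi⟩
  · rintro ⟨τ, ⟨i, rfl | rfl⟩, h⟩
    · exact ⟨i, Or.inl h⟩
    · exact ⟨i, Or.inr h⟩

lemma exists_STy (hg : Good H) {τ : Equiv.Perm (VI k)} (h : STy τ) : ∃ s : ↥H, Mon s.1 τ := by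
  obtain ⟨i, rfl | rfl⟩ := h
  · exact exists_sim hg i
  · exact exists_sim' hg i

theorem qSB {p : ℕ} [hp : Fact p.Prime] [CharP F p] (hk : 0 < k) (hg : Good H) (hgen : Gen H) :
    SB p ((BH H).map (pH H)) ((NH H).map (pH H)) ((UH H).map (pH H)) (pH H '' SH H) :=
  Vale.Agent.P240.R2.H487.CG.SB.centre_quot (dSB (p := p) hk hg hgen) hp.out

theorem qSplit {p : ℕ} [hp : Fact p.Prime] [CharP F p] (hk : 2 ≤ k) (hg : Good H)
    (hgen : Gen H) :
    SplitBN p ((BH H).map (pH H)) ((NH H).map (pH H)) ((UH H).map (pH H)) (pH H '' SH H) where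
  toSB := qSB (by omega) hg hgen
  irr := by
    intro J hJ hne hne' hJB
    have hB : ∀ x, pH H x ∈ (BH H).map (pH H) ↔ x ∈ BH H :=
      fun x => Vale.Agent.P240.R2.H487.CG.pi_mem (dSB (p := p) (by omega) hg hgen) hp.out
    have hrep : ∀ {τ : Equiv.Perm (VI k)}, STy τ → ∀ {s s' : ↥H},
        Mon s.1 τ → Mon s'.1 τ → pH H s ∈ J → pH H s' ∈ J := by
      intro τ hτ s s' hs hs' hsJ
      by_contra hcon
      apply hJB _ hsJ _ ⟨⟨s', Sim_iff.2 ⟨τ, hτ, hs'⟩, rfl⟩, hcon⟩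
      rw [← map_inv, ← map_mul, hB]
      have : Mon (s⁻¹ * s').1 (τ⁻¹ * τ) := mon_mul (mon_inv hs) hs'
      rw [inv_mul_cancel] at this
      exact mem_T' this
    obtain ⟨τ, τ', hτ, hτ', hnc, h1, h2⟩ : ∃ τ τ' : Equiv.Perm (VI k), STy τ ∧ STy τ' ∧
        τ * τ' ≠ τ' * τ ∧ (∃ s : ↥H, Mon s.1 τ ∧ pH H s ∈ J) ∧
          ¬ ∃ s : ↥H, Mon s.1 τ' ∧ pH H s ∈ J := by
      by_contra hcon
      push Not at hcon
      have hall := all_same hk (P := fun τ => ∃ s : ↥H, Mon s.1 τ ∧ pH H s ∈ J)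
        fun τ τ' hτ hτ' hnc => ⟨fun h => hcon τ τ' hτ hτ' hnc h,
          fun h => hcon τ' τ hτ' hτ hnc.symm h⟩
      obtain ⟨x, hx⟩ := hne
      obtain ⟨s, hs, rfl⟩ := hJ hx
      obtain ⟨y, ⟨s', hs', rfl⟩, hyJ⟩ := hne'
      obtain ⟨τ, hτ, hsτ⟩ := Sim_iff.1 (show Sim s.1 from hs)
      obtain ⟨τ', hτ', hsτ'⟩ := Sim_iff.1 (show Sim s'.1 from hs')
      obtain ⟨t, ht, htJ⟩ := (hall τ' hτ').2 ((hall τ hτ).1 ⟨s, hsτ, hx⟩)
      exact hyJ (hrep hτ' ht hsτ' htJ)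
    obtain ⟨a, ha, haJ⟩ := h1
    obtain ⟨b, hb⟩ := exists_STy hg hτ'
    refine ⟨pH H a, haJ, pH H b, ⟨⟨b, Sim_iff.2 ⟨τ', hτ', hb⟩, rfl⟩, fun h3 => h2 ⟨b, hb, h3⟩⟩, ?_⟩
    intro hcon
    rw [← map_mul, ← map_mul, ← map_inv, ← map_mul, hB] at hcon
    have h1 : Mon ((b * a)⁻¹ * (a * b)).1 ((τ' * τ)⁻¹ * (τ * τ')) :=
      mon_mul (mon_inv (mon_mul hb ha)) (mon_mul ha hb)
    have h2 := mon_up h1 hcon
    rw [inv_mul_eq_one] at h2
    exact hnc h2.symm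

/-- quotients by the centre are of Lie type -/
theorem qLie {p : ℕ} [hp : Fact p.Prime] [CharP F p] (hk : 2 ≤ k) (hg : Good H)
    (hgen : Gen H) (hs : IsSimpleGroup (↥H ⧸ center ↥H))
    (hZ : ∀ x : ↥H ⧸ center ↥H, (∀ y, x * y = y * x) → x = 1) : LieType p (↥H ⧸ center ↥H) :=
  ⟨hs, hZ, _, _, _, _, qSplit hk hg hgen⟩

end

end Vale.Agent.P240.R2.H38.DD
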