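import Vale.Agent.P240.R2.H38.C1

/-!
`StmtC2`, `StmtC3`.
-/

set_option autoImplicit false
set_option linter.all false

namespace Vale.Agent.P240.R2.H38

open Matrix Vale.Agent.P240.R2.AS Vale.Agent.P240.R2.H938
open scoped Classical

universe u v

noncomputable section

section
variable {K : Type u} [Field K] [Fintype K] [StarRing K] {n p : ℕ} {ζ : K} {G : Type v} [Group G]

lemma infU (hN : NumD K p n ζ) {L : Subgroup G} {ε : SU K n →* G} (hr : ε.range = L)
    (hker : ∀ g : SU K n, ε g = 1 ↔ ∃ a : K, mx g = a • (1 : Matrix (Fin n) (Fin n) K)) :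
    L ⊓ Subgroup.centralizer (L : Set G) = ⊥ := by
  rw [eq_bot_iff]
  rintro y ⟨h1, h2⟩
  rw [SetLike.mem_coe, ← hr] at h1
  obtain ⟨m, rfl⟩ := h1
  have h3 : ActsS ε (ε m) 1 (RingEquiv.refl K) := by
    refine ActsS.of_cen fun k => ?_
    have h4 := Subgroup.mem_centralizer_iff.1 h2 (ε k) (by rw [SetLike.mem_coe, ← hr]; exact ⟨k, rfl⟩)
    rw [← h4]; group
  obtain ⟨-, a, ha⟩ := uniqU hN hker (ActsS.of_mem ε m) h3
  rw [Subgroup.mem_bot]
  exact (hker m).2 ⟨a, ha⟩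

omit [Fintype K] in
lemma norm_diag {g : GU K n} {a : Fin n → K} (hd : g.1 = diagonal a) (i : Fin n) :
    a i * star (a i) = 1 := by
  have h3 := gu_star g
  rw [hd, star_eq_conjTranspose, diagonal_conjTranspose, diagonal_mul_diagonal, ← diagonal_one] at h3
  exact congrFun (diagonal_injective h3) i

/-- the powers of `ζ` in a linear element of order `p` -/
lemma exists_ks [Fact p.Prime] (hN : NumD K p n ζ) {ε : SU K n →* G}
    (hker : ∀ g : SU K n, ε g = 1 ↔ ∃ a : K, mx g = a • (1 : Matrix (Fin n) (Fin n) K)) {x : G}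
    {g : GU K n} {a : Fin n → K} (hx : ActsS ε x g (RingEquiv.refl K)) (hg : g.1 = diagonal a)
    (hxp : x ^ p = 1) (i0 : Fin n) : ∃ k : Fin n → ℕ, ∀ i, a i = a i0 * ζ ^ k i := by
  obtain ⟨-, h1⟩ := orderU hN hker hx hg hxp
  have ha0 : ∀ i, a i ≠ 0 := fun i => left_ne_zero_of_mul_eq_one (norm_diag hg i)
  have h2 : ∀ i j, a i ^ p = a j ^ p := by
    intro i j
    have h3 := h1 i j
    have h4 : ∀ k : ℕ, ∀ y : K, ((RingEquiv.refl K)^[k]) y = y := by
      intro k y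
      induction k with
      | zero => rfl
      | succ k ih => rw [Function.iterate_succ_apply', ih]; rfl
    simp only [h4, Finset.prod_const, Finset.card_range] at h3
    exact h3
  have hprim : IsPrimitiveRoot ζ p := by
    rw [← orderOf_eq_prime hN.pow hN.ne]
    exact IsPrimitiveRoot.orderOf ζ
  haveI : NeZero p := ⟨(Fact.out : p.Prime).ne_zero⟩
  have h3 : ∀ i, ∃ k : ℕ, a i = a i0 * ζ ^ k := by
    intro i
    obtain ⟨k, -, hk⟩ := hprim.eq_pow_of_pow_eq_one (ξ := a i / a i0) (by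
      rw [div_pow, h2 i i0, div_self (pow_ne_zero _ (ha0 _))])
    exact ⟨k, by rw [hk, mul_div_cancel₀ _ (ha0 _)]⟩
  exact Classical.axiomOfChoice h3

omit [Fintype K] in
lemma norm_pow (hz : ζ * star ζ = 1) (k : ℕ) : ζ ^ k * star (ζ ^ k) = 1 := by
  rw [star_pow, ← mul_pow, hz, one_pow]

/-- two linear elements with proportional matrices -/
lemma eq_conjU {ε : SU K n →* G} {x y : G} {g h : GU K n} {σ : K ≃+* K} (hn : 0 < n)
    (hx : ActsS ε x g σ) (hy : ActsS ε y h σ) {a : K} (e : g.1 = a • h.1) (k : SU K n) :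
    x * ε k * x⁻¹ = y * ε k * y⁻¹ := by
  have h1 := hx.smul hn e
  rw [h1.2 k (cjU h (frU σ hx.1 k)) (by rw [mx_cjU, mx_frU]),
    hy.2 k (cjU h (frU σ hx.1 k)) (by rw [mx_cjU, mx_frU])]

/-- an element that acts as an element of `SU` -/
lemma mem_sup_of {L : Subgroup G} {ε : SU K n →* G} (hr : ε.range = L) (hn : 0 < n) {x : G} {g : GU K n}
    (hx : ActsS ε x g (RingEquiv.refl K)) (s : SU K n) {a : K} (e : g.1 = a • mx s) :
    x ∈ L ⊔ Subgroup.centralizer (L : Set G) := by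
  have h1 := eq_conjU hn hx (ActsS.of_mem ε s) e
  have h2 : x * (ε s)⁻¹ ∈ Subgroup.centralizer (L : Set G) := by
    rw [Subgroup.mem_centralizer_iff]
    intro l hl
    rw [SetLike.mem_coe, ← hr] at hl
    obtain ⟨m, rfl⟩ := hl
    have h7 := h1 (s⁻¹ * m * s)
    rw [map_mul, map_mul, map_inv] at h7
    have h8 : x * (ε s)⁻¹ * ε m * (x * (ε s)⁻¹)⁻¹ = ε m := by
      calc x * (ε s)⁻¹ * ε m * (x * (ε s)⁻¹)⁻¹ = x * ((ε s)⁻¹ * ε m * ε s) * x⁻¹ := by group
        _ = ε m := by rw [h7]; group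
    rw [mul_inv_eq_iff_eq_mul] at h8
    exact h8.symm
  have h3 : x = (x * (ε s)⁻¹) * ε s := by group
  rw [h3]
  exact Subgroup.mul_mem _ (Subgroup.mem_sup_right h2)
    (Subgroup.mem_sup_left (by rw [← hr]; exact ⟨s, rfl⟩))

/-- (C2) -/
theorem stmtC2 : StmtC2.{u, v} := by
  intro K _ _ _ n p ζ G _ _ _ hN L ε hε
  have hinf := infU hN hε.range hε.ker
  refine ⟨hinf, fun l hl hlp hlc => ?_⟩
  have hn := hN.hn
  obtain ⟨g, σ, a, h1, h2, -, -, -, -⟩ := stmtC1 hN hε l (Subgroup.le_normalizer hl) hlp hlc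
  obtain ⟨m, rfl⟩ : ∃ m, ε m = l := by rw [← hε.range] at hl; exact hl
  have h3 : ActsS ε (ε m) m.1 (RingEquiv.refl K) := ActsS.of_mem ε m
  obtain ⟨e1, b, e2⟩ := uniqU hN hε.ker h1 h3
  subst e1
  -- `m` is diagonal
  have hb : b * star b = 1 := norm_of_smul (by omega) e2
  have hb0 : b ≠ 0 := left_ne_zero_of_mul_eq_one hb
  have hmd : m.1.1 = diagonal (fun i => b⁻¹ * a i) := by
    have h4 : diagonal a = b • m.1.1 := by rw [← h2, e2]
    have h5 : m.1.1 = b⁻¹ • diagonal a := by rw [h4, smul_smul, inv_mul_cancel₀ hb0, one_smul]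
    rw [h5, ← diagonal_smul]
    rfl
  set i0 : Fin n := ⟨0, by omega⟩
  obtain ⟨k, hk⟩ := exists_ks hN hε.ker h3 hmd hlp i0
  set d0 : K := b⁻¹ * a i0 with hd0
  have hd0n : d0 * star d0 = 1 := norm_diag hmd i0
  have hd00 : d0 ≠ 0 := left_ne_zero_of_mul_eq_one hd0n
  have hmd' : m.1.1 = diagonal (fun i => d0 * ζ ^ k i) := by
    rw [hmd]; congr 1; funext i; exact hk i
  have hdet : d0 ^ n * ζ ^ (∑ i, k i) = 1 := by
    have h4 : m.1.1.det = 1 := m.2
    rw [hmd', det_diagonal, Finset.prod_mul_distrib, Finset.prod_const, Finset.card_univ,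
      Fintype.card_fin, Finset.prod_pow_eq_pow_sum] at h4
    exact h4
  have hζ := hN.no d0 hd0n _ hdet
  obtain ⟨s, hs⟩ := exists_diagU (n := n) (d := fun i => ζ ^ k i) (fun i => norm_pow hN.st _)
    (by rw [Finset.prod_pow_eq_pow_sum]; exact hζ)
  have h5 : ε m = ε s := (eps_eq hε.ker).2 ⟨d0, by
    show m.1.1 = d0 • mx s
    rw [hmd', hs, ← diagonal_smul]
    rfl⟩
  rw [h5]
  refine ⟨s, ⟨_, fun i => ?_, hs⟩, ?_⟩
  · rw [← pow_mul, mul_comm, pow_mul, hN.pow, one_pow]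
  · show ε (cjU 1 s) = ε s
    rw [cjU_one]

/-- elements of `Qd` -/
lemma acts_of_Qd {ε : SU K n →* G} {x : G} (hx : x ∈ Qd ε) :
    ∃ g : GU K n, ActsS ε x g (RingEquiv.refl K) := by
  obtain ⟨g, hg⟩ := hx
  refine ⟨g, fun _ => rfl, fun h h' e => ?_⟩
  have h1 : h' = cjU g h := by
    apply mx_inj
    rw [e, mx_cjU]
    have h2 : (mx h).map (RingEquiv.refl K) = mx h := by ext i j; simp
    rw [h2]
  rw [h1]
  exact hg h

lemma Qd_of_acts {ε : SU K n →* G} {x : G} {g : GU K n} (hx : ActsS ε x g (RingEquiv.refl K)) :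
    x ∈ Qd ε := by
  refine ⟨g, fun h => hx.2 h (cjU g h) ?_⟩
  rw [mx_cjU]
  have h2 : (mx h).map (RingEquiv.refl K) = mx h := by ext i j; simp
  rw [h2]

lemma Qd_norm {L : Subgroup G} {ε : SU K n →* G} (hr : ε.range = L) {x : G} (hx : x ∈ Qd ε) :
    x ∈ Subgroup.normalizer (L : Set G) := by
  obtain ⟨g, hg⟩ := hx
  rw [Subgroup.mem_normalizer_iff]
  intro y
  rw [← hr]
  constructor
  · rintro ⟨h, rfl⟩
    exact ⟨cjU g h, (hg h).symm⟩
  · rintro ⟨h, hh⟩
    refine ⟨cjU g⁻¹ h, ?_⟩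
    have h1 := hg (cjU g⁻¹ h)
    rw [cjU_cjU_inv, hh] at h1
    have h2 : x * ε (cjU g⁻¹ h) = x * y := mul_right_cancel h1
    exact mul_left_cancel h2

/-- (C3) -/
theorem stmtC3 : StmtC3.{u, v} := by
  intro K _ _ _ n p ζ G _ _ hpr hN L ε hε
  have hn := hN.hn
  have hp : p.Prime := Fact.out
  have hζ0 : ζ ≠ 0 := left_ne_zero_of_mul_eq_one hN.st
  have ho : orderOf ζ = p := orderOf_eq_prime hN.pow hN.ne
  set i0 : Fin n := ⟨0, by omega⟩
  constructor
  · intro e he x hx hep hxp hex hec hxc heL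
    -- the matrices
    have key : ∀ y ∈ Qd ε, y ^ p = 1 → (∀ a ∈ Au p ε 1, y * a = a * y) →
        ∃ (g : GU K n) (k : Fin n → ℕ) (b : K), ActsS ε y g (RingEquiv.refl K) ∧ b * star b = 1 ∧
          g.1 = diagonal (fun i => b * ζ ^ k i) := by
      intro y hy hyp hyc
      obtain ⟨g, σ, a, h1, h2, -, -, -, -⟩ := stmtC1 hN hε y (Qd_norm hε.range hy) hyp hyc
      obtain ⟨g', hg'⟩ := acts_of_Qd hy
      obtain ⟨e1, -, -⟩ := uniqU hN hε.ker h1 hg'
      subst e1
      obtain ⟨k, hk⟩ := exists_ks hN hε.ker h1 h2 hyp i0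
      refine ⟨g, k, a i0, h1, norm_diag h2 i0, ?_⟩
      rw [h2]; congr 1; funext i; exact hk i
    obtain ⟨g, k, b, g1, g2, g3⟩ := key e he hep hec
    obtain ⟨h, l, c, h1, h2, h3⟩ := key x hx hxp hxc
    have hk : ¬ p ∣ ∑ i, k i := by
      rintro ⟨m, hm⟩
      apply heL
      obtain ⟨s, hs⟩ := exists_diagU (n := n) (d := fun i => ζ ^ k i) (fun i => norm_pow hN.st _)
        (by rw [Finset.prod_pow_eq_pow_sum, hm, pow_mul, hN.pow, one_pow])
      refine mem_sup_of hε.range (by omega) g1 s (a := b) ?_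
      rw [g3, hs, ← diagonal_smul]
      rfl
    -- choose the power
    obtain ⟨m, hm⟩ : ∃ m : ℕ, p ∣ (∑ i, l i) + m * ∑ i, k i := by
      have hcop : Nat.Coprime (∑ i, k i) p := (Nat.Prime.coprime_iff_not_dvd hp).2 hk |>.symm
      obtain ⟨t, -, ht⟩ := Nat.exists_mul_mod_eq_one_of_coprime hcop hp.one_lt
      refine ⟨(p - 1) * (∑ i, l i) * t, ?_⟩
      have h4 : ((∑ i, l i) + (p - 1) * (∑ i, l i) * t * ∑ i, k i) ≡ 0 [MOD p] := by
        have h5 : (∑ i, k i) * t ≡ 1 [MOD p] := by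
          rw [Nat.ModEq, ht, Nat.mod_eq_of_lt hp.one_lt]
        calc (∑ i, l i) + (p - 1) * (∑ i, l i) * t * ∑ i, k i
            = (∑ i, l i) + (p - 1) * (∑ i, l i) * ((∑ i, k i) * t) := by ring
          _ ≡ (∑ i, l i) + (p - 1) * (∑ i, l i) * 1 [MOD p] :=
              (Nat.ModEq.refl _).add ((Nat.ModEq.refl _).mul h5)
          _ = p * ∑ i, l i := by
              obtain ⟨r, rfl⟩ : ∃ r, p = r + 1 := ⟨p - 1, by have := hp.two_le; omega⟩
              rw [Nat.add_sub_cancel]; ring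
          _ ≡ 0 [MOD p] := (Nat.modEq_zero_iff_dvd).2 (Dvd.intro _ rfl)
      exact (Nat.modEq_zero_iff_dvd).1 h4
    refine ⟨m, ?_⟩
    obtain ⟨q, q1, q2⟩ := powU g1 g3 m
    have q3 := mulU h1 q2
    have hid : ((RingEquiv.refl K : RingAut K) ^ m : RingAut K) = RingEquiv.refl K := one_pow m
    have q4 : ActsS ε (x * e ^ m) (h * gmap (RingEquiv.refl K) h1.1 q) (RingEquiv.refl K) := by
      have h6 : (((RingEquiv.refl K : RingAut K) ^ m : RingAut K)).trans (RingEquiv.refl K) =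
          RingEquiv.refl K := by rw [hid]; rfl
      rw [h6] at q3
      exact q3
    obtain ⟨s, hs⟩ := exists_diagU (n := n) (d := fun i => ζ ^ (l i + m * k i))
      (fun i => norm_pow hN.st _) (by
        rw [Finset.prod_pow_eq_pow_sum, Finset.sum_add_distrib, ← Finset.mul_sum]
        obtain ⟨r, hr⟩ := hm
        rw [hr, pow_mul, hN.pow, one_pow])
    refine mem_sup_of hε.range (by omega) q4 s (a := c * b ^ m) ?_
    have h7 : ∀ j : ℕ, ∀ y : K, ((RingEquiv.refl K)^[j]) y = y := by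
      intro j y
      induction j with
      | zero => rfl
      | succ j ih => rw [Function.iterate_succ_apply', ih]; rfl
    rw [gu_mul, gmap_coe, q1, h3, hs, diagonal_map (map_zero _), diagonal_mul_diagonal, ← diagonal_smul]
    congr 1
    funext i
    simp only [h7, Finset.prod_const, Finset.card_range]
    show c * ζ ^ l i * (RingEquiv.refl K) ((b * ζ ^ k i) ^ m) = (c * b ^ m) * ζ ^ (l i + m * k i)
    have h8 : (RingEquiv.refl K) ((b * ζ ^ k i) ^ m) = (b * ζ ^ k i) ^ m := rfl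
    rw [h8, mul_pow, ← pow_mul, pow_add, mul_comm (k i) m]
    ring
  · intro t ht x hx htp hxp htx htc hxc htQ
    obtain ⟨g, σ, a, h1, h2, -, o1, -, -⟩ := stmtC1 hN hε t ht htp htc
    obtain ⟨h, τ, b, k1, k2, -, o2, -, -⟩ := stmtC1 hN hε x hx hxp hxc
    have hσ : σ ≠ RingEquiv.refl K := by
      rintro rfl
      exact htQ (Qd_of_acts h1)
    obtain ⟨k, hk, hk'⟩ := H401.aut_pow hp σ τ o1 o2 hσ
    refine ⟨p - k, ?_⟩
    obtain ⟨h', l1, l2⟩ := powU h1 h2 (p - k)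
    have h5 := mulU k1 l2
    have e2 : (((σ : RingAut K) ^ (p - k) : RingAut K)).trans τ = RingEquiv.refl K := by
      show (τ : RingAut K) * (σ : RingAut K) ^ (p - k) = 1
      rw [hk', ← pow_add, Nat.add_sub_cancel' hk.le, o1]
    rw [e2] at h5
    exact Qd_of_acts h5

end

end

end Vale.Agent.P240.R2.H38
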