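import Vale.Agent.P240.R2.H38.V4

/-!
`LocTopF` for the image of `S`.
-/

set_option autoImplicit false
set_option linter.all false

namespace Vale.Agent.P240.R2.H38

open Matrix Vale.Agent.P240.R2.AS Vale.Agent.P240.R2.H487 Vale.Agent.P240.K
open scoped Classical

universe u v w

noncomputable section

section
variable {K : Type u} [Field K] [Fintype K] [StarRing K] {n : ℕ}
variable {S : Subgroup (GU K n)} {p : ℕ} {ζ c : K} {G : Type v} [Group G]

omit [Fintype K] in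
lemma lnU_inj (u : GU K n) : Function.Injective (lnU u) := fun P Q h => by
  rw [← lnU_inv u P, h, lnU_inv]

/-- the count for the field automorphism `σ` -/
def SCnt (S : Subgroup (GU K n)) (σ : K ≃+* K) : Prop :=
  ∃ F : Finset (List (Ln K n)), F ⊆ Fr K n ∧ (∀ w ∈ F, ∀ w', w.Perm w' → w' ∈ F) ∧
    (∀ w ∈ F, ∀ P ∈ w, P.1.map σ = P.1) ∧
    (Fr K n).card * Nat.card {h : S // ∃ a : K, (mx h).map σ = a • mx h} <
      2 * (Nat.card S * AS.t F)

lemma sm_fix (σ : K ≃+* K) {u : List (Ln K n)} (h : ∀ P ∈ u, P.1.map σ = P.1) :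
    (sm u).map σ = sm u := by
  induction u with
  | nil => ext i j; simp [sm]
  | cons P u ih =>
    rw [sm_cons]
    have h1 : (P.1 + sm u).map σ = P.1.map σ + (sm u).map σ := by ext i j; simp
    rw [h1, h P (by simp), ih (fun Q hQ => h Q (by simp [hQ]))]

lemma sM_fix (hS : SGood p ζ c S) {σ : K ≃+* K} (hσ : σ ζ = ζ) {u : List (Ln K n)}
    (h : ∀ P ∈ u, P.1.map σ = P.1) : ∃ a : K, (sM ζ c u).map σ = a • sM ζ c u := by
  refine ⟨(σ c) ^ u.length * (c ^ u.length)⁻¹, ?_⟩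
  have h1 : (1 + (ζ - 1) • sm u : Matrix (Fin n) (Fin n) K).map σ = 1 + (ζ - 1) • sm u := by
    have h2 : (1 + (ζ - 1) • sm u : Matrix (Fin n) (Fin n) K).map σ =
        (1 : Matrix (Fin n) (Fin n) K).map σ + ((ζ - 1) • sm u).map σ := by
      ext i j
      exact map_add σ _ _
    rw [h2, map_one_mat, map_smul_mat, map_sub, hσ, map_one, sm_fix σ h]
  rw [sM, map_smul_mat, h1, smul_smul, map_pow, inv_mul_cancel_right₀ (pow_ne_zero _ hS.c_ne)]

lemma comm_lit (hS : SGood p ζ c S) {ε : S →* G}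
    (hker : ∀ g : S, ε g = 1 ↔ ∃ a : K, mx g = a • (1 : Matrix (Fin n) (Fin n) K)) {t : G} {σ : K ≃+* K}
    (ht : ActsS ε t 1 σ) (hσ : σ ζ = ζ) {u : List (Ln K n)} (hu : Orth u)
    (h : ∀ P ∈ u, P.1.map σ = P.1) : t * eS S ζ c ε u = eS S ζ c ε u * t := by
  obtain ⟨a, ha⟩ := sM_fix hS hσ h
  have e1 : ((1 : GU K n) : Matrix (Fin n) (Fin n) K) = 1 := rfl
  have h1 := ht.2 (sS S ζ c u) (frS hS σ ht.1 (sS S ζ c u)) (by
    rw [mx_frS, e1, star_one, one_mul, mul_one])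
  have h2 : ε (frS hS σ ht.1 (sS S ζ c u)) = ε (sS S ζ c u) :=
    (eps_eq hker).2 ⟨a, by rw [mx_frS, mx_sS hS hu, ha]⟩
  rw [h2, mul_inv_eq_iff_eq_mul] at h1
  exact h1

variable [Finite G] [Fact p.Prime]

omit [Finite G] in
lemma eS_rev (hS : SGood p ζ c S) {ε : S →* G}
    (hker : ∀ g : S, ε g = 1 ↔ ∃ a : K, mx g = a • (1 : Matrix (Fin n) (Fin n) K))
    {u v : List (Ln K n)} (h : u ++ v ∈ Fr K n) :
    Subgroup.zpowers (eS S ζ c ε v.reverse) = Subgroup.zpowers (eS S ζ c ε u) := by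
  have ho := ((mem_Fr K).1 h).2
  have hv : Orth v := (List.pairwise_append.1 ho).2.1
  have hvr : Orth v.reverse := orth_perm (List.reverse_perm v).symm hv
  have h1 : sS S ζ c v.reverse = sS S ζ c v := by
    apply mx_inj
    rw [mx_sS hS hvr, mx_sS hS hv, sM, sM, List.length_reverse]
    congr 3
    rw [sm, sm]
    exact ((List.reverse_perm v).map _).sum_eq
  have h2 : eS S ζ c ε u * eS S ζ c ε v = 1 := by
    rw [← eS_append hS ε ho]
    exact (comb_eS hS hker).full _ h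
  rw [eS, h1]
  have h3 : ε (sS S ζ c v) = (eS S ζ c ε u)⁻¹ := (eq_inv_of_mul_eq_one_right h2)
  rw [h3, Subgroup.zpowers_inv]

/-- T2 for a literal field automorphism -/
lemma t2_lit (𝕜 : Type w) [Field 𝕜] (hS : SGood p ζ c S) {L : Subgroup G} {ε : S →* G}
    (hr : ε.range = L)
    (hker : ∀ g : S, ε g = 1 ↔ ∃ a : K, mx g = a • (1 : Matrix (Fin n) (Fin n) K)) {t : G} {σ : K ≃+* K}
    (ht : ActsS ε t 1 σ) (hσ : σ ζ = ζ) {F : Finset (List (Ln K n))} (hF : F ⊆ Fr K n)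
    (hp : ∀ w ∈ F, ∀ w', w.Perm w' → w' ∈ F) (hfix : ∀ w ∈ F, ∀ P ∈ w, P.1.map σ = P.1)
    (htF : 0 < AS.t F) :
    ∃ w ∈ Fr K n, (∀ a ∈ De (eS S ζ c ε) w, t * a = a * t) ∧
      ∃ (α : Ch 𝕜 (Subgroup G)) (φ : List (Subgroup G)),
        TopCycle 𝕜 p (L ⊓ Subgroup.centralizer ({t} : Set G)) (De (eS S ζ c ε) w) α φ := by
  have hc := comb_eS hS hker
  have hcom : ∀ u v : List (Ln K n), u ++ v ∈ F → t * eS S ζ c ε u = eS S ζ c ε u * t := by
    intro u v h
    refine comm_lit hS hker ht hσ (List.pairwise_append.1 ((mem_Fr K).1 (hF h)).2).1 fun P hP => ?_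
    exact hfix _ h P (by simp [hP])
  obtain ⟨w, hw, α, φ, h1⟩ := H945.top_of_comb (by have := hS.hn; omega)
    (H945.Comb_mono hc hF hp) htF 𝕜 (L ⊓ Subgroup.centralizer ({t} : Set G)) (fun u v h =>
      ⟨by rw [← hr]; exact ⟨_, rfl⟩, Subgroup.mem_centralizer_iff.2 (by
        rintro _ rfl
        exact hcom u v h)⟩)
  refine ⟨w, hF hw, fun a ha => ?_, α, φ, h1⟩
  have h2 : De (eS S ζ c ε) w ≤ Subgroup.centralizer ({t} : Set G) := by
    rw [De, Subgroup.closure_le]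
    rintro _ ⟨u, v, rfl, rfl⟩
    exact Subgroup.mem_centralizer_iff.2 (by
        rintro _ rfl
        exact hcom u v hw)
  exact Subgroup.mem_centralizer_iff.1 (h2 ha) t rfl

/-- T3 for a literal field automorphism -/
lemma t3_lit (𝕜 : Type w) [Field 𝕜] (hS : SGood p ζ c S) {L : Subgroup G} {ε : S →* G}
    (hr : ε.range = L)
    (hker : ∀ g : S, ε g = 1 ↔ ∃ a : K, mx g = a • (1 : Matrix (Fin n) (Fin n) K)) {t : G} {σ : K ≃+* K}
    (ht : ActsS ε t 1 σ) (hσ : σ ζ = ζ) (htn : t ∈ Subgroup.normalizer (L : Set G)) (htp : t ^ p = 1)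
    (htL : t ∉ L) (hcnt : SCnt S σ) :
    ∃ w ∈ Fr K n, ∃ y, y * t⁻¹ ∈ L ∧ y ^ p = 1 ∧ (∀ a ∈ De (eS S ζ c ε) w, y * a = a * y) ∧
      ∃ (α : Ch 𝕜 (Subgroup G)) (φ : List (Subgroup G)),
        TopCycle 𝕜 p (L ⊔ Subgroup.zpowers t) (De (eS S ζ c ε) w ⊔ Subgroup.zpowers y) α φ := by
  obtain ⟨F, hF, hp, hfix, hcount⟩ := hcnt
  have hc := comb_eS hS hker
  haveI : Finite (Matrix (Fin n) (Fin n) K) := inferInstanceAs (Finite (Fin n → Fin n → K))
  haveI : Finite (GU K n) := Subtype.finite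
  haveI : Finite S := Subtype.finite
  let f : S → G := fun h => ε h * t * (ε h)⁻¹
  haveI : Finite (Set.range f) := Set.finite_range f
  set Y : Finset G := (Set.finite_range f).toFinset with hY
  have hmem : ∀ y, y ∈ Y ↔ ∃ h : S, ε h * t * (ε h)⁻¹ = y := by
    intro y
    rw [hY, Set.Finite.mem_toFinset]
    exact Iff.rfl
  have hr' : ∀ y : G, ∃ h : S, y ∈ Y → ε h * t * (ε h)⁻¹ = y := by
    intro y
    by_cases h : y ∈ Y
    · obtain ⟨h', hh⟩ := (hmem y).1 h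
      exact ⟨h', fun _ => hh⟩
    · exact ⟨1, fun h' => absurd h' h⟩
  choose r hr1 using hr'
  have hεL : ∀ h : S, ε h ∈ L := fun h => by rw [← hr]; exact ⟨h, rfl⟩
  let Fy : G → Finset (List (Ln K n)) := fun y => H687.mapW (lnU (r y).1) (lnU_inj _) F
  have hsub : ∀ y, Fy y ⊆ Fr K n := by
    intro y w hw
    obtain ⟨w', hw', rfl⟩ := H687.mem_mapW.1 hw
    exact (mem_Fr_map _).2 (hF hw')
  have hperm : ∀ y, ∀ w ∈ Fy y, ∀ w', w.Perm w' → w' ∈ Fy y := fun y => H687.mapW_perm hp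
  have hfixc : ∀ y ∈ Y, ∀ u v : List (Ln K n), u ++ v ∈ Fy y →
      eS S ζ c ε u * y = y * eS S ζ c ε u := by
    intro y hy u v huv
    obtain ⟨w', hw', h1⟩ := H687.mem_mapW.1 huv
    obtain ⟨a, b, rfl, rfl, rfl⟩ := List.map_eq_append_iff.1 h1
    have hoa : Orth a := (List.pairwise_append.1 ((mem_Fr K).1 (hF hw')).2).1
    have h2 := comm_lit hS hker ht hσ hoa (fun P hP => hfix _ hw' P (by simp [hP]))
    have h3 : eS S ζ c ε (a.map (lnU (r y).1)) = ε (r y) * eS S ζ c ε a * (ε (r y))⁻¹ := by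
      rw [eS, sS_map hS (r y).1 hoa]
      have h4 : cjS hS (r y).1 (sS S ζ c a) = r y * sS S ζ c a * (r y)⁻¹ := rfl
      rw [h4, map_mul, map_mul, map_inv]
      rfl
    have h4 := hr1 y hy
    rw [h3]
    have key : ∀ g e y : G, g * t * g⁻¹ = y → t * e = e * t →
        (g * e * g⁻¹) * y = y * (g * e * g⁻¹) := by
      rintro g e _ rfl h
      calc (g * e * g⁻¹) * (g * t * g⁻¹) = g * (e * t) * g⁻¹ := by group
        _ = g * (t * e) * g⁻¹ := by rw [h]
        _ = _ := by group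
    exact key _ _ _ h4 h2
  have hyt : ∀ y ∈ Y, y * t⁻¹ ∈ L := by
    intro y hy
    obtain ⟨h, rfl⟩ := (hmem y).1 hy
    have h1 : t * (ε h)⁻¹ * t⁻¹ ∈ L := (Subgroup.mem_normalizer_iff.1 htn _).1 (L.inv_mem (hεL h))
    have h2 : ε h * t * (ε h)⁻¹ * t⁻¹ = ε h * (t * (ε h)⁻¹ * t⁻¹) := by group
    rw [h2]
    exact L.mul_mem (hεL h) h1
  have hyp : ∀ y ∈ Y, y ^ p = 1 := by
    intro y hy
    obtain ⟨h, rfl⟩ := (hmem y).1 hy
    rw [conj_pow, htp, mul_one, mul_inv_cancel]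
  have hd : H945.SemiData p (Fr K n) (eS S ζ c ε) L (L ⊔ Subgroup.zpowers t) Y Fy := by
    refine ⟨fun u v _ => hεL _, le_sup_left, hyp, ?_, ?_, ?_, fun y _ => hsub y, fun y _ => hperm y,
      fun y hy u v huv => hfixc y hy u v huv⟩
    · intro y hy
      have h1 := hyt y hy
      have h2 : y = (y * t⁻¹) * t := by group
      rw [h2]
      exact Subgroup.mul_mem _ (Subgroup.mem_sup_left h1)
        (Subgroup.mem_sup_right (Subgroup.mem_zpowers t))
    · intro y hy h1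
      apply htL
      obtain ⟨h, rfl⟩ := (hmem y).1 hy
      have h2 := L.mul_mem (L.mul_mem (L.inv_mem (hεL h)) h1) (hεL h)
      have h3 : (ε h)⁻¹ * (ε h * t * (ε h)⁻¹) * ε h = t := by group
      rwa [h3] at h2
    · intro y hy y' hy'
      have h1 := hyt y hy
      have h2 := hyt y' hy'
      have h3 : y⁻¹ * y' = t⁻¹ * ((y * t⁻¹)⁻¹ * (y' * t⁻¹)) * t := by group
      rw [h3]
      have h4 := (Subgroup.mem_normalizer_iff.1 (Subgroup.inv_mem _ htn)
        ((y * t⁻¹)⁻¹ * (y' * t⁻¹))).1 (L.mul_mem (L.inv_mem h1) h2)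
      rwa [inv_inv] at h4
  have hcard : (Fr K n).card < 2 * ∑ y ∈ Y, AS.t (Fy y) := by
    have h1 : ∀ y ∈ Y, AS.t (Fy y) = AS.t F := fun y _ => H687.t_map _ F
    rw [Finset.sum_congr rfl h1, Finset.sum_const, smul_eq_mul]
    have h2 := H687.card_le_range_mul f {h : S | ∃ a : K, (mx h).map σ = a • mx h} (by
      intro g g' hgg
      have hgg' : ε g * t * (ε g)⁻¹ = ε g' * t * (ε g')⁻¹ := hgg
      have h3 : t * ε (g⁻¹ * g') * t⁻¹ = ε (g⁻¹ * g') := by
        rw [map_mul, map_inv]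
        calc t * ((ε g)⁻¹ * ε g') * t⁻¹ = (ε g)⁻¹ * (ε g * t * (ε g)⁻¹) * ε g' * t⁻¹ := by group
          _ = (ε g)⁻¹ * (ε g' * t * (ε g')⁻¹) * ε g' * t⁻¹ := by rw [hgg']
          _ = _ := by group
      have e1 : ((1 : GU K n) : Matrix (Fin n) (Fin n) K) = 1 := rfl
      have h4 := ht.2 (g⁻¹ * g') (frS hS σ ht.1 (g⁻¹ * g')) (by
        rw [mx_frS, e1, star_one, one_mul, mul_one])
      rw [h3] at h4
      obtain ⟨a, ha⟩ := (eps_eq hker).1 h4.symm
      exact ⟨a, by rw [← ha, mx_frS]⟩)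
    have h3 : Nat.card (Set.range f) = Y.card := by
      rw [hY, Nat.card_coe_set_eq, Set.ncard_eq_toFinset_card _ (Set.finite_range f)]
    rw [h3] at h2
    have h4 : (Fr K n).card * Nat.card {h : S // ∃ a : K, (mx h).map σ = a • mx h} <
        (2 * (Y.card * AS.t F)) * Nat.card {h : S // ∃ a : K, (mx h).map σ = a • mx h} := by
      refine hcount.trans_le ?_
      calc 2 * (Nat.card S * AS.t F)
          ≤ 2 * ((Y.card * Nat.card {h : S // ∃ a : K, (mx h).map σ = a • mx h}) * AS.t F) :=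
            Nat.mul_le_mul_left _ (Nat.mul_le_mul_right _ h2)
        _ = _ := by ring
    exact lt_of_mul_lt_mul_right h4 (Nat.zero_le _)
  obtain ⟨y, hy, w, hw, α, φ, h1, -⟩ := H945.top_of_semi₂ (by have := hS.hn; omega) hc
    (fun u v h => eS_rev hS hker h) hd hcard 𝕜
  refine ⟨w, hsub y hw, y, hyt y hy, hyp y hy, fun a ha => ?_, α, φ, ?_⟩
  · have h2 : De (eS S ζ c ε) w ≤ Subgroup.centralizer ({y} : Set G) := by
      rw [De, Subgroup.closure_le]
      rintro _ ⟨u, v, rfl, rfl⟩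
      exact Subgroup.mem_centralizer_iff.2 (by
        rintro _ rfl
        exact (hfixc _ hy u v hw).symm)
    exact Subgroup.mem_centralizer_iff.1 (h2 ha) y rfl
  · rw [sup_comm (De (eS S ζ c ε) w) (Subgroup.zpowers y)]
    exact h1

end

end

end Vale.Agent.P240.R2.H38
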