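import Vale.Agent.P240.R2.AS.Defs
import Vale.Agent.P240.R2.H687.Fld

/-!
Definitions for `LocTopF` of `PSU_n(q)` (next level of the unitary theorem).
-/

set_option autoImplicit false

namespace Vale.Agent.P240.R2.H38

open Matrix Vale.Agent.P240.R2.AS
open scoped Classical

universe u v

noncomputable section

variable (K : Type u) [Field K] [Fintype K] [StarRing K]

/-- unitary matrices of determinant `1` -/
def SU (n : ℕ) : Subgroup (GU K n) where
  carrier := {g | (g : Matrix (Fin n) (Fin n) K).det = 1}
  mul_mem' := by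
    intro a b ha hb
    have h : ((a * b : GU K n) : Matrix (Fin n) (Fin n) K) =
      (a : Matrix (Fin n) (Fin n) K) * (b : Matrix (Fin n) (Fin n) K) := rfl
    simp only [Set.mem_setOf_eq] at ha hb ⊢
    rw [h, det_mul, ha, hb, one_mul]
  one_mem' := by
    have h : ((1 : GU K n) : Matrix (Fin n) (Fin n) K) = 1 := rfl
    simp only [Set.mem_setOf_eq]
    rw [h, det_one]
  inv_mem' := by
    intro a ha
    have h : ((a⁻¹ : GU K n) : Matrix (Fin n) (Fin n) K) = star (a : Matrix (Fin n) (Fin n) K) := rfl
    simp only [Set.mem_setOf_eq] at ha ⊢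
    rw [h, star_eq_conjTranspose, det_conjTranspose, ha, star_one]

variable {K}

/-- the matrix of an element of `SU` -/
def mt {n : ℕ} (g : SU K n) : Matrix (Fin n) (Fin n) K := g.1.1

omit [Fintype K] in
lemma mt_inj {n : ℕ} {g h : SU K n} (e : mt g = mt h) : g = h := Subtype.ext (Subtype.ext e)

/-- `ζ` on the space spanned by the word, `1` on the complement, times `c ^ length` -/
def sM {n : ℕ} (ζ c : K) (w : List (Ln K n)) : Matrix (Fin n) (Fin n) K :=
  c ^ w.length • (1 + (ζ - 1) • sm w)

/-- the element of `SU` with the matrix `sM ζ c w` -/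
def sW {n : ℕ} (ζ c : K) (w : List (Ln K n)) : SU K n :=
  if h : ∃ g : SU K n, mt g = sM ζ c w then h.choose else 1

variable {G : Type v} [Group G]

/-- `x` acts on the image of `SU` as `h ↦ g σ(h) g⁻¹` -/
def Acts {n : ℕ} (ε : SU K n →* G) (x : G) (g : GU K n) (σ : K ≃+* K) : Prop :=
  (∀ a, σ (star a) = star (σ a)) ∧
    ∀ h h' : SU K n, mt h' = (g : Matrix (Fin n) (Fin n) K) * (mt h).map σ * star (g : Matrix (Fin n) (Fin n) K) →
      x * ε h * x⁻¹ = ε h'

/-- `L` is the image of `SU` modulo scalars, and the elements of `N_G(L)` of order `p` modulo `C_G(L)`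
act by semilinear maps -/
structure PSUHom (p n : ℕ) (L : Subgroup G) (ε : SU K n →* G) : Prop where
  range : ε.range = L
  ker : ∀ g : SU K n, ε g = 1 ↔ ∃ c : K, mt g = c • (1 : Matrix (Fin n) (Fin n) K)
  sem : ∀ x ∈ Subgroup.normalizer (L : Set G), x ^ p ∈ Subgroup.centralizer (L : Set G) →
    ∃ g σ, Acts ε x g σ

/-- the elementary abelian group generated by the prefixes of a word -/
def De {X : Type*} (e : List X → G) (w : List X) : Subgroup G :=
  Subgroup.closure {y | ∃ u v, w = u ++ v ∧ y = e u}

end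

end Vale.Agent.P240.R2.H38
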