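import Vale.Agent.P240.R2.H38.U1

/-!
General subgroups `S` of the unitary group (`SU`, or the commutator subgroup). Change of coordinates.
-/

set_option autoImplicit false
set_option linter.all false

namespace Vale.Agent.P240.R2.H38

open Matrix Vale.Agent.P240.R2.AS
open scoped Classical

universe u v

noncomputable section

section
variable {K : Type u} [Field K] [Fintype K] [StarRing K] {n : ℕ}

omit [Fintype K] in
lemma gu_star (u : GU K n) : (u : Matrix (Fin n) (Fin n) K) * star (u : Matrix (Fin n) (Fin n) K) = 1 :=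
  Matrix.mem_unitaryGroup_iff.1 u.2

omit [Fintype K] in
lemma star_gu (u : GU K n) : star (u : Matrix (Fin n) (Fin n) K) * (u : Matrix (Fin n) (Fin n) K) = 1 :=
  Matrix.mem_unitaryGroup_iff'.1 u.2

omit [Fintype K] in
lemma gu_mul (u v : GU K n) : ((u * v : GU K n) : Matrix (Fin n) (Fin n) K) = u.1 * v.1 := rfl

omit [Fintype K] in
lemma gu_inv (u : GU K n) : ((u⁻¹ : GU K n) : Matrix (Fin n) (Fin n) K) = star u.1 := rfl

/-- the action on the letters -/
def lnU (u : GU K n) (P : Ln K n) : Ln K n :=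
  ⟨u.1 * P.1 * star u.1, by
    obtain ⟨x, hx, h⟩ := P.2
    refine ⟨u.1.mulVec x, ?_, ?_⟩
    · rw [star_mulVec, ← star_eq_conjTranspose, ← dotProduct_mulVec, mulVec_mulVec, star_gu, one_mulVec, hx]
    · rw [h, mul_vecMulVec, vecMulVec_mul, star_mulVec, ← star_eq_conjTranspose]⟩

omit [Fintype K] in
lemma lnU_coe (u : GU K n) (P : Ln K n) : (lnU u P).1 = u.1 * P.1 * star u.1 := rfl

omit [Fintype K] in
lemma conj_mul_conj (u : GU K n) (A B : Matrix (Fin n) (Fin n) K) :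
    (u.1 * A * star u.1) * (u.1 * B * star u.1) = u.1 * (A * B) * star u.1 := by
  calc (u.1 * A * star u.1) * (u.1 * B * star u.1) = u.1 * A * (star u.1 * u.1) * B * star u.1 := by
        simp only [mul_assoc]
    _ = _ := by rw [star_gu]; simp only [mul_assoc, one_mul]

omit [Fintype K] in
lemma conj_inj (u : GU K n) {A B : Matrix (Fin n) (Fin n) K}
    (h : u.1 * A * star u.1 = u.1 * B * star u.1) : A = B := by
  have h1 : ∀ A : Matrix (Fin n) (Fin n) K, star u.1 * (u.1 * A * star u.1) * u.1 = A := by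
    intro A
    calc star u.1 * (u.1 * A * star u.1) * u.1 = (star u.1 * u.1) * A * (star u.1 * u.1) := by
          simp only [mul_assoc]
      _ = A := by rw [star_gu, one_mul, mul_one]
  rw [← h1 A, h, h1 B]

lemma sm_map_lnU (u : GU K n) (w : List (Ln K n)) : sm (w.map (lnU u)) = u.1 * sm w * star u.1 := by
  induction w with
  | nil => simp [sm]
  | cons P w ih => rw [List.map_cons, sm_cons, ih, sm_cons, lnU_coe, mul_add, add_mul]

omit [Fintype K] in
lemma orth_lnU {u : GU K n} {P Q : Ln K n} : (lnU u P).1 * (lnU u Q).1 = 0 ↔ P.1 * Q.1 = 0 := by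
  rw [lnU_coe, lnU_coe, conj_mul_conj]
  constructor
  · intro h
    apply conj_inj u
    rw [h, mul_zero, zero_mul]
  · intro h
    rw [h, mul_zero, zero_mul]

lemma Orth_map (u : GU K n) {w : List (Ln K n)} : Orth (w.map (lnU u)) ↔ Orth w := by
  rw [Orth, List.pairwise_map, Orth]
  exact ⟨fun h => h.imp fun {P Q} hPQ => orth_lnU.1 hPQ, fun h => h.imp fun {P Q} hPQ => orth_lnU.2 hPQ⟩

lemma mem_Fr_map (u : GU K n) {w : List (Ln K n)} : w.map (lnU u) ∈ Fr K n ↔ w ∈ Fr K n := by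
  rw [mem_Fr, mem_Fr, List.length_map, Orth_map]

omit [Fintype K] in
lemma lnU_inv (u : GU K n) (P : Ln K n) : lnU u⁻¹ (lnU u P) = P := by
  apply Subtype.ext
  rw [lnU_coe, lnU_coe, gu_inv, star_star]
  calc star u.1 * (u.1 * P.1 * star u.1) * u.1 = (star u.1 * u.1) * P.1 * (star u.1 * u.1) := by
        simp only [mul_assoc]
    _ = P.1 := by rw [star_gu, one_mul, mul_one]

omit [Fintype K] in
lemma lnU_inv' (u : GU K n) (P : Ln K n) : lnU u (lnU u⁻¹ P) = P := by
  have := lnU_inv u⁻¹ P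
  rwa [inv_inv] at this

omit [Fintype K] in
lemma map_mul_mat (σ : K ≃+* K) (A B : Matrix (Fin n) (Fin n) K) :
    (A * B).map σ = A.map σ * B.map σ := by
  ext i j
  simp [mul_apply, map_sum]

omit [Fintype K] in
lemma map_star_mat {σ : K ≃+* K} (hσ : ∀ a, σ (star a) = star (σ a)) (A : Matrix (Fin n) (Fin n) K) :
    (star A).map σ = star (A.map σ) := by
  ext i j
  simp [star_apply, hσ]

omit [Fintype K] in
lemma map_one_mat (σ : K ≃+* K) : (1 : Matrix (Fin n) (Fin n) K).map σ = 1 := by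
  have := Matrix.map_one (n := Fin n) (σ : K → K) (map_zero σ) (map_one σ)
  exact this

omit [Fintype K] in
lemma map_smul_mat (σ : K ≃+* K) (a : K) (A : Matrix (Fin n) (Fin n) K) :
    (a • A).map σ = σ a • A.map σ := by
  ext i j
  simp

/-- a field automorphism applied to a unitary matrix -/
def gmap (σ : K ≃+* K) (hσ : ∀ a, σ (star a) = star (σ a)) (u : GU K n) : GU K n :=
  ⟨u.1.map σ, by
    rw [Matrix.mem_unitaryGroup_iff, ← map_star_mat hσ, ← map_mul_mat, gu_star, map_one_mat]⟩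

omit [Fintype K] in
lemma gmap_coe (σ : K ≃+* K) (hσ : ∀ a, σ (star a) = star (σ a)) (u : GU K n) :
    (gmap σ hσ u).1 = u.1.map σ := rfl

/-- the matrix of an element of a subgroup of the unitary group -/
def mx {S : Subgroup (GU K n)} (g : S) : Matrix (Fin n) (Fin n) K := g.1.1

variable {S : Subgroup (GU K n)}

omit [Fintype K] in
lemma mx_inj {g h : S} (e : mx g = mx h) : g = h := Subtype.ext (Subtype.ext e)

omit [Fintype K] in
lemma mx_mul (g h : S) : mx (g * h) = mx g * mx h := rfl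

omit [Fintype K] in
lemma mx_one : mx (1 : S) = 1 := rfl

omit [Fintype K] in
lemma mx_inv (g : S) : mx g⁻¹ = star (mx g) := rfl

omit [Fintype K] in
lemma mx_star (g : S) : mx g * star (mx g) = 1 := Matrix.mem_unitaryGroup_iff.1 g.1.2

omit [Fintype K] in
lemma star_mx (g : S) : star (mx g) * mx g = 1 := Matrix.mem_unitaryGroup_iff'.1 g.1.2

variable (S) in
/-- the element of `S` with the matrix `sM ζ c w` -/
def sS (ζ c : K) (w : List (Ln K n)) : S :=
  if h : ∃ g : S, mx g = sM ζ c w then h.choose else 1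

/-- the hypotheses on the subgroup `S` -/
structure SGood (p : ℕ) (ζ c : K) (S : Subgroup (GU K n)) : Prop where
  hn : 3 ≤ n
  pow : ζ ^ p = 1
  ne : ζ ≠ 1
  mem : ∀ w : List (Ln K n), Orth w → ∃ g : S, mx g = sM ζ c w
  full : ∀ w ∈ Fr K n, sM ζ c w = (1 : Matrix (Fin n) (Fin n) K)
  conj : ∀ (u : GU K n), ∀ g ∈ S, u * g * u⁻¹ ∈ S
  fr : ∀ (σ : K ≃+* K) (hσ : ∀ a, σ (star a) = star (σ a)), ∀ g ∈ S, gmap σ hσ g ∈ S
  uniq : ∀ (u : GU K n) (σ : K ≃+* K), (∀ a, σ (star a) = star (σ a)) →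
    (∃ d : Fin n → K, u.1 = diagonal d) →
    (∀ k : S, ∃ a : K, u.1 * (mx k).map σ * star u.1 = a • mx k) →
    (∀ x, σ x = x) ∧ ∃ a : K, u.1 = a • (1 : Matrix (Fin n) (Fin n) K)

variable {p : ℕ} {ζ c : K}

lemma mx_sS (hS : SGood p ζ c S) {w : List (Ln K n)} (h : Orth w) : mx (sS S ζ c w) = sM ζ c w := by
  rw [sS, dif_pos (hS.mem w h)]
  exact (hS.mem w h).choose_spec

lemma sS_append (hS : SGood p ζ c S) {v w : List (Ln K n)} (h : Orth (v ++ w)) :
    sS S ζ c (v ++ w) = sS S ζ c v * sS S ζ c w := by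
  have h1 := List.pairwise_append.1 h
  apply mx_inj
  rw [mx_mul, mx_sS hS h, mx_sS hS h1.1, mx_sS hS h1.2.1, sM_append h]

/-- conjugation by a unitary matrix on `S` -/
def cjS (hS : SGood p ζ c S) (u : GU K n) : S →* S where
  toFun h := ⟨u * h.1 * u⁻¹, hS.conj u h.1 h.2⟩
  map_one' := by
    apply Subtype.ext
    show u * 1 * u⁻¹ = 1
    rw [mul_one, mul_inv_cancel]
  map_mul' a b := by
    apply Subtype.ext
    show u * (a.1 * b.1) * u⁻¹ = (u * a.1 * u⁻¹) * (u * b.1 * u⁻¹)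
    group

lemma mx_cjS (hS : SGood p ζ c S) (u : GU K n) (h : S) : mx (cjS hS u h) = u.1 * mx h * star u.1 := rfl

lemma cjS_cjS_inv (hS : SGood p ζ c S) (u : GU K n) (h : S) : cjS hS u (cjS hS u⁻¹ h) = h := by
  apply Subtype.ext
  show u * (u⁻¹ * h.1 * u⁻¹⁻¹) * u⁻¹ = h.1
  group

/-- a field automorphism on `S` -/
def frS (hS : SGood p ζ c S) (σ : K ≃+* K) (hσ : ∀ a, σ (star a) = star (σ a)) (h : S) : S :=
  ⟨gmap σ hσ h.1, hS.fr σ hσ h.1 h.2⟩

lemma mx_frS (hS : SGood p ζ c S) (σ : K ≃+* K) (hσ : ∀ a, σ (star a) = star (σ a)) (h : S) :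
    mx (frS hS σ hσ h) = (mx h).map σ := rfl

lemma sM_map (u : GU K n) {ζ c : K} {w : List (Ln K n)} :
    sM ζ c (w.map (lnU u)) = u.1 * sM ζ c w * star u.1 := by
  rw [sM, sM, sm_map_lnU, List.length_map, mul_smul_comm, smul_mul_assoc, mul_add, add_mul, mul_one,
    gu_star, mul_smul_comm, smul_mul_assoc]

lemma sS_map (hS : SGood p ζ c S) (u : GU K n) {w : List (Ln K n)} (h : Orth w) :
    sS S ζ c (w.map (lnU u)) = cjS hS u (sS S ζ c w) := by
  apply mx_inj
  rw [mx_sS hS ((Orth_map u).2 h), mx_cjS, mx_sS hS h, sM_map]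

variable {G : Type v} [Group G]

/-- `x` acts on the image of `S` as `h ↦ g σ(h) g⁻¹` -/
def ActsS (ε : S →* G) (x : G) (g : GU K n) (σ : K ≃+* K) : Prop :=
  (∀ a, σ (star a) = star (σ a)) ∧
    ∀ h h' : S, mx h' = g.1 * (mx h).map σ * star g.1 → x * ε h * x⁻¹ = ε h'

/-- the homomorphisms `S → L` -/
structure PHom (p : ℕ) (ζ c : K) (L : Subgroup G) (ε : S →* G) : Prop where
  range : ε.range = L
  ker : ∀ g : S, ε g = 1 ↔ ∃ a : K, mx g = a • (1 : Matrix (Fin n) (Fin n) K)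
  sem : ∀ w ∈ Fr K n, ∀ x ∈ Subgroup.normalizer (L : Set G), x ^ p ∈ Subgroup.centralizer (L : Set G) →
    (∀ P ∈ w, x * ε (sS S ζ c [P]) = ε (sS S ζ c [P]) * x) → ∃ g σ, ActsS ε x g σ

omit [Fintype K] in
lemma conj_smul_one (u : GU K n) (a : K) :
    u.1 * (a • (1 : Matrix (Fin n) (Fin n) K)) * star u.1 = a • (1 : Matrix (Fin n) (Fin n) K) := by
  rw [mul_smul_comm, smul_mul_assoc, mul_one, gu_star]

/-- change of coordinates for `ActsS` -/
lemma ActsS.tw (hS : SGood p ζ c S) {ε : S →* G} {x : G} {g : GU K n} {σ : K ≃+* K}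
    (h : ActsS ε x g σ) (u : GU K n) :
    ActsS (ε.comp (cjS hS u)) x (u⁻¹ * g * gmap σ h.1 u) σ := by
  refine ⟨h.1, fun a b hab => ?_⟩
  refine h.2 (cjS hS u a) (cjS hS u b) ?_
  rw [mx_cjS, mx_cjS, hab, gu_mul, gu_mul, gu_inv, gmap_coe, map_mul_mat, map_mul_mat, map_star_mat h.1,
    star_mul, star_mul, star_star]
  calc u.1 * (star u.1 * g.1 * u.1.map σ * (mx a).map σ * (star (u.1.map σ) * (star g.1 * u.1))) * star u.1
      = (u.1 * star u.1) * g.1 * u.1.map σ * (mx a).map σ * star (u.1.map σ) * star g.1 * (u.1 * star u.1) := by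
        simp only [mul_assoc]
    _ = _ := by
        rw [gu_star, one_mul, mul_one]
        simp only [mul_assoc]

lemma PHom.tw (hS : SGood p ζ c S) {L : Subgroup G} {ε : S →* G}
    (h : PHom p ζ c L ε) (u : GU K n) : PHom p ζ c L (ε.comp (cjS hS u)) := by
  refine ⟨?_, fun g => ?_, fun w hw x hx hxp hc => ?_⟩
  · rw [← h.range]
    ext y
    constructor
    · rintro ⟨g, rfl⟩
      exact ⟨cjS hS u g, rfl⟩
    · rintro ⟨g, rfl⟩
      exact ⟨cjS hS u⁻¹ g, by rw [MonoidHom.comp_apply, cjS_cjS_inv]⟩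
  · rw [MonoidHom.comp_apply, h.ker]
    constructor
    · rintro ⟨a, ha⟩
      rw [mx_cjS, ← conj_smul_one u] at ha
      exact ⟨a, conj_inj u ha⟩
    · rintro ⟨a, ha⟩
      exact ⟨a, by rw [mx_cjS, ha, conj_smul_one]⟩
  · obtain ⟨g, σ, hg⟩ := h.sem (w.map (lnU u)) ((mem_Fr_map u).2 hw) x hx hxp (by
      intro P hP
      obtain ⟨Q, hQ, rfl⟩ := List.mem_map.1 hP
      have h1 : sS S ζ c [lnU u Q] = cjS hS u (sS S ζ c [Q]) :=
        sS_map hS u (w := [Q]) (List.pairwise_singleton _ _)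
      rw [h1]
      exact hc Q hQ)
    exact ⟨_, _, hg.tw hS u⟩

/-- composition -/
lemma ActsS.mul (hS : SGood p ζ c S) {ε : S →* G} {x y : G} {g h : GU K n} {σ τ : K ≃+* K}
    (hx : ActsS ε x g σ) (hy : ActsS ε y h τ) :
    ActsS ε (x * y) (g * gmap σ hx.1 h) (τ.trans σ) := by
  refine ⟨fun a => by simp [hx.1, hy.1], fun a b hab => ?_⟩
  have h1 := hy.2 a (cjS hS h (frS hS τ hy.1 a)) (by rw [mx_cjS, mx_frS])
  have h2 := hx.2 (cjS hS h (frS hS τ hy.1 a)) b (by
    rw [mx_cjS, mx_frS, hab, gu_mul, gmap_coe, map_mul_mat, map_mul_mat, map_star_mat hx.1, star_mul]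
    have h3 : (mx a).map (τ.trans σ) = ((mx a).map τ).map σ := by
      ext i j; simp
    rw [h3]
    simp only [mul_assoc])
  have h3 : x * y * ε a * (x * y)⁻¹ = x * (y * ε a * y⁻¹) * x⁻¹ := by group
  rw [h3, h1, h2]

lemma ActsS.one (ε : S →* G) : ActsS ε 1 1 (RingEquiv.refl K) := by
  refine ⟨fun a => rfl, fun a b hab => ?_⟩
  have h1 : b = a := by
    apply mx_inj
    rw [hab]
    have h2 : ((1 : GU K n) : Matrix (Fin n) (Fin n) K) = 1 := rfl
    rw [h2, star_one, one_mul, mul_one]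
    ext i j; simp
  rw [h1]
  group

/-- elements of the centralizer -/
lemma ActsS.of_cen {ε : S →* G} {z : G} (hz : ∀ h, z * ε h * z⁻¹ = ε h) :
    ActsS ε z 1 (RingEquiv.refl K) := by
  refine ⟨fun a => rfl, fun a b hab => ?_⟩
  have h1 : b = a := by
    apply mx_inj
    rw [hab]
    have h2 : ((1 : GU K n) : Matrix (Fin n) (Fin n) K) = 1 := rfl
    rw [h2, star_one, one_mul, mul_one]
    ext i j; simp
  rw [h1]
  exact hz a

/-- elements of the image of `S` -/
lemma ActsS.of_mem (ε : S →* G) (g : S) : ActsS ε (ε g) g.1 (RingEquiv.refl K) := by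
  refine ⟨fun a => rfl, fun a b hab => ?_⟩
  have h1 : b = g * a * g⁻¹ := by
    apply mx_inj
    rw [hab, mx_mul, mx_mul, mx_inv]
    have h2 : (mx a).map (RingEquiv.refl K) = mx a := by ext i j; simp
    rw [h2]
    rfl
  rw [h1, map_mul, map_mul, map_inv]

/-- inverse -/
lemma ActsS.inv (hS : SGood p ζ c S) {ε : S →* G} {x : G} {g : GU K n} {σ : K ≃+* K}
    (hx : ActsS ε x g σ) :
    ∃ hσ : ∀ a, σ.symm (star a) = star (σ.symm a),
      ActsS ε x⁻¹ (gmap σ.symm hσ g⁻¹) σ.symm := by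
  have hσ : ∀ a, σ.symm (star a) = star (σ.symm a) := by
    intro a
    apply σ.injective
    rw [hx.1, RingEquiv.apply_symm_apply, RingEquiv.apply_symm_apply]
  refine ⟨hσ, hσ, fun a b hab => ?_⟩
  have h1 := hx.2 b a (by
    rw [hab, gmap_coe, map_mul_mat, map_mul_mat, map_star_mat hx.1, gu_inv]
    have h3 : ∀ A : Matrix (Fin n) (Fin n) K, (A.map σ.symm).map σ = A := by
      intro A; ext i j; simp
    rw [h3, h3, star_star]
    calc mx a = (g.1 * star g.1) * mx a * (g.1 * star g.1) := by rw [gu_star, one_mul, mul_one]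
      _ = _ := by simp only [mul_assoc])
  rw [← h1]
  group

end

end

end Vale.Agent.P240.R2.H38
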