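import Vale.Agent.P240.R2.H38.V5

/-!
`LocTopF` for the image of `S`: the theorem.
-/

set_option autoImplicit false
set_option linter.all false

namespace Vale.Agent.P240.R2.H38

open Matrix Vale.Agent.P240.R2.AS Vale.Agent.P240.R2.H487 Vale.Agent.P240.K
open scoped Classical

universe u v w

noncomputable section

section
variable {K : Type u} [Field K] [Fintype K] [StarRing K] {n : ℕ}
variable {S : Subgroup (GU K n)} {p : ℕ} {ζ c : K} {G : Type v} [Group G]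

/-- the subgroups `De e w` are elementary abelian -/
lemma De_ApS [Fact p.Prime] {X : Type*} {F : Finset (List X)} {e : List X → G} (hc : Comb p n F e)
    (hn : 2 ≤ n) {w : List X} (hw : w ∈ F) : De e w ∈ ApS p G := by
  have hp : p.Prime := Fact.out
  have hcom : ∀ x ∈ {y | ∃ u v, w = u ++ v ∧ y = e u}, ∀ y ∈ {y | ∃ u v, w = u ++ v ∧ y = e u},
      x * y = y * x := by
    have h1 : ∀ u v u' v' : List X, w = u ++ v → w = u' ++ v' → u.length ≤ u'.length →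
        e u * e u' = e u' * e u := by
      intro u v u' v' h1 h2 hl
      obtain ⟨r, rfl⟩ : ∃ r, u' = u ++ r := by
        have h3 : u <+: u' := by
          refine List.prefix_of_prefix_length_le (l₃ := w) ?_ ?_ hl
          · rw [h1]; exact List.prefix_append _ _
          · rw [h2]; exact List.prefix_append _ _
        obtain ⟨r, hr⟩ := h3
        exact ⟨r, hr.symm⟩
      refine hc.comm u r v' ?_
      rw [← List.append_assoc, ← h2]
      exact hw
    rintro _ ⟨u, v, h2, rfl⟩ _ ⟨u', v', h3, rfl⟩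
    rcases le_total u.length u'.length with h | h
    · exact h1 u v u' v' h2 h3 h
    · exact (h1 u' v' u v h3 h2 h).symm
  letI : CommGroup (Subgroup.closure {y | ∃ u v, w = u ++ v ∧ y = e u}) :=
    Subgroup.closureCommGroupOfComm hcom
  have hcomm : ∀ x ∈ De e w, ∀ y ∈ De e w, x * y = y * x := by
    intro x hx y hy
    have := mul_comm (⟨x, hx⟩ : Subgroup.closure {y | ∃ u v, w = u ++ v ∧ y = e u}) ⟨y, hy⟩
    exact congrArg Subtype.val this
  refine ⟨?_, hcomm, ?_⟩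
  · intro h
    have h1 := hc.card w hw
    have h2 : Nat.card (De e w) = p ^ (n - 1) := h1
    rw [h, Subgroup.card_bot] at h2
    have h3 : 1 < p ^ (n - 1) := Nat.one_lt_pow (by omega) hp.one_lt
    omega
  · intro x hx
    induction hx using Subgroup.closure_induction with
    | mem x hx =>
      obtain ⟨u, v, h2, rfl⟩ := hx
      exact hc.pow u v (h2 ▸ hw)
    | one => exact one_pow _
    | mul x y hx hy h1 h2 =>
      have h3 : Commute x y := hcomm x hx y hy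
      rw [h3.mul_pow, h1, h2, one_mul]
    | inv x hx h1 => rw [inv_pow, h1, inv_one]

/-- Hilbert 90 for diagonal matrices -/
def H90 (n : ℕ) (p : ℕ) (K : Type u) [Field K] [StarRing K] : Prop :=
  ∀ σ : K ≃+* K, (∀ a, σ (star a) = star (σ a)) → (σ : RingAut K) ^ p = 1 → σ ≠ RingEquiv.refl K →
    ∀ a : Fin n → K, (∀ i, a i * star (a i) = 1) →
      (∀ i j, ∏ k ∈ Finset.range p, (σ^[k]) (a i) = ∏ k ∈ Finset.range p, (σ^[k]) (a j)) →
      ∃ (u : GU K n) (b : K), diagonal a * u.1.map σ = b • u.1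

/-- the literal form of `t` -/
lemma exists_lit [Fact p.Prime] (h90 : H90 n p K) (hS : SGood p ζ c S) {L : Subgroup G} {ε : S →* G}
    (hε : PHom p ζ c L ε) {t : G} (htn : t ∈ Subgroup.normalizer (L : Set G)) (htp : t ^ p = 1)
    (htc : ∀ a ∈ De (eS S ζ c ε) (w0 K n), t * a = a * t)
    (htL : t ∉ L ⊔ Subgroup.centralizer (L : Set G)) :
    ∃ (u : GU K n) (σ : K ≃+* K), (∀ a, σ (star a) = star (σ a)) ∧ (σ : RingAut K) ^ p = 1 ∧
      σ ≠ RingEquiv.refl K ∧ σ ζ = ζ ∧ ActsS (ε.comp (cjS hS u)) t 1 σ := by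
  obtain ⟨g, σ, a, h1, h2, h3, h4⟩ := exists_acts hS hε htn (by rw [htp]; exact Subgroup.one_mem _) htc
  have hσ := not_lin hS hε h1 h2 htp htL
  obtain ⟨o1, o2⟩ := h1.order hS hε.ker h2 htp
  obtain ⟨u, b, hu⟩ := h90 σ h1.1 o1 hσ a h4 o2
  refine ⟨u, σ, h1.1, o1, hσ, h3, ?_⟩
  refine (h1.tw hS u).smul (by have := hS.hn; omega) (a := b) ?_
  rw [gu_mul, gu_mul, gu_inv, gmap_coe, h2, mul_assoc, hu, mul_smul_comm, star_gu]
  rfl

/-- every `De e w` is `De e' w0` in other coordinates -/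
lemma exists_tw (hS : SGood p ζ c S) (ε : S →* G) {w : List (Ln K n)} (hw : w ∈ Fr K n) :
    ∃ u : GU K n, De (eS S ζ c ε) w = De (eS S ζ c (ε.comp (cjS hS u))) (w0 K n) := by
  obtain ⟨u, rfl⟩ := exists_lnU hw
  exact ⟨u, (De_map hS ε u E1_orth).symm⟩

/-- **`LocTopF`** for the image of `S`. -/
theorem locTopF_of_PHom [Finite G] [Fact p.Prime] (𝕜 : Type w) [Field 𝕜] (hS : SGood p ζ c S)
    (h90 : H90 n p K) {L : Subgroup G} {ε : S →* G} (hε : PHom p ζ c L ε)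
    (hT1 : 0 < AS.t (Fr K n))
    (hcnt : ∀ σ : K ≃+* K, (∀ a, σ (star a) = star (σ a)) → (σ : RingAut K) ^ p = 1 →
      σ ≠ RingEquiv.refl K → σ ζ = ζ → SCnt S σ) :
    LocTopF 𝕜 p L := by
  have hn := hS.hn
  have hc := comb_eS hS hε.ker
  have htw : ∀ (u : GU K n) {w : List (Ln K n)}, w ∈ Fr K n →
      ∃ w' ∈ Fr K n, De (eS S ζ c (ε.comp (cjS hS u))) w = De (eS S ζ c ε) w' := by
    intro u w hw
    exact ⟨w.map (lnU u), (mem_Fr_map u).2 hw, De_map hS ε u ((mem_Fr K).1 hw).2⟩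
  have hcomp : ∀ u u' : GU K n, (ε.comp (cjS hS u)).comp (cjS hS u') = ε.comp (cjS hS (u * u')) := by
    intro u u'
    ext h
    show ε (cjS hS u (cjS hS u' h)) = ε (cjS hS (u * u') h)
    congr 1
    apply Subtype.ext
    show u * (u' * h.1 * u'⁻¹) * u⁻¹ = (u * u') * h.1 * (u * u')⁻¹
    group
  refine H938.locTopF_of 𝕜 (𝒜 := {A | ∃ w ∈ Fr K n, A = De (eS S ζ c ε) w}) (N := p ^ (n - 1))
    ⟨_, w0 K n, w0_mem, rfl⟩ ?_ (inf_cen hS hε) ?_ ?_ ?_ ?_ ?_
  · rintro _ ⟨w, hw, rfl⟩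
    exact ⟨De_le ε hε.range w, De_ApS hc (by omega) hw, hc.card w hw⟩
  · rintro _ ⟨w, hw, rfl⟩ l hl hlp hlc
    obtain ⟨u, hu⟩ := exists_tw hS ε hw
    rw [hu] at hlc ⊢
    exact hC0 hS (hε.tw hS u) hl hlp hlc
  · rintro _ ⟨w, hw, rfl⟩ t ht x hx htp hxp htx htc hxc htL
    obtain ⟨u, hu⟩ := exists_tw hS ε hw
    rw [hu] at htc hxc
    exact hF0 hS (hε.tw hS u) ht hx htp hxp htx htc hxc htL
  · obtain ⟨w, hw, α, φ, h1⟩ := H945.top_of_comb (by omega) hc hT1 𝕜 L (fun u v _ => by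
      rw [← hε.range]; exact ⟨_, rfl⟩)
    exact ⟨_, ⟨w, hw, rfl⟩, α, φ, h1⟩
  · rintro _ ⟨w, hw, rfl⟩ t ht htp htc htL
    obtain ⟨u, hu⟩ := exists_tw hS ε hw
    rw [hu] at htc
    obtain ⟨u', σ, s1, s2, s3, s4, hact⟩ := exists_lit h90 hS (hε.tw hS u) ht htp htc htL
    rw [hcomp] at hact
    have hε' := hε.tw hS (u * u')
    obtain ⟨F, hF, hp, hfix, hcount⟩ := hcnt σ s1 s2 s3 s4
    have htF : 0 < AS.t F := by
      by_contra h0
      have h1 : AS.t F = 0 := by omega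
      rw [h1, mul_zero, mul_zero] at hcount
      exact Nat.not_lt_zero _ hcount
    obtain ⟨w', hw', h1, α, φ, h2⟩ := t2_lit 𝕜 hS hε'.range hε'.ker hact s4 hF hp hfix htF
    obtain ⟨w'', hw'', h3⟩ := htw (u * u') hw'
    rw [h3] at h1 h2
    exact ⟨_, ⟨w'', hw'', rfl⟩, h1, α, φ, h2⟩
  · rintro _ ⟨w, hw, rfl⟩ t ht htp htc htL
    obtain ⟨u, hu⟩ := exists_tw hS ε hw
    rw [hu] at htc
    obtain ⟨u', σ, s1, s2, s3, s4, hact⟩ := exists_lit h90 hS (hε.tw hS u) ht htp htc htL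
    rw [hcomp] at hact
    have hε' := hε.tw hS (u * u')
    obtain ⟨w', hw', y, h0, h1, h2, α, φ, h3⟩ := t3_lit 𝕜 hS hε'.range hε'.ker hact s4 ht htp
      (fun h => htL (Subgroup.mem_sup_left h)) (hcnt σ s1 s2 s3 s4)
    obtain ⟨w'', hw'', h4⟩ := htw (u * u') hw'
    rw [h4] at h2 h3
    exact ⟨_, ⟨w'', hw'', rfl⟩, y, h0, h1, h2, α, φ, h3⟩

end

end

end Vale.Agent.P240.R2.H38
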