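import Vale.Agent.P240.R2.H938.W2
import Vale.Agent.P240.R2.H401.NL5

/-!
`StmtC1`, `StmtC2`, `StmtC3`: coordinates for `PSU_n(q)` when not all diagonal elements of order `p`
are inner.
-/

set_option autoImplicit false
set_option linter.all false

namespace Vale.Agent.P240.R2.H38

open Matrix Vale.Agent.P240.R2.AS Vale.Agent.P240.R2.H938
open scoped Classical

universe u v

noncomputable section

section
variable {K : Type u} [Field K] [Fintype K] [StarRing K] {n p : ℕ} {ζ : K} {G : Type v} [Group G]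

omit [Fintype K] in
lemma cjU_cjU_inv (u : GU K n) (h : SU K n) : cjU u (cjU u⁻¹ h) = h := by
  apply Subtype.ext
  show u * (u⁻¹ * h.1 * u⁻¹⁻¹) * u⁻¹ = h.1
  group

omit [Fintype K] in
lemma cjU_one (h : SU K n) : cjU 1 h = h := by
  apply Subtype.ext
  show 1 * h.1 * 1⁻¹ = h.1
  group

/-- a field automorphism on `SU` -/
def frU (σ : K ≃+* K) (hσ : ∀ a, σ (star a) = star (σ a)) (h : SU K n) : SU K n :=
  ⟨gmap σ hσ h.1, by
    show (gmap σ hσ h.1).1.det = 1
    have hg' : h.1.1.det = 1 := h.2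
    have h2 : (h.1.1.map σ).det = σ h.1.1.det := (RingHom.map_det (σ : K →+* K) h.1.1).symm
    rw [gmap_coe, h2, hg', map_one]⟩

omit [Fintype K] in
lemma mx_frU (σ : K ≃+* K) (hσ : ∀ a, σ (star a) = star (σ a)) (h : SU K n) :
    mx (frU σ hσ h) = (mx h).map σ := rfl

omit [Fintype K] in
/-- a support condition: `g D' = a D g` for diagonal matrices -/
lemma supp_of {D D' : Fin n → K} {g : GU K n} {a : K}
    (h : g.1 * diagonal D' * star g.1 = a • diagonal D) (l k : Fin n) (hlk : g.1 l k ≠ 0) :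
    D' k = a * D l := by
  have h1 : g.1 * diagonal D' = a • (diagonal D * g.1) := by
    have h2 := congrArg (fun A => A * g.1) h
    simp only [smul_mul_assoc] at h2
    rw [mul_assoc, star_gu, mul_one] at h2
    exact h2
  have h2 := congrFun (congrFun h1 l) k
  rw [mul_diagonal, Matrix.smul_apply, diagonal_mul, smul_eq_mul] at h2
  have h3 : g.1 l k * D' k = g.1 l k * (a * D l) := by rw [h2]; ring
  exact mul_left_cancel₀ hlk h3

/-- the matrix `diag(ζ, ζ⁻¹)` at `i, j` -/
def dij (ζ : K) (i j : Fin n) : Fin n → K :=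
  fun k => if k = i then ζ else if k = j then star ζ else 1

omit [Fintype K] in
lemma dij_norm (hz : ζ * star ζ = 1) (i j k : Fin n) : dij ζ i j k * star (dij ζ i j k) = 1 := by
  rw [dij]
  split_ifs
  · exact hz
  · rw [star_star, mul_comm]; exact hz
  · simp

omit [Fintype K] in
lemma dij_prod (hz : ζ * star ζ = 1) {i j : Fin n} (hij : i ≠ j) : ∏ k, dij ζ i j k = 1 := by
  have h1 : ∀ k, dij ζ i j k = (if k = i then ζ else 1) * (if k = j then star ζ else 1) := by
    intro k
    rw [dij]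
    by_cases h : k = i
    · subst h; simp [hij]
    · simp [h]
  rw [Finset.prod_congr rfl fun k _ => h1 k, Finset.prod_mul_distrib, Finset.prod_ite_eq',
    Finset.prod_ite_eq', if_pos (Finset.mem_univ _), if_pos (Finset.mem_univ _)]
  exact hz

omit [Fintype K] in
/-- diagonal elements of `SU` -/
lemma exists_diagU {d : Fin n → K} (h : ∀ i, d i * star (d i) = 1) (hd : ∏ k, d k = 1) :
    ∃ g : SU K n, mx g = diagonal d := by
  have hu : diagonal d ∈ Matrix.unitaryGroup (Fin n) K := by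
    rw [Matrix.mem_unitaryGroup_iff, star_eq_conjTranspose, diagonal_conjTranspose,
      diagonal_mul_diagonal, ← diagonal_one]
    congr 1
    funext i
    exact h i
  refine ⟨⟨⟨diagonal d, hu⟩, ?_⟩, rfl⟩
  show (diagonal d).det = 1
  rw [det_diagonal, hd]

omit [Fintype K] in
/-- few columns cannot carry many orthonormal rows -/
lemma no_rows (hn : 5 ≤ n) (g : GU K n) (i j : Fin n)
    (h : ∀ l, l ≠ i → l ≠ j → ∀ k, k ≠ i → k ≠ j → g.1 l k = 0) (hij : i ≠ j) : False := by
  let T : Finset (Fin n) := (Finset.univ.erase i).erase j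
  have hT : T.card = n - 2 := by
    rw [Finset.card_erase_of_mem (Finset.mem_erase.2 ⟨hij.symm, Finset.mem_univ _⟩),
      Finset.card_erase_of_mem (Finset.mem_univ _), Finset.card_univ, Fintype.card_fin]
    omega
  let R : Matrix T (Fin 2) K := Matrix.of fun l k => if k = 0 then g.1 l i else g.1 l j
  have hR : R * Rᴴ = 1 := by
    ext l l'
    rw [mul_apply, Fin.sum_univ_two, conjTranspose_apply, conjTranspose_apply]
    have e1 : ∀ l : T, R l 0 = g.1 l i := fun l => by simp [R]
    have e2 : ∀ l : T, R l 1 = g.1 l j := fun l => by simp [R]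
    rw [e1, e1, e2, e2]
    have h1 := congrFun (congrFun (gu_star g) l.1) l'.1
    rw [mul_apply] at h1
    have hl : l.1 ≠ i ∧ l.1 ≠ j := by
      have := l.2
      simp only [T, Finset.mem_erase, Finset.mem_univ, and_true] at this
      exact ⟨this.2, this.1⟩
    have h2 : ∑ k, g.1 l.1 k * (star g.1) k l'.1 =
        g.1 l.1 i * star (g.1 l'.1 i) + g.1 l.1 j * star (g.1 l'.1 j) := by
      rw [← Finset.sum_subset (Finset.subset_univ {i, j}), Finset.sum_pair hij]
      · rfl
      · intro k _ hk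
        simp only [Finset.mem_insert, Finset.mem_singleton, not_or] at hk
        rw [h l.1 hl.1 hl.2 k hk.1 hk.2, zero_mul]
    rw [← h2, h1, one_apply, one_apply]
    simp only [Subtype.ext_iff]
  have h1 := Matrix.rank_mul_le_left R Rᴴ
  rw [hR, Matrix.rank_one, Fintype.card_coe, hT] at h1
  have h2 := Matrix.rank_le_card_width R
  rw [Fintype.card_fin] at h2
  omega

omit [Fintype K] in
/-- **coordinates** from the matrices `diag(ζ, ζ⁻¹)` -/
lemma diagD [Fintype K] (hN : NumD K p n ζ) (g : GU K n) (σ : K ≃+* K)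
    (h : ∀ k ∈ TD K p (SU K n), ∃ a : K, g.1 * (mx k).map σ * star g.1 = a • mx k) :
    σ ζ = ζ ∧ ∃ d : Fin n → K, g.1 = diagonal d := by
  have hn := hN.hn
  have hst := hN.st
  have hζ0 : ζ ≠ 0 := left_ne_zero_of_mul_eq_one hst
  have hsζ1 : star ζ ≠ 1 := by
    intro h1
    apply hN.ne
    rw [h1, mul_one] at hst
    exact hst
  have hσ1 : σ ζ ≠ 1 := fun h1 => hN.ne (by rw [← map_one σ] at h1; exact σ.injective h1)
  have hσ1' : σ (star ζ) ≠ 1 := fun h1 => hsζ1 (by rw [← map_one σ] at h1; exact σ.injective h1)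
  have hnz : ∀ l, ∃ k, g.1 l k ≠ 0 := by
    intro l
    by_contra hcon
    push Not at hcon
    have h1 := congrFun (congrFun (gu_star g) l) l
    rw [mul_apply, one_apply_eq, Finset.sum_eq_zero fun k _ => by rw [hcon k, zero_mul]] at h1
    exact zero_ne_one h1
  have key : ∀ i j : Fin n, i ≠ j → ∀ k, g.1 i k ≠ 0 →
      (k = i ∨ k = j) ∧ (if k = i then σ ζ else σ (star ζ)) = ζ := by
    intro i j hij
    obtain ⟨D, hD⟩ := exists_diagU (fun k => dij_norm hst i j k) (dij_prod hst hij)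
    obtain ⟨a, ha⟩ := h D ⟨_, fun k => by
      rw [dij]
      split_ifs
      · exact hN.pow
      · rw [← star_pow, hN.pow, star_one]
      · exact one_pow _, hD⟩
    rw [hD] at ha
    have e1 : (diagonal (dij ζ i j)).map σ = diagonal (fun k => σ (dij ζ i j k)) :=
      diagonal_map (map_zero σ)
    rw [e1] at ha
    have hs := supp_of ha
    have hout : ∀ l, l ≠ i → l ≠ j → dij ζ i j l = 1 := fun l h1 h2 => by
      rw [dij, if_neg h1, if_neg h2]
    have ha1 : a = 1 := by
      by_contra hne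
      refine no_rows hn g i j (fun l hl hl' k hk hk' => ?_) hij
      by_contra hlk
      have h1 := hs l k hlk
      rw [hout l hl hl', hout k hk hk', map_one, mul_one] at h1
      exact hne h1.symm
    subst ha1
    intro k hk
    have h1 := hs i k hk
    rw [one_mul] at h1
    have e2 : dij ζ i j i = ζ := by rw [dij, if_pos rfl]
    rw [e2] at h1
    by_cases hki : k = i
    · subst hki
      rw [e2] at h1
      exact ⟨Or.inl rfl, by rw [if_pos rfl]; exact h1⟩
    · by_cases hkj : k = j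
      · subst hkj
        refine ⟨Or.inr rfl, ?_⟩
        rw [if_neg hki]
        rw [dij, if_neg hki, if_pos rfl] at h1
        exact h1
      · rw [hout k hki hkj, map_one] at h1
        exact absurd h1.symm hN.ne
  have hdiag : ∀ i k, g.1 i k ≠ 0 → k = i := by
    intro i k hk
    obtain ⟨j, j', hji, hj'i, hjj⟩ : ∃ j j' : Fin n, j ≠ i ∧ j' ≠ i ∧ j ≠ j' := by
      have h1 : 1 < (Finset.univ.erase i).card := by
        rw [Finset.card_erase_of_mem (Finset.mem_univ _), Finset.card_univ, Fintype.card_fin]; omega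
      obtain ⟨j, hj, j', hj', hne⟩ := Finset.one_lt_card.1 h1
      exact ⟨j, j', (Finset.mem_erase.1 hj).1, (Finset.mem_erase.1 hj').1, hne⟩
    rcases (key i j hji.symm k hk).1 with h1 | h1
    · exact h1
    · rcases (key i j' hj'i.symm k hk).1 with h2 | h2
      · exact h2
      · exact absurd (h1.symm.trans h2) hjj
  refine ⟨?_, fun i => g.1 i i, ?_⟩
  · set i : Fin n := ⟨0, by omega⟩
    set j : Fin n := ⟨1, by omega⟩
    have hij : i ≠ j := by
      intro h
      have := congrArg Fin.val h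
      simp [i, j] at this
    obtain ⟨k, hk⟩ := hnz i
    have h1 := hdiag i k hk
    rw [h1] at hk
    have h2 := (key i j hij i hk).2
    rwa [if_pos rfl] at h2
  · ext i k
    rw [diagonal_apply]
    by_cases hik : i = k
    · subst hik; simp
    · rw [if_neg hik]
      by_contra h1
      exact hik (hdiag i k h1).symm

/-- uniqueness of the matrix and the field automorphism, for `SU` -/
lemma uniqU (hN : NumD K p n ζ) {ε : SU K n →* G}
    (hker : ∀ g : SU K n, ε g = 1 ↔ ∃ a : K, mx g = a • (1 : Matrix (Fin n) (Fin n) K))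
    {x : G} {g h : GU K n} {σ τ : K ≃+* K} (hx : ActsS ε x g σ) (hy : ActsS ε x h τ) :
    σ = τ ∧ ∃ a : K, g.1 = a • h.1 := by
  have h1 : ∀ k : SU K n, ∃ a : K,
      g.1 * (mx k).map σ * star g.1 = a • (h.1 * (mx k).map τ * star h.1) := by
    intro k
    have e1 := hx.2 k (cjU g (frU σ hx.1 k)) (by rw [mx_cjU, mx_frU])
    have e2 := hy.2 k (cjU h (frU τ hy.1 k)) (by rw [mx_cjU, mx_frU])
    rw [e1] at e2
    obtain ⟨a, ha⟩ := (eps_eq hker).1 e2
    exact ⟨a, by rw [mx_cjU, mx_frU, mx_cjU, mx_frU] at ha; exact ha⟩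
  have hτs : ∀ a, τ.symm (star a) = star (τ.symm a) := by
    intro a
    apply τ.injective
    rw [hy.1, RingEquiv.apply_symm_apply, RingEquiv.apply_symm_apply]
  set ρ : K ≃+* K := τ.symm.trans σ with hρ
  have hρs : ∀ a, ρ (star a) = star (ρ a) := by
    intro a
    simp [hρ, hτs, hx.1]
  have h2 : ∀ m : SU K n, ∃ a : K,
      (h⁻¹ * g).1 * (mx m).map ρ * star (h⁻¹ * g).1 = a • mx m := by
    intro m
    obtain ⟨a, ha⟩ := h1 (frU τ.symm hτs m)
    refine ⟨a, ?_⟩
    rw [mx_frU] at ha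
    have e1 : ((mx m).map τ.symm).map σ = (mx m).map ρ := by ext i j; simp [hρ]
    have e2 : ((mx m).map τ.symm).map τ = mx m := by ext i j; simp
    rw [e1, e2] at ha
    rw [gu_mul, gu_inv, star_mul, star_star]
    calc star h.1 * g.1 * (mx m).map ρ * (star g.1 * h.1)
        = star h.1 * (g.1 * (mx m).map ρ * star g.1) * h.1 := by simp only [mul_assoc]
      _ = a • ((star h.1 * h.1) * mx m * (star h.1 * h.1)) := by
          rw [ha, mul_smul_comm, smul_mul_assoc]
          simp only [mul_assoc]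
      _ = _ := by rw [star_gu, one_mul, mul_one]
  obtain ⟨-, hd⟩ := diagD hN _ ρ fun k _ => h2 k
  obtain ⟨e1, a, ha⟩ := hN.uniq (h⁻¹ * g) ρ hρs hd h2
  constructor
  · ext y
    have := e1 (τ y)
    simpa [hρ] using this
  · refine ⟨a, ?_⟩
    have e2 : g = h * (h⁻¹ * g) := by group
    calc g.1 = (h * (h⁻¹ * g)).1 := by rw [← e2]
      _ = h.1 * (h⁻¹ * g).1 := rfl
      _ = _ := by rw [ha, mul_smul_comm, mul_one]

omit [Fintype K] in
/-- composition -/
lemma mulU {ε : SU K n →* G} {x y : G} {g h : GU K n} {σ τ : K ≃+* K}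
    (hx : ActsS ε x g σ) (hy : ActsS ε y h τ) :
    ActsS ε (x * y) (g * gmap σ hx.1 h) (τ.trans σ) := by
  refine ⟨fun a => by simp [hx.1, hy.1], fun a b hab => ?_⟩
  have h1 := hy.2 a (cjU h (frU τ hy.1 a)) (by rw [mx_cjU, mx_frU])
  have h2 := hx.2 (cjU h (frU τ hy.1 a)) b (by
    rw [mx_cjU, mx_frU, hab, gu_mul, gmap_coe, map_mul_mat, map_mul_mat, map_star_mat hx.1, star_mul]
    have h3 : (mx a).map (τ.trans σ) = ((mx a).map τ).map σ := by
      ext i j; simp
    rw [h3]
    simp only [mul_assoc])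
  have h3 : x * y * ε a * (x * y)⁻¹ = x * (y * ε a * y⁻¹) * x⁻¹ := by group
  rw [h3, h1, h2]

/-- powers -/
lemma powU {ε : SU K n →* G} {x : G} {g : GU K n} {σ : K ≃+* K} {a : Fin n → K}
    (hx : ActsS ε x g σ) (hg : g.1 = diagonal a) (m : ℕ) :
    ∃ h : GU K n, h.1 = diagonal (fun i => ∏ k ∈ Finset.range m, (σ^[k]) (a i)) ∧
      ActsS ε (x ^ m) h ((σ : RingAut K) ^ m : RingAut K) := by
  induction m with
  | zero =>
    refine ⟨1, ?_, ?_⟩
    · have h2 : ((1 : GU K n) : Matrix (Fin n) (Fin n) K) = 1 := rfl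
      rw [h2, ← diagonal_one]
      congr 1
    · rw [pow_zero, pow_zero]
      exact ActsS.one ε
  | succ m ih =>
    obtain ⟨h, h1, h2⟩ := ih
    refine ⟨g * gmap σ hx.1 h, ?_, ?_⟩
    · rw [gu_mul, gmap_coe, h1, hg, diagonal_map (map_zero σ), diagonal_mul_diagonal]
      congr 1
      funext i
      rw [Finset.prod_range_succ', mul_comm]
      congr 1
      rw [map_prod]
      refine Finset.prod_congr rfl fun k _ => ?_
      rw [Function.iterate_succ_apply']
    · rw [pow_succ' x, pow_succ' (σ : RingAut K)]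
      exact mulU hx h2

lemma orderU (hN : NumD K p n ζ) {ε : SU K n →* G}
    (hker : ∀ g : SU K n, ε g = 1 ↔ ∃ a : K, mx g = a • (1 : Matrix (Fin n) (Fin n) K)) {x : G}
    {g : GU K n} {σ : K ≃+* K} {a : Fin n → K}
    (hx : ActsS ε x g σ) (hg : g.1 = diagonal a) (hxp : x ^ p = 1) :
    (σ : RingAut K) ^ p = 1 ∧
      ∀ i j, ∏ k ∈ Finset.range p, (σ^[k]) (a i) = ∏ k ∈ Finset.range p, (σ^[k]) (a j) := by
  obtain ⟨h, h1, h2⟩ := powU hx hg p
  rw [hxp] at h2
  obtain ⟨e1, b, e2⟩ := uniqU hN hker h2 (ActsS.one ε)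
  refine ⟨e1, fun i j => ?_⟩
  have h3 : ((1 : GU K n) : Matrix (Fin n) (Fin n) K) = 1 := rfl
  rw [h1, h3] at e2
  have h4 := congrFun (congrFun e2 i) i
  have h5 := congrFun (congrFun e2 j) j
  rw [diagonal_apply_eq, Matrix.smul_apply, one_apply_eq] at h4 h5
  rw [h4, h5]

/-- (C1) -/
theorem stmtC1 : StmtC1.{u, v} := by
  intro K _ _ _ n p ζ G _ _ _ hN L ε hε x hxn hxp hxc
  obtain ⟨g, σ, hg⟩ := hε.sem 1 x hxn hxp hxc
  have h1 : ∀ k ∈ TD K p (SU K n), ∃ a : K, g.1 * (mx k).map σ * star g.1 = a • mx k := by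
    intro k hk
    have h2 := hg.2 k (cjU g (frU σ hg.1 k)) (by rw [mx_cjU, mx_frU])
    have h3 : x * ε k = ε k * x := hxc _ ⟨k, hk, by
      show ε (cjU 1 k) = ε k
      rw [cjU_one]⟩
    rw [h3, mul_inv_cancel_right] at h2
    obtain ⟨a, ha⟩ := (eps_eq hε.ker).1 h2.symm
    exact ⟨a, by rw [mx_cjU, mx_frU] at ha; exact ha⟩
  obtain ⟨h2, d, hd⟩ := diagD hN g σ h1
  obtain ⟨o1, o2⟩ := orderU hN hε.ker hg hd hxp
  refine ⟨g, σ, d, hg, hd, h2, o1, fun i => ?_, o2⟩
  have h3 := gu_star g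
  rw [hd, star_eq_conjTranspose, diagonal_conjTranspose, diagonal_mul_diagonal, ← diagonal_one] at h3
  exact congrFun (diagonal_injective h3) i

end

end

end Vale.Agent.P240.R2.H38
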