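import Vale.Agent.P240.R2.H487.CG.A9

/-!
Groups of type D, part 1: the quadratic form, its group of isometries of determinant one, and the
root elements.
-/

set_option autoImplicit false
set_option linter.all false

namespace Vale.Agent.P240.R2.H38.DD

open Subgroup Matrix Vale.Agent.P240.H195

/-- the index set with `2 k + 2` elements -/
abbrev VI (k : ℕ) : Type := Fin (2 * k + 1 + 1)

section
variable {k : ℕ}

lemma rv_val (a : VI k) : (Fin.rev a).val + a.val = 2 * k + 1 := by
  rw [Fin.val_rev]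
  have := a.2
  omega

lemma rv_ne (a : VI k) : Fin.rev a ≠ a := by
  intro h
  have h1 := congrArg Fin.val h
  have h2 := rv_val a
  omega

lemma rv_inj {a b : VI k} (h : a ≠ b) : Fin.rev b ≠ Fin.rev a :=
  fun h' => h (Fin.rev_injective h').symm

lemma lt_rv {a : VI k} : a < Fin.rev a ↔ a.val ≤ k := by
  have h2 := rv_val a
  rw [Fin.lt_def]
  omega

variable {F : Type*} [Field F]

/-- The standard quadratic form of plus type in dimension `2 k + 2`: the sum of the products
`v i * v (rev i)` over the first half of the coordinates. -/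
def Qd (k : ℕ) (F : Type*) [Field F] (v : VI k → F) : F :=
  ∑ i with i < Fin.rev i, v i * v (Fin.rev i)

/-- half sums -/
def HS (f : VI k → F) : F := ∑ i with i < Fin.rev i, f i

lemma Qd_eq (v : VI k → F) : Qd k F v = HS fun i => v i * v (Fin.rev i) := rfl

lemma HS_eq (f : VI k → F) : HS f = ∑ i, if i < Fin.rev i then f i else 0 := by
  unfold HS
  rw [Finset.sum_filter]

lemma HS_congr {f g : VI k → F} (h : ∀ i, i < Fin.rev i → f i = g i) : HS f = HS g := by
  unfold HS
  refine Finset.sum_congr rfl fun i hi => h i ?_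
  simpa using hi

lemma HS_zero {f : VI k → F} (h : ∀ i, i < Fin.rev i → f i = 0) : HS f = 0 := by
  unfold HS
  refine Finset.sum_eq_zero fun i hi => h i ?_
  simpa using hi

lemma HS_add (f g : VI k → F) : HS (fun i => f i + g i) = HS f + HS g := by
  unfold HS
  exact Finset.sum_add_distrib

lemma HS_all (g : VI k → F) : ∑ i, g i = HS fun i => g i + g (Fin.rev i) := by
  rw [HS_add]
  have h1 : HS (fun i : VI k => g (Fin.rev i)) = ∑ i, if i < Fin.rev i then 0 else g i := by
    rw [HS_eq, ← Equiv.sum_comp Fin.revPerm]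
    refine Finset.sum_congr rfl fun i _ => ?_
    rw [Fin.revPerm_apply, Fin.rev_rev]
    have h2 := rv_ne i
    by_cases h3 : i < Fin.rev i
    · rw [if_pos h3, if_neg (not_lt.2 h3.le)]
    · rw [if_neg h3, if_pos (lt_of_le_of_ne (not_lt.1 h3) h2)]
  rw [h1, HS_eq, ← Finset.sum_add_distrib]
  refine Finset.sum_congr rfl fun i _ => ?_
  by_cases h3 : i < Fin.rev i
  · rw [if_pos h3, if_pos h3, add_zero]
  · rw [if_neg h3, if_neg h3, zero_add]

/-- a representative in the first half -/
def hf (i : VI k) : VI k := if i < Fin.rev i then i else Fin.rev i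

lemma hf_lt (i : VI k) : hf i < Fin.rev (hf i) := by
  unfold hf
  split_ifs with h
  · exact h
  · rw [Fin.rev_rev]
    exact lt_of_le_of_ne (not_lt.1 h) (rv_ne i)

lemma hf_of {i : VI k} (h : i < Fin.rev i) : hf i = i := if_pos h

lemma hf_rev (i : VI k) : hf (Fin.rev i) = hf i := by
  unfold hf
  rw [Fin.rev_rev]
  rcases lt_or_gt_of_ne (rv_ne i) with h | h
  · rw [if_pos h, if_neg (not_lt.2 h.le)]
  · rw [if_neg (not_lt.2 h.le), if_pos h]

lemma hf_or (i : VI k) : hf i = i ∨ hf i = Fin.rev i := by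
  unfold hf
  split_ifs
  · exact Or.inl rfl
  · exact Or.inr rfl

lemma HS_perm (ρ : Equiv.Perm (VI k)) (hρ : ∀ i, ρ (Fin.rev i) = Fin.rev (ρ i)) {f : VI k → F}
    (hf' : ∀ i, f (Fin.rev i) = f i) : HS (fun i => f (ρ i)) = HS f := by
  unfold HS
  have hρ' : ∀ i, ρ.symm (Fin.rev i) = Fin.rev (ρ.symm i) := by
    intro i
    rw [Equiv.symm_apply_eq, hρ, Equiv.apply_symm_apply]
  refine Finset.sum_nbij' (fun i => hf (ρ i)) (fun i => hf (ρ.symm i)) ?_ ?_ ?_ ?_ ?_
  · intro i _
    simpa using hf_lt (ρ i)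
  · intro i _
    simpa using hf_lt (ρ.symm i)
  · intro i hi
    have hi' : i < Fin.rev i := by simpa using hi
    rcases hf_or (ρ i) with h | h
    · simp only [h, Equiv.symm_apply_apply]
      exact hf_of hi'
    · simp only [h, hρ', Equiv.symm_apply_apply, hf_rev]
      exact hf_of hi'
  · intro i hi
    have hi' : i < Fin.rev i := by simpa using hi
    rcases hf_or (ρ.symm i) with h | h
    · simp only [h, Equiv.apply_symm_apply]
      exact hf_of hi'
    · simp only [h, hρ, Equiv.apply_symm_apply, hf_rev]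
      exact hf_of hi'
  · intro i _
    rcases hf_or (ρ i) with h | h
    · simp only [h]
    · simp only [h, hf']

/-- the polar form -/
def Pd (v w : VI k → F) : F := ∑ i, v i * w (Fin.rev i)

lemma Qd_add (v w : VI k → F) : Qd k F (v + w) = Qd k F v + Qd k F w + Pd v w := by
  rw [Pd, HS_all, Qd_eq, Qd_eq, Qd_eq, ← HS_add, ← HS_add]
  refine HS_congr fun i _ => ?_
  simp only [Pi.add_apply, Fin.rev_rev]
  ring

/-- The group of matrices of determinant `1` that preserve the standard quadratic form of plus type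
in dimension `2 k + 2`. -/
def SOD (k : ℕ) (F : Type*) [Field F] : Subgroup (SLm (2 * k + 1) F) where
  carrier := {A | ∀ v, Qd k F (A.1 *ᵥ v) = Qd k F v}
  mul_mem' := by
    intro A B hA hB v
    rw [SpecialLinearGroup.coe_mul, ← Matrix.mulVec_mulVec, hA, hB]
  one_mem' := by
    intro v
    rw [SpecialLinearGroup.coe_one, Matrix.one_mulVec]
  inv_mem' := by
    intro A hA v
    have h1 : A.1 *ᵥ ((A⁻¹).1 *ᵥ v) = v := by
      rw [Matrix.mulVec_mulVec, ← SpecialLinearGroup.coe_mul, mul_inv_cancel,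
        SpecialLinearGroup.coe_one, Matrix.one_mulVec]
    have h2 := hA ((A⁻¹).1 *ᵥ v)
    rw [h1] at h2
    exact h2.symm

lemma mem_SOD {A : SLm (2 * k + 1) F} : A ∈ SOD k F ↔ ∀ v, Qd k F (A.1 *ᵥ v) = Qd k F v := Iff.rfl

lemma Pd_of {A : SLm (2 * k + 1) F} (hA : A ∈ SOD k F) (v w : VI k → F) :
    Pd (A.1 *ᵥ v) (A.1 *ᵥ w) = Pd v w := by
  have h1 := Qd_add (A.1 *ᵥ v) (A.1 *ᵥ w)
  rw [← Matrix.mulVec_add, hA, hA, hA, Qd_add] at h1
  exact (add_left_cancel h1).symm

lemma mv_single (A : SLm (2 * k + 1) F) (j i : VI k) :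
    (A.1 *ᵥ Pi.single j 1) i = A.1 i j := by
  rw [Matrix.mulVec_single_one]
  rfl

/-- orthogonality of the columns -/
lemma C1 {A : SLm (2 * k + 1) F} (hA : A ∈ SOD k F) (i j : VI k) :
    ∑ l, A.1 l i * A.1 (Fin.rev l) j = if Fin.rev i = j then 1 else 0 := by
  have h1 := Pd_of hA (Pi.single i 1) (Pi.single j 1)
  unfold Pd at h1
  simp only [mv_single] at h1
  rw [h1]
  rw [Finset.sum_eq_single i]
  · rw [Pi.single_eq_same, one_mul, Pi.single_apply]
  · intro l _ hl
    rw [Pi.single_eq_of_ne hl, zero_mul]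
  · exact fun h => absurd (Finset.mem_univ _) h

/-- the columns are singular -/
lemma C2 {A : SLm (2 * k + 1) F} (hA : A ∈ SOD k F) (j : VI k) :
    HS (fun l => A.1 l j * A.1 (Fin.rev l) j) = 0 := by
  have h1 := hA (Pi.single j 1)
  rw [Qd_eq, Qd_eq] at h1
  simp only [mv_single] at h1
  rw [h1]
  refine HS_zero fun i hi => ?_
  by_cases h2 : i = j
  · subst h2
    rw [Pi.single_eq_of_ne (rv_ne i), mul_zero]
  · rw [Pi.single_eq_of_ne h2, zero_mul]

/-- the root elements `1 + t E_ab - t E_(rev b, rev a)` -/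
def xr (a b : VI k) (t : F) : SLm (2 * k + 1) F :=
  if h : a ≠ b then tx h t * tx (rv_inj h) (-t) else 1

lemma xr_def {a b : VI k} (h : a ≠ b) (t : F) : xr a b t = tx h t * tx (rv_inj h) (-t) :=
  dif_pos h

lemma xr_apply {a b : VI k} (h : a ≠ b) (t : F) (i j : VI k) :
    (xr a b t).1 i j = (if i = j then 1 else 0) + (if i = a ∧ j = b then t else 0) +
      (if i = Fin.rev b ∧ j = Fin.rev a then -t else 0) := by
  rw [xr_def h, tx_mul_apply, tx_apply, tx_apply]
  have h1 : b ≠ Fin.rev b := (rv_ne b).symm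
  by_cases hi : i = a
  · subst hi
    by_cases hj : j = b
    · subst hj
      simp [h1]
      ring
    · simp [hj, Ne.symm hj, h1]
  · simp [hi]

lemma xr_mv {a b : VI k} (h : a ≠ b) (t : F) (v : VI k → F) :
    (xr a b t).1 *ᵥ v = v + fun i => (if i = a then t * v b else 0) +
      (if i = Fin.rev b then -t * v (Fin.rev a) else 0) := by
  funext i
  rw [Matrix.mulVec, dotProduct]
  simp only [xr_apply h, add_mul, Finset.sum_add_distrib, ite_mul, one_mul, zero_mul, Pi.add_apply,
    add_assoc]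
  congr 1
  · rw [Finset.sum_ite_eq Finset.univ i v, if_pos (Finset.mem_univ i)]
  · congr 1
    · by_cases hi : i = a
      · simp [hi]
      · simp [hi]
    · by_cases hi : i = Fin.rev b
      · simp [hi]
      · simp [hi]

lemma xr_mem {a b : VI k} (h : a ≠ b) (h' : a ≠ Fin.rev b) (t : F) : xr a b t ∈ SOD k F := by
  intro v
  rw [xr_mv h, Qd_add]
  set α : VI k → F := fun i => (if i = a then t * v b else 0) +
      (if i = Fin.rev b then -t * v (Fin.rev a) else 0) with hα
  have hr1 : Fin.rev a ≠ a := rv_ne a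
  have hr2 : b ≠ Fin.rev b := (rv_ne b).symm
  have h1 : Qd k F α = 0 := by
    rw [Qd_eq]
    refine HS_zero fun i _ => ?_
    simp only [hα]
    by_cases hi : i = a
    · subst hi
      have h2 : Fin.rev i ≠ Fin.rev b := fun h3 => h (Fin.rev_injective h3)
      simp [hr1, h2]
    · by_cases hi' : i = Fin.rev b
      · subst hi'
        simp [hi, hr2, Ne.symm h, Fin.rev_rev]
      · simp [hi, hi']
  have h2 : Pd v α = 0 := by
    unfold Pd
    simp only [hα, mul_add, Finset.sum_add_distrib, mul_ite, mul_zero]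
    have e1 : ∀ i : VI k, (Fin.rev i = a) ↔ i = Fin.rev a := fun i =>
      ⟨fun h => by rw [← h, Fin.rev_rev], fun h => by rw [h, Fin.rev_rev]⟩
    have e2 : ∀ i : VI k, (Fin.rev i = Fin.rev b) ↔ i = b := fun i =>
      ⟨fun h => Fin.rev_injective h, fun h => by rw [h]⟩
    simp only [e1, e2]
    rw [Finset.sum_ite_eq' Finset.univ (Fin.rev a), Finset.sum_ite_eq' Finset.univ b,
      if_pos (Finset.mem_univ _), if_pos (Finset.mem_univ _)]
    ring
  rw [h1, h2, add_zero, add_zero]

lemma tx_cm {a b a' b' : VI k} (h : a ≠ b) (h' : a' ≠ b') (h1 : b ≠ a') (h2 : b' ≠ a)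
    (s t : F) : tx h s * tx h' t = tx h' t * tx h s :=
  Vale.Agent.P240.R2.H487.CG.tx_comm' h h' h1 h2 s t

lemma xr_add {a b : VI k} (h : a ≠ b) (h' : a ≠ Fin.rev b) (s t : F) :
    xr a b s * xr a b t = xr a b (s + t) := by
  rw [xr_def h, xr_def h, xr_def h]
  have h1 := tx_cm (rv_inj h) h (rv_ne a) (rv_ne b).symm (-s) t
  calc tx h s * tx (rv_inj h) (-s) * (tx h t * tx (rv_inj h) (-t))
      = tx h s * (tx (rv_inj h) (-s) * tx h t) * tx (rv_inj h) (-t) := by group
    _ = (tx h s * tx h t) * (tx (rv_inj h) (-s) * tx (rv_inj h) (-t)) := by rw [h1]; group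
    _ = _ := by rw [tx_mul_tx, tx_mul_tx]; congr 2; ring

lemma xr_zero (a b : VI k) : xr a b (0 : F) = 1 := by
  unfold xr
  split_ifs with h
  · rw [neg_zero, tx_zero, tx_zero, one_mul]
  · rfl

lemma xr_inv {a b : VI k} (h : a ≠ b) (h' : a ≠ Fin.rev b) (t : F) :
    (xr a b t)⁻¹ = xr a b (-t) := by
  rw [inv_eq_iff_mul_eq_one, xr_add h h', add_neg_cancel, xr_zero]

lemma xr_up {a b : VI k} (h : a < b) (t : F) : IsUp (xr a b t) := by
  rw [xr_def h.ne]
  exact up_mul (tx_up h t) (tx_up (Fin.rev_lt_rev.2 h) _)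

lemma xr_diag {a b : VI k} (h : a ≠ b) (t : F) (i : VI k) : (xr a b t).1 i i = 1 := by
  rw [xr_apply h, if_pos rfl, if_neg, if_neg, add_zero, add_zero]
  · rintro ⟨rfl, h2⟩
    exact h (Fin.rev_injective h2).symm
  · rintro ⟨rfl, h2⟩
    exact h h2

lemma xr_rev {a b : VI k} (h : a ≠ b) (t : F) : xr (Fin.rev b) (Fin.rev a) t = xr a b (-t) := by
  refine sl_ext fun i j => ?_
  rw [xr_apply h, xr_apply (rv_inj h), Fin.rev_rev, Fin.rev_rev, neg_neg]
  ring

end

end Vale.Agent.P240.R2.H38.DD
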