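import Vale.Agent.P240.R2.H38.D9

/-!
Groups of type D, part 10: every isometry is a product of root elements and a monomial isometry with
permutation `1` or the middle transposition.
-/

set_option autoImplicit false
set_option linter.all false

namespace Vale.Agent.P240.R2.H38.DD

open Subgroup Matrix Vale.Agent.P240.H195

section
variable {k : ℕ} {F : Type*} [Field F] [Finite F]

lemma pivot1 {P : Set (VI k)} (hPr : ∀ j ∈ P, Fin.rev j ∈ P) {c i : VI k} (hcP : c ∉ P)
    {M : SLm (2 * k + 1) F} (hM : M ∈ SOD k F) (hP : ∀ j ∈ P, Dg M j) (h0 : M.1 c c = 0)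
    (hic : i ≠ c) (hic' : i ≠ Fin.rev c) (hi : M.1 i c ≠ 0) :
    ∃ e ∈ EE k F, (∀ j ∈ P, Dg (e * M) j) ∧ (e * M).1 c c ≠ 0 := by
  have hci' : c ≠ Fin.rev i := fun h => hic' (by rw [h, Fin.rev_rev])
  have hiP : i ∉ P := by
    intro h1
    have h2 := Dg_row hM (hP _ (hPr i h1)) (c := c) (by rw [Fin.rev_rev]; exact hic)
    rw [Fin.rev_rev] at h2
    exact hi h2
  have hrP : Fin.rev c ∉ P := by
    intro h1
    have h2 := hPr _ h1
    rw [Fin.rev_rev] at h2
    exact hcP h2
  have hent := xr_mul_apply hic.symm hci' M 1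
  refine ⟨xr c i 1, xr_EE hic.symm hci' 1, ?_, ?_⟩
  · intro j hj l hl
    have h1 : i ≠ j := by rintro rfl; exact hiP hj
    have h2 : Fin.rev c ≠ j := by rintro rfl; exact hrP hj
    rw [hent, hP j hj l hl, hP j hj i h1, hP j hj _ h2]
    simp
  · rw [hent, h0, if_pos rfl, if_neg hci', zero_add, add_zero, one_mul]
    exact hi

lemma pivot {P : Set (VI k)} (hPr : ∀ j ∈ P, Fin.rev j ∈ P) {c b : VI k} (hcP : c ∉ P)
    (hbP : b ∉ P) (hbc : b ≠ c) (hbc' : b ≠ Fin.rev c)
    {M : SLm (2 * k + 1) F} (hM : M ∈ SOD k F) (hP : ∀ j ∈ P, Dg M j) :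
    ∃ e ∈ EE k F, (∀ j ∈ P, Dg (e * M) j) ∧ (e * M).1 c c ≠ 0 := by
  by_cases h0 : M.1 c c = 0
  · by_cases h1 : ∃ i, i ≠ c ∧ i ≠ Fin.rev c ∧ M.1 i c ≠ 0
    · obtain ⟨i, hic, hic', hi⟩ := h1
      exact pivot1 hPr hcP hM hP h0 hic hic' hi
    · push Not at h1
      have hr0 : M.1 (Fin.rev c) c ≠ 0 := by
        intro h2
        have hcol : ∀ i, M.1 i c = 0 := by
          intro i
          by_cases hi : i = c
          · rw [hi, h0]
          · by_cases hi' : i = Fin.rev c
            · rw [hi', h2]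
            · exact h1 i hi hi'
        have hdet := M.2
        rw [Matrix.det_eq_zero_of_column_eq_zero c hcol] at hdet
        exact zero_ne_one hdet
      have hrP : Fin.rev c ∉ P := by
        intro h1
        have h2 := hPr _ h1
        rw [Fin.rev_rev] at h2
        exact hcP h2
      have hbP' : Fin.rev b ∉ P := by
        intro h1
        have h2 := hPr _ h1
        rw [Fin.rev_rev] at h2
        exact hbP h2
      have hbc'' : b ≠ Fin.rev (Fin.rev c) := by rw [Fin.rev_rev]; exact hbc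
      have hent := xr_mul_apply hbc' hbc'' M 1
      have hM' : xr b (Fin.rev c) 1 * M ∈ SOD k F := mul_mem (xr_mem hbc' hbc'' 1) hM
      have hP' : ∀ j ∈ P, Dg (xr b (Fin.rev c) 1 * M) j := by
        intro j hj l hl
        have h2 : Fin.rev b ≠ j := by rintro rfl; exact hbP' hj
        have h3 : Fin.rev c ≠ j := by rintro rfl; exact hrP hj
        rw [hent, hP j hj l hl, hP j hj _ h2, hP j hj _ h3]
        simp
      have hrb : Fin.rev b ≠ c := fun h => hbc' (by rw [← h, Fin.rev_rev])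
      have hrb' : Fin.rev b ≠ Fin.rev c := fun h => hbc (Fin.rev_injective h)
      have h4 : (xr b (Fin.rev c) 1 * M).1 c c = 0 := by
        rw [hent, h0, if_neg hbc.symm, Fin.rev_rev, if_pos rfl, h1 _ hrb hrb']
        simp
      have h5 : (xr b (Fin.rev c) 1 * M).1 b c ≠ 0 := by
        rw [hent, h1 b hbc hbc', if_pos rfl, Fin.rev_rev, if_neg hbc, zero_add, add_zero, one_mul]
        exact hr0
      obtain ⟨e, he, h6, h7⟩ := pivot1 hPr hcP hM' hP' h4 hbc hbc' h5
      exact ⟨e * xr b (Fin.rev c) 1, mul_mem he (xr_EE hbc' hbc'' 1), by rw [mul_assoc]; exact h6,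
        by rw [mul_assoc]; exact h7⟩
  · exact ⟨1, one_mem _, by rwa [one_mul], by rwa [one_mul]⟩

lemma elim_step : ∀ j : ℕ, j ≤ k → ∀ M ∈ SOD k F, ∃ e ∈ EE k F,
    ∀ c : VI k, (c.val < j ∨ (Fin.rev c).val < j) → Dg (e * M) c := by
  intro j
  induction j with
  | zero =>
    intro _ M _
    refine ⟨1, one_mem _, fun c hc => ?_⟩
    omega
  | succ j ih =>
    intro hj M hM
    obtain ⟨e0, he0, h0⟩ := ih (by omega) M hM
    set P : Set (VI k) := {c | c.val < j ∨ (Fin.rev c).val < j} with hPdef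
    have hPr : ∀ c ∈ P, Fin.rev c ∈ P := by
      rintro c (hc | hc)
      · right
        rw [Fin.rev_rev]
        exact hc
      · exact Or.inl hc
    obtain ⟨c, hc⟩ : ∃ c : VI k, c.val = j := ⟨⟨j, by omega⟩, rfl⟩
    obtain ⟨b, hb⟩ : ∃ b : VI k, b.val = j + 1 := ⟨⟨j + 1, by omega⟩, rfl⟩
    have hrc := rv_val c
    have hrb := rv_val b
    have hcP : c ∉ P := by
      rintro (h1 | h1) <;> omega
    have hbP : b ∉ P := by
      rintro (h1 | h1) <;> omega
    have hbc : b ≠ c := fun h => by rw [h] at hb; omega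
    have hbc' : b ≠ Fin.rev c := fun h => by rw [h] at hb; omega
    have hM0 : e0 * M ∈ SOD k F := mul_mem (EE_le he0) hM
    obtain ⟨e1, he1, h1, h2⟩ := pivot hPr hcP hbP hbc hbc' hM0 h0
    have hM1 : e1 * (e0 * M) ∈ SOD k F := mul_mem (EE_le he1) hM0
    obtain ⟨e2, he2, h3, h4⟩ := clear (2 * k + 1 + 1) _ hM1 h1 h2
      (fun i _ _ hi => absurd i.2 (by omega))
    have hM2 : e2 * (e1 * (e0 * M)) ∈ SOD k F := mul_mem (EE_le he2) hM1
    have h5 : (e2 * (e1 * (e0 * M))).1 (Fin.rev c) (Fin.rev c) ≠ 0 := by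
      have h6 := C1 hM2 c (Fin.rev c)
      rw [if_pos rfl, Finset.sum_eq_single c] at h6
      · exact right_ne_zero_of_mul (h6 ▸ one_ne_zero)
      · intro l _ hl
        rw [h4 l hl, zero_mul]
      · exact fun h => absurd (Finset.mem_univ _) h
    obtain ⟨e3, he3, h6, h7⟩ := clear (P := P ∪ {c}) (2 * k + 1 + 1) _ hM2 (by
      rintro j (hj | hj)
      · exact h3 j hj
      · rw [Set.mem_singleton_iff] at hj
        rw [hj]
        exact h4) h5 (fun i _ _ hi => absurd i.2 (by omega))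
    refine ⟨e3 * (e2 * (e1 * e0)), mul_mem he3 (mul_mem he2 (mul_mem he1 he0)), fun d hd => ?_⟩
    have e : e3 * (e2 * (e1 * e0)) * M = e3 * (e2 * (e1 * (e0 * M))) := by group
    rw [e]
    by_cases hdP : d ∈ P
    · exact h6 d (Or.inl hdP)
    · have hdP' : ¬ (d.val < j ∨ (Fin.rev d).val < j) := hdP
      have hrd := rv_val d
      by_cases hdc : d = c
      · exact h6 d (Or.inr hdc)
      · have : d = Fin.rev c := by
          apply Fin.ext
          have h8 : d.val ≠ c.val := fun h => hdc (Fin.ext h)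
          omega
        rw [this]
        exact h7

/-- every isometry of determinant one is a product of root elements and a monomial isometry -/
theorem elim {A : SLm (2 * k + 1) F} (hA : A ∈ SOD k F) :
    ∃ e ∈ EE k F, ∃ n ∈ SOD k F, (Mon n 1 ∨ Mon n (pp k)) ∧ A = e * n := by
  obtain ⟨e, he, h⟩ := elim_step k le_rfl A hA
  have hM : e * A ∈ SOD k F := mul_mem (EE_le he) hA
  refine ⟨e⁻¹, inv_mem he, e * A, hM, ?_, by group⟩
  generalize e * A = M at h hM
  have hne : ∀ c : VI k, c ≠ c0 k → c ≠ c1 k → Dg M c := by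
    intro c hc0 hc1
    apply h
    have h1 : c.val ≠ k := fun h => hc0 (Fin.ext h)
    have h2 : c.val ≠ k + 1 := fun h => hc1 (Fin.ext h)
    have h3 := rv_val c
    omega
  have hrow : ∀ c i : VI k, i ≠ c0 k → i ≠ c1 k → i ≠ c → M.1 i c = 0 := by
    intro c i h0 h1 hic
    have h2 : Fin.rev i ≠ c0 k := fun h => h1 (by rw [← Fin.rev_rev i, h, rev_c0])
    have h3 : Fin.rev i ≠ c1 k := fun h => h0 (by rw [← Fin.rev_rev i, h, rev_c1])
    have h4 := Dg_row hM (hne _ h2 h3) (c := c) (by rw [Fin.rev_rev]; exact hic)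
    rwa [Fin.rev_rev] at h4
  have hq0 : M.1 (c0 k) (c0 k) * M.1 (c1 k) (c0 k) = 0 := by
    have h8 := C2 hM (c0 k)
    rw [HS_single (c0 k), rev_c0] at h8
    · exact h8
    · intro l hl hl'
      rw [rev_c0] at hl'
      rw [hrow _ l hl hl' hl, zero_mul]
    · rw [Fin.rev_rev, mul_comm]
  have hq1 : M.1 (c1 k) (c1 k) * M.1 (c0 k) (c1 k) = 0 := by
    have h8 := C2 hM (c1 k)
    rw [HS_single (c1 k), rev_c1] at h8
    · exact h8
    · intro l hl hl'
      rw [rev_c1] at hl'
      rw [hrow _ l hl' hl hl, zero_mul]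
    · rw [Fin.rev_rev, mul_comm]
  have hb : M.1 (c0 k) (c0 k) * M.1 (c1 k) (c1 k) + M.1 (c1 k) (c0 k) * M.1 (c0 k) (c1 k) = 1 := by
    have h8 := C1 hM (c0 k) (c1 k)
    rw [rev_c0, if_pos rfl, Finset.sum_eq_add (c0 k) (c1 k) c0_ne, rev_c0, rev_c1] at h8
    · exact h8
    · intro l _ hl
      rw [hrow _ l hl.1 hl.2 hl.1, zero_mul]
    · exact fun h => absurd (Finset.mem_univ _) h
    · exact fun h => absurd (Finset.mem_univ _) h
  by_cases h0 : M.1 (c0 k) (c0 k) = 0
  · right
    rw [h0, zero_mul, zero_add] at hb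
    have h1 : M.1 (c0 k) (c1 k) ≠ 0 := right_ne_zero_of_mul (hb ▸ one_ne_zero)
    have h2 : M.1 (c1 k) (c1 k) = 0 := (mul_eq_zero.1 hq1).resolve_right h1
    intro i j hij
    unfold pp
    by_cases hj0 : j = c0 k
    · rw [hj0] at hij ⊢
      rw [Equiv.swap_apply_left]
      by_contra hne'
      apply hij
      by_cases hi0 : i = c0 k
      · rw [hi0, h0]
      · exact hrow _ i hi0 hne' hi0
    · by_cases hj1 : j = c1 k
      · rw [hj1] at hij ⊢
        rw [Equiv.swap_apply_right]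
        by_contra hne'
        apply hij
        by_cases hi1 : i = c1 k
        · rw [hi1, h2]
        · exact hrow _ i hne' hi1 hi1
      · rw [Equiv.swap_apply_of_ne_of_ne hj0 hj1]
        by_contra hne'
        exact hij (hne j hj0 hj1 i hne')
  · left
    have h1 : M.1 (c1 k) (c0 k) = 0 := (mul_eq_zero.1 hq0).resolve_left h0
    rw [h1, zero_mul, add_zero] at hb
    have h2 : M.1 (c1 k) (c1 k) ≠ 0 := right_ne_zero_of_mul (hb ▸ one_ne_zero)
    have h3 : M.1 (c0 k) (c1 k) = 0 := (mul_eq_zero.1 hq1).resolve_left h2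
    intro i j hij
    rw [Equiv.Perm.one_apply]
    by_contra hne'
    apply hij
    by_cases hj0 : j = c0 k
    · rw [hj0] at hne' ⊢
      by_cases hi1 : i = c1 k
      · rw [hi1, h1]
      · exact hrow _ i hne' hi1 hne'
    · by_cases hj1 : j = c1 k
      · rw [hj1] at hne' ⊢
        by_cases hi0 : i = c0 k
        · rw [hi0, h3]
        · exact hrow _ i hi0 hne' hne'
      · exact hne j hj0 hj1 i hne'

end

end Vale.Agent.P240.R2.H38.DD
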