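import Mathlib.GroupTheory.Commutator.Basic
import Mathlib.GroupTheory.Abelianization.Defs
import Vale.Agent.P240.R2.H38.D10

/-!
Groups of type D, part 11: the group generated by the root elements is the commutator subgroup of the
group of isometries of determinant one.
-/

set_option autoImplicit false
set_option linter.all false

namespace Vale.Agent.P240.R2.H38.DD

open Subgroup Matrix Vale.Agent.P240.H195
open scoped commutatorElement

section
variable {k : ℕ} {F : Type*} [Field F] [Finite F]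

/-- the monomial element of a root -/
def ww (a b : VI k) (c : F) : SLm (2 * k + 1) F := xr a b (-c⁻¹) * (xr b a c * xr a b (-c⁻¹))

omit [Finite F] in
lemma ww_EE {a b : VI k} (h : a ≠ b) (h' : a ≠ Fin.rev b) (c : F) : ww a b c ∈ EE k F :=
  mul_mem (xr_EE h h' _) (mul_mem (xr_EE h.symm (fun h5 => h' (by rw [h5, Fin.rev_rev])) _)
    (xr_EE h h' _))

omit [Finite F] in
lemma ww_mon {a b : VI k} (h : a ≠ b) (h' : a ≠ Fin.rev b) {c : F} (hc : c ≠ 0) :
    Mon (ww a b c) (Equiv.swap a b * Equiv.swap (Fin.rev b) (Fin.rev a)) := xr_rank h h' hc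

omit [Finite F] in
lemma ww_entry {a b : VI k} (h : a ≠ b) (h' : a ≠ Fin.rev b) {c : F} (hc : c ≠ 0) :
    (ww a b c).1 b a = c ∧ (ww a b c).1 a b = -c⁻¹ ∧
      ∀ j, j ≠ a → j ≠ b → j ≠ Fin.rev a → j ≠ Fin.rev b → (ww a b c).1 j j = 1 := by
  have hra := rv_ne a
  have hrb := rv_ne b
  have h1 : b ≠ Fin.rev a := fun h5 => h' (by rw [h5, Fin.rev_rev])
  have h2 : Fin.rev b ≠ Fin.rev a := rv_inj h
  have hent : ∀ i j, (ww a b c).1 i j = (xr a b (-c⁻¹) * xr b a c).1 i j +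
      (if j = b then (xr a b (-c⁻¹) * xr b a c).1 i a * (-c⁻¹) else 0) +
      (if j = Fin.rev a then (xr a b (-c⁻¹) * xr b a c).1 i (Fin.rev b) * -(-c⁻¹) else 0) := by
    intro i j
    unfold ww
    rw [← mul_assoc]
    exact mul_xr_apply h h' _ _ i j
  have hent2 : ∀ i j, (xr a b (-c⁻¹) * xr b a c).1 i j = (xr a b (-c⁻¹)).1 i j +
      (if j = a then (xr a b (-c⁻¹)).1 i b * c else 0) +
      (if j = Fin.rev b then (xr a b (-c⁻¹)).1 i (Fin.rev a) * -c else 0) :=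
    fun i j => mul_xr_apply h.symm h1 _ _ i j
  refine ⟨?_, ?_, ?_⟩
  · rw [hent, if_neg h, if_neg hra.symm, hent2, if_pos rfl, if_neg h', xr_apply h, xr_apply h]
    simp [h, h.symm, hrb.symm, hra.symm, h1]
  · rw [hent, if_pos rfl, if_neg h1, hent2, hent2, if_neg h.symm, if_neg hrb.symm, if_pos rfl,
      if_neg h', xr_apply h, xr_apply h]
    simp [h, h.symm, hrb.symm, hra.symm, h', h1, hc]
  · intro j hja hjb hjra hjrb
    rw [hent, if_neg hjb, if_neg hjra, hent2, if_neg hja, if_neg hjrb, xr_apply h]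
    simp [hja, hjrb]

/-- diagonal elements -/
lemma exists_h {a b : VI k} (h : a ≠ b) (h' : a ≠ Fin.rev b) {c : F} (hc : c ≠ 0) :
    ∃ d ∈ EE k F, Mon d 1 ∧ d.1 a a = c⁻¹ ∧ d.1 b b = c ∧ d.1 (Fin.rev a) (Fin.rev a) = c ∧
      d.1 (Fin.rev b) (Fin.rev b) = c⁻¹ ∧
      ∀ j, j ≠ a → j ≠ b → j ≠ Fin.rev a → j ≠ Fin.rev b → d.1 j j = 1 := by
  have hw1 := ww_mon h h' (c := c) hc
  have hw2 := ww_mon h h' (c := (1 : F)) one_ne_zero
  obtain ⟨e1, e2, e3⟩ := ww_entry h h' hc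
  obtain ⟨f1, f2, f3⟩ := ww_entry h h' (one_ne_zero (α := F))
  obtain ⟨d, hd⟩ : ∃ d, d = ww a b c * (ww a b 1)⁻¹ := ⟨_, rfl⟩
  have hdE : d ∈ EE k F := by
    rw [hd]
    exact mul_mem (ww_EE h h' c) (inv_mem (ww_EE h h' 1))
  have hdM : Mon d 1 := by
    have := mon_mul hw1 (mon_inv hw2)
    rw [mul_inv_cancel, ← hd] at this
    exact this
  have hmul : d * ww a b 1 = ww a b c := by rw [hd]; group
  have hent : ∀ i j, d.1 i i * (ww a b 1).1 i j = (ww a b c).1 i j := by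
    intro i j
    rw [← hmul, sl_mul, Finset.sum_eq_single i]
    · intro l _ hl
      rw [mon_eq hdM (by rw [Equiv.Perm.one_apply]; exact hl.symm), zero_mul]
    · exact fun h => absurd (Finset.mem_univ _) h
  have hbb : d.1 b b = c := by
    have := hent b a
    rwa [f1, mul_one, e1] at this
  have haa : d.1 a a = c⁻¹ := by
    have := hent a b
    rw [f2, e2, inv_one, mul_neg, mul_one] at this
    exact neg_injective this
  have hdS := EE_le hdE
  have hr : ∀ j : VI k, d.1 j j * d.1 (Fin.rev j) (Fin.rev j) = 1 := fun j =>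
    up_dd hdS (mem_T' hdM) j
  refine ⟨d, hdE, hdM, haa, hbb, ?_, ?_, ?_⟩
  · have := hr a
    rw [haa] at this
    exact (inv_mul_eq_one₀ hc).1 this |>.symm
  · have := hr b
    rw [hbb] at this
    exact (inv_eq_of_mul_eq_one_right this).symm
  · intro j h1 h2 h3 h4
    have := hent j j
    rwa [f3 j h1 h2 h3 h4, mul_one, e3 j h1 h2 h3 h4] at this

lemma diag_mul {d e : SLm (2 * k + 1) F} (hd : Mon d 1) (j : VI k) :
    (d * e).1 j j = d.1 j j * e.1 j j := by
  rw [sl_mul, Finset.sum_eq_single j]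
  · intro l _ hl
    rw [mon_eq hd (by rw [Equiv.Perm.one_apply]; exact hl.symm), zero_mul]
  · exact fun h => absurd (Finset.mem_univ _) h

lemma diag_ext {d e : SLm (2 * k + 1) F} (hd : Mon d 1) (he : Mon e 1)
    (h : ∀ j, d.1 j j = e.1 j j) : d = e := by
  refine sl_ext fun i j => ?_
  by_cases hij : i = j
  · rw [hij, h]
  · rw [mon_eq hd (by rw [Equiv.Perm.one_apply]; exact hij),
      mon_eq he (by rw [Equiv.Perm.one_apply]; exact hij)]

lemma exists_D (hk : 0 < k) (a : VI k) {c : F} (hc : c ≠ 0) :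
    ∃ d ∈ EE k F, Mon d 1 ∧ d.1 a a = (c * c)⁻¹ ∧ d.1 (Fin.rev a) (Fin.rev a) = c * c ∧
      ∀ j, j ≠ a → j ≠ Fin.rev a → d.1 j j = 1 := by
  obtain ⟨b, h, h'⟩ : ∃ b : VI k, a ≠ b ∧ a ≠ Fin.rev b := by
    have hra := rv_val a
    by_cases ha : a.val = 0 ∨ a.val = 2 * k + 1
    · refine ⟨⟨1, by omega⟩, ?_, ?_⟩
      · rw [Ne, Fin.ext_iff]
        change ¬ a.val = 1
        omega
      · intro h
        rw [Fin.ext_iff, Fin.val_rev] at h
        simp only at h
        omega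
    · refine ⟨⟨0, by omega⟩, ?_, ?_⟩
      · rw [Ne, Fin.ext_iff]
        change ¬ a.val = 0
        omega
      · intro h
        rw [Fin.ext_iff, Fin.val_rev] at h
        simp only at h
        omega
  have h'' : a ≠ Fin.rev (Fin.rev b) := by rw [Fin.rev_rev]; exact h
  obtain ⟨d, hdE, hdM, d1, d2, d3, d4, d5⟩ := exists_h h h' hc
  obtain ⟨e, heE, heM, e1, e2, e3, e4, e5⟩ := exists_h h' h'' hc
  rw [Fin.rev_rev] at e4 e5
  have hM : Mon (d * e) 1 := by
    have := mon_mul hdM heM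
    rwa [mul_one] at this
  refine ⟨d * e, mul_mem hdE heE, hM, ?_, ?_, ?_⟩
  · rw [diag_mul hdM, d1, e1, mul_inv]
  · rw [diag_mul hdM, d3, e3]
  · intro j hj hj'
    rw [diag_mul hdM]
    by_cases hb : j = b
    · rw [hb, d2, e4, mul_inv_cancel₀ hc]
    · by_cases hb' : j = Fin.rev b
      · rw [hb', d4, e2, inv_mul_cancel₀ hc]
      · rw [d5 j hj hb hj' hb', e5 j hj hb' hj' hb, one_mul]

/-- commutators of a diagonal element and an element with the middle transposition -/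
lemma comm_diag (hk : 0 < k) {n m : SLm (2 * k + 1) F} (hn : n ∈ SOD k F) (hn1 : Mon n 1)
    (hm : Mon m (pp k)) : n * (m * n⁻¹ * m⁻¹) ∈ EE k F := by
  have hc : n.1 (c0 k) (c0 k) ≠ 0 := by
    have := mon_ne hn1 (c0 k)
    rwa [Equiv.Perm.one_apply] at this
  obtain ⟨d, hdE, hdM, d1, d2, d3⟩ := exists_D hk (c1 k) hc
  rw [rev_c1] at d2 d3
  have hni : Mon n⁻¹ 1 := by
    have := mon_inv hn1
    rwa [inv_one] at this
  have hz : Mon (m * n⁻¹ * m⁻¹) 1 := by
    have := mon_mul (mon_mul hm hni) (mon_inv hm)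
    rwa [mul_one, mul_inv_cancel] at this
  have hzz : Mon (n * (m * n⁻¹ * m⁻¹)) 1 := by
    have := mon_mul hn1 hz
    rwa [mul_one] at this
  have hinv : ∀ j, (n⁻¹).1 j j = (n.1 j j)⁻¹ := fun j => up_inv_diag (mem_T' hn1) j
  have hent : ∀ j, (n * (m * n⁻¹ * m⁻¹)).1 j j = n.1 j j * (n.1 (pp k j) (pp k j))⁻¹ := by
    intro j
    rw [diag_mul hn1]
    congr 1
    have h1 := mon_conj hm n⁻¹ (pp k j) (pp k j)
    rw [pp_pp] at h1
    rw [h1, hinv]
    have h2 := mon_ne hm (pp k j)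
    rw [pp_pp] at h2
    field_simp
  have hprod : n.1 (c0 k) (c0 k) * n.1 (c1 k) (c1 k) = 1 := by
    have := up_dd hn (mem_T' hn1) (c0 k)
    rwa [rev_c0] at this
  have hne : n.1 (c1 k) (c1 k) = (n.1 (c0 k) (c0 k))⁻¹ := (inv_eq_of_mul_eq_one_right hprod).symm
  have heq : n * (m * n⁻¹ * m⁻¹) = d := by
    refine diag_ext hzz hdM fun j => ?_
    rw [hent]
    unfold pp
    by_cases h0 : j = c0 k
    · rw [h0, Equiv.swap_apply_left, d2, hne, inv_inv]
    · by_cases h1 : j = c1 k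
      · rw [h1, Equiv.swap_apply_right, d1, hne, mul_inv]
      · rw [Equiv.swap_apply_of_ne_of_ne h0 h1, d3 j h1 h0, mul_inv_cancel₀]
        have := mon_ne hn1 j
        rwa [Equiv.Perm.one_apply] at this
  rw [heq]
  exact hdE

lemma comm_mon (hk : 0 < k) {n m : SLm (2 * k + 1) F} (hn : n ∈ SOD k F) (hm : m ∈ SOD k F)
    (hn' : Mon n 1 ∨ Mon n (pp k)) (hm' : Mon m 1 ∨ Mon m (pp k)) :
    n * m * n⁻¹ * m⁻¹ ∈ EE k F := by
  rcases hn' with hn1 | hn1
  · rcases hm' with hm1 | hm1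
    · have : n * m * n⁻¹ * m⁻¹ = 1 := by
        have hnm := mon_mul hn1 hm1
        have hmn := mon_mul hm1 hn1
        rw [mul_one] at hnm hmn
        have : n * m = m * n := diag_ext hnm hmn fun j => by
          rw [diag_mul hn1, diag_mul hm1, mul_comm]
        rw [this]
        group
      rw [this]
      exact one_mem _
    · have := comm_diag hk hn hn1 hm1
      have e : n * m * n⁻¹ * m⁻¹ = n * (m * n⁻¹ * m⁻¹) := by group
      rw [e]
      exact this
  · rcases hm' with hm1 | hm1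
    · have := inv_mem (comm_diag hk hm hm1 hn1)
      have e : n * m * n⁻¹ * m⁻¹ = (m * (n * m⁻¹ * n⁻¹))⁻¹ := by group
      rw [e]
      exact this
    · have hd : Mon (m * n⁻¹) 1 := by
        have := mon_mul hm1 (mon_inv hn1)
        rwa [mul_inv_cancel] at this
      have := inv_mem (comm_diag hk (mul_mem hm (inv_mem hn)) hd hn1)
      have e : n * m * n⁻¹ * m⁻¹ = ((m * n⁻¹) * (n * (m * n⁻¹)⁻¹ * n⁻¹))⁻¹ := by group
      rw [e]
      exact this

lemma comm_EE (hk : 0 < k) {g g' : SLm (2 * k + 1) F} (hg : g ∈ SOD k F) (hg' : g' ∈ SOD k F) :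
    ⁅g, g'⁆ ∈ EE k F := by
  obtain ⟨e, he, n, hn, hn1, rfl⟩ := elim hg
  obtain ⟨e', he', n', hn', hn1', rfl⟩ := elim hg'
  have h1 : n * e' * n⁻¹ ∈ EE k F := by
    rcases hn1 with h | h <;> exact EE_conj hn h he'
  have h2 : n' * e⁻¹ * n'⁻¹ ∈ EE k F := by
    rcases hn1' with h | h <;> exact EE_conj hn' h (inv_mem he)
  have h3 := comm_mon hk hn hn' hn1 hn1'
  have e1 : ⁅e * n, e' * n'⁆ =
      e * (n * e' * n⁻¹) * (n * n' * n⁻¹ * n'⁻¹) * (n' * e⁻¹ * n'⁻¹) * e'⁻¹ := by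
    rw [commutatorElement_def]
    group
  rw [e1]
  exact mul_mem (mul_mem (mul_mem (mul_mem he h1) h3) h2) (inv_mem he')

omit [Finite F] in
lemma exists_third (hk : 2 ≤ k) (a b : VI k) : ∃ l : VI k, a ≠ l ∧ a ≠ Fin.rev l ∧ l ≠ b ∧
    l ≠ Fin.rev b := by
  have hra := rv_val a
  have hrb := rv_val b
  have key : ∀ x : ℕ, x ≤ 2 → a.val ≠ x → (Fin.rev a).val ≠ x → b.val ≠ x → (Fin.rev b).val ≠ x →
      ∃ l : VI k, a ≠ l ∧ a ≠ Fin.rev l ∧ l ≠ b ∧ l ≠ Fin.rev b := by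
    intro x hx h1 h2 h3 h4
    have hl : (Fin.rev (⟨x, by omega⟩ : VI k)).val + x = 2 * k + 1 := rv_val (⟨x, by omega⟩ : VI k)
    refine ⟨⟨x, by omega⟩, ?_, ?_, ?_, ?_⟩ <;> rw [Ne, Fin.ext_iff]
    · exact h1
    · omega
    · exact fun h => h3 h.symm
    · exact fun h => h4 h.symm
  by_cases h0 : a.val ≠ 0 ∧ (Fin.rev a).val ≠ 0 ∧ b.val ≠ 0 ∧ (Fin.rev b).val ≠ 0
  · exact key 0 (by omega) h0.1 h0.2.1 h0.2.2.1 h0.2.2.2
  · by_cases h1 : a.val ≠ 1 ∧ (Fin.rev a).val ≠ 1 ∧ b.val ≠ 1 ∧ (Fin.rev b).val ≠ 1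
    · exact key 1 (by omega) h1.1 h1.2.1 h1.2.2.1 h1.2.2.2
    · exact key 2 le_rfl (by omega) (by omega) (by omega) (by omega)

/-- **the root group is the commutator subgroup** -/
theorem comm_eq (hk : 2 ≤ k) : ⁅SOD k F, SOD k F⁆ = EE k F := by
  apply le_antisymm
  · rw [commutator_le]
    exact fun g hg g' hg' => comm_EE (by omega) hg hg'
  · conv_lhs => unfold EE
    rw [closure_le]
    rintro x ⟨a, b, t, h, h', rfl⟩
    obtain ⟨l, h1, h2, h3, h4⟩ := exists_third hk a b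
    have e : ⁅xr a l t, xr l b 1⁆ = xr a b t := by
      rw [commutatorElement_def, xr_comm h h' h1 h2 h3 h4]
      group
    rw [← e]
    exact commutator_mem_commutator (xr_mem h1 h2 t) (xr_mem h3 h4 1)

end

end Vale.Agent.P240.R2.H38.DD
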