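import Vale.Agent.P240.H195.RIso
import Vale.Agent.P240.R2.H38.D8
import Vale.Agent.P240.R2.H38.D11

/-!
Groups of type D, part 12: the orthogonal groups of plus type in even dimension are of Lie type.
-/

set_option autoImplicit false
set_option linter.all false

namespace Vale.Agent.P240.R2.H38.DD

open Subgroup Matrix Vale.Agent.P240.H195
open scoped commutatorElement

section
variable {k : ℕ} {F : Type*} [Field F]

/-- The commutator subgroup of the group of matrices of determinant `1` that preserve the standard
quadratic form of plus type in dimension `2 k + 2`, modulo its centre. -/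
abbrev POD (k : ℕ) (F : Type*) [Field F] : Type _ :=
  ↥(commutator ↥(SOD k F)) ⧸ center ↥(commutator ↥(SOD k F))

/-- isomorphic groups have isomorphic quotients by their centres -/
noncomputable def centreIso {G G' : Type*} [Group G] [Group G'] (e : G ≃* G') :
    G ⧸ center G ≃* G' ⧸ center G' :=
  QuotientGroup.congr (center G) (center G') e (by
    ext x
    constructor
    · rintro ⟨y, hy, rfl⟩
      rw [mem_center_iff]
      intro g
      have h1 := mem_center_iff.1 hy (e.symm g)
      have h2 := congrArg e h1
      rw [map_mul, map_mul, e.apply_symm_apply] at h2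
      exact h2
    · intro hx
      refine ⟨e.symm x, ?_, e.apply_symm_apply x⟩
      rw [SetLike.mem_coe, mem_center_iff]
      intro g
      apply e.injective
      rw [map_mul, map_mul, e.apply_symm_apply]
      exact mem_center_iff.1 hx (e g))

variable [Finite F]

/-- the commutator subgroup is the root group -/
noncomputable def commIso (hk : 2 ≤ k) : ↥(commutator ↥(SOD k F)) ≃* ↥(EE k F) :=
  ((commutator ↥(SOD k F)).equivMapOfInjective (SOD k F).subtype Subtype.val_injective).trans
    (MulEquiv.subgroupCongr ((map_subtype_commutator (SOD k F)).trans (comm_eq hk)))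

/-- the quotients by the centres -/
noncomputable def podIso (hk : 2 ≤ k) : ↥(EE k F) ⧸ center ↥(EE k F) ≃* POD k F :=
  (centreIso (commIso hk)).symm

/-- **Lie type**: the groups `PΩ⁺` in even dimension at least `6`, over any finite field -/
theorem pod_lie {p : ℕ} [hp : Fact p.Prime] [CharP F p] (hk : 2 ≤ k)
    (hs : IsSimpleGroup (POD k F)) (hZ : ∀ x : POD k F, (∀ y, x * y = y * x) → x = 1) :
    LieType p (POD k F) := by
  have e := podIso (F := F) hk
  have h1 : IsSimpleGroup (↥(EE k F) ⧸ center ↥(EE k F)) := e.isSimpleGroup
  exact LieType.tr e (qLie (p := p) hk EE_good EE_gen h1 (centreless_tr e.symm hZ))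

end

end Vale.Agent.P240.R2.H38.DD
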