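import Vale.Agent.P240.R2.H775.RD3
import Vale.Agent.P240.R2.H38.D12

/-!
Groups of type D, part 13: the orthogonal groups of plus type in even dimension have a rigid BN-pair in
the characteristic of the field.
-/

set_option autoImplicit false
set_option linter.all false

namespace Vale.Agent.P240.R2.H38.DD

open Subgroup Matrix Vale.Agent.P240.H195

section
variable {k : ℕ} {F : Type*} [Field F] [Finite F]

/-- **Rigidity**: the groups `PΩ⁺` in even dimension at least `6`, over any finite field of
characteristic `p` -/
theorem pod_rigid {p : ℕ} [hp : Fact p.Prime] [CharP F p] (hk : 2 ≤ k)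
    (hs : IsSimpleGroup (POD k F)) (hZ : ∀ x : POD k F, (∀ y, x * y = y * x) → x = 1) :
    RigidLie p (POD k F) := by
  have e := podIso (F := F) hk
  have h1 : IsSimpleGroup (↥(EE k F) ⧸ center ↥(EE k F)) := e.isSimpleGroup
  exact RigidLie.tr e (Vale.Agent.P240.R2.H775.RD.dd_rigidLie (p := p) (by omega) EE_good EE_gen h1
    (centreless_tr e.symm hZ))

end

end Vale.Agent.P240.R2.H38.DD
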