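import Vale.Agent.P240.R2.H38.D1

/-!
Groups of type D, part 2: the graph automorphism, upper triangular and monomial isometries, the rank
one relation.
-/

set_option autoImplicit false
set_option linter.all false

namespace Vale.Agent.P240.R2.H38.DD

open Subgroup Matrix Vale.Agent.P240.H195

section
variable {k : ℕ}

/-- the last index of the first half -/
def c0 (k : ℕ) : VI k := ⟨k, by omega⟩

/-- the first index of the second half -/
def c1 (k : ℕ) : VI k := ⟨k + 1, by omega⟩

lemma rev_c0 : Fin.rev (c0 k) = c1 k := by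
  apply Fin.ext
  have := rv_val (c0 k)
  change (Fin.rev (c0 k)).val = k + 1
  have h : (c0 k).val = k := rfl
  omega

lemma rev_c1 : Fin.rev (c1 k) = c0 k := by rw [← rev_c0, Fin.rev_rev]

lemma c0_ne : c0 k ≠ c1 k := by
  rw [← rev_c0]
  exact (rv_ne _).symm

/-- the transposition of the two middle indices -/
def pp (k : ℕ) : Equiv.Perm (VI k) := Equiv.swap (c0 k) (c1 k)

lemma pp_rev (i : VI k) : pp k (Fin.rev i) = Fin.rev (pp k i) := by
  unfold pp
  by_cases h0 : i = c0 k
  · rw [h0, rev_c0, Equiv.swap_apply_right, Equiv.swap_apply_left, rev_c1]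
  · by_cases h1 : i = c1 k
    · rw [h1, rev_c1, Equiv.swap_apply_right, Equiv.swap_apply_left, rev_c0]
    · rw [Equiv.swap_apply_of_ne_of_ne h0 h1, Equiv.swap_apply_of_ne_of_ne]
      · intro h2
        apply h1
        rw [← Fin.rev_rev i, h2, rev_c0]
      · intro h2
        apply h0
        rw [← Fin.rev_rev i, h2, rev_c1]

lemma pp_pp (i : VI k) : pp k (pp k i) = i := Equiv.swap_apply_self _ _ _

lemma pp_mul : pp k * pp k = 1 := Equiv.swap_mul_self _ _

lemma pp_inv : (pp k)⁻¹ = pp k := Equiv.swap_inv _ _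

variable {F : Type*} [Field F]

/-- the graph automorphism -/
def gm (k : ℕ) (F : Type*) [Field F] : SLm (2 * k + 1) F →* SLm (2 * k + 1) F where
  toFun A := ⟨A.1.submatrix (pp k) (pp k), by rw [Matrix.det_submatrix_equiv_self]; exact A.2⟩
  map_one' := by
    refine sl_ext fun i j => ?_
    change (1 : SLm (2 * k + 1) F).1 (pp k i) (pp k j) = _
    rw [sl_one, sl_one]
    simp only [(pp k).injective.eq_iff]
  map_mul' := by
    intro A B
    exact Subtype.ext (Matrix.submatrix_mul_equiv A.1 B.1 (pp k) (pp k) (pp k)).symm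

lemma gm_apply (A : SLm (2 * k + 1) F) (i j : VI k) :
    (gm k F A).1 i j = A.1 (pp k i) (pp k j) := rfl

lemma gm_gm (A : SLm (2 * k + 1) F) : gm k F (gm k F A) = A := by
  refine sl_ext fun i j => ?_
  rw [gm_apply, gm_apply, pp_pp, pp_pp]

lemma gm_SOD {A : SLm (2 * k + 1) F} (hA : A ∈ SOD k F) : gm k F A ∈ SOD k F := by
  intro v
  have h1 : (gm k F A).1 *ᵥ v = fun i => (A.1 *ᵥ (fun j => v (pp k j))) (pp k i) := by
    funext i
    rw [Matrix.mulVec, dotProduct, Matrix.mulVec, dotProduct, ← Equiv.sum_comp (pp k)]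
    refine Finset.sum_congr rfl fun j _ => ?_
    rw [gm_apply, pp_pp]
  have h2 : ∀ w : VI k → F, Qd k F (fun i => w (pp k i)) = Qd k F w := by
    intro w
    have h3 := HS_perm (f := fun i => w i * w (Fin.rev i)) (pp k) (fun i => pp_rev i)
      (fun i => by rw [Fin.rev_rev, mul_comm])
    rw [Qd_eq, Qd_eq, ← h3]
    refine HS_congr fun i _ => ?_
    rw [pp_rev]
  rw [h1, h2, hA, h2]

lemma gm_xr {a b : VI k} (h : a ≠ b) (t : F) : gm k F (xr a b t) = xr (pp k a) (pp k b) t := by
  have h' : pp k a ≠ pp k b := fun h1 => h ((pp k).injective h1)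
  refine sl_ext fun i j => ?_
  rw [gm_apply, xr_apply h, xr_apply h']
  have e : ∀ x y : VI k, pp k x = y ↔ x = pp k y := fun x y =>
    ⟨fun h => by rw [← h, pp_pp], fun h => by rw [h, pp_pp]⟩
  simp only [e, pp_pp, ← pp_rev]

/-! upper triangular isometries -/

lemma up_dd {x : SLm (2 * k + 1) F} (hx : x ∈ SOD k F) (hu : IsUp x) (j : VI k) :
    x.1 j j * x.1 (Fin.rev j) (Fin.rev j) = 1 := by
  have h1 := C1 hx j (Fin.rev j)
  rw [if_pos rfl, Finset.sum_eq_single j] at h1
  · exact h1
  · intro l _ hl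
    rcases lt_or_gt_of_ne hl with h2 | h2
    · rw [hu (Fin.rev l) (Fin.rev j) (Fin.rev_lt_rev.2 h2), mul_zero]
    · rw [hu l j h2, zero_mul]
  · exact fun h => absurd (Finset.mem_univ _) h

lemma up_sup {x : SLm (2 * k + 1) F} (hx : x ∈ SOD k F) (hu : IsUp x) {a b : VI k}
    (hab : b.val = a.val + 1) (h' : a ≠ Fin.rev b) (h0 : x.1 a b = 0) :
    x.1 (Fin.rev b) (Fin.rev a) = 0 := by
  have hlt : a < b := by rw [Fin.lt_def]; omega
  have h1 := C1 hx b (Fin.rev a)
  rw [if_neg (rv_inj hlt.ne), Finset.sum_eq_single b] at h1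
  · exact (mul_eq_zero.1 h1).resolve_left (up_diag_ne hu b)
  · intro l _ hl
    by_cases hla : l = a
    · rw [hla, h0, zero_mul]
    · rcases lt_or_gt_of_ne hl with h2 | h2
      · have h3 : l < a := by
          rw [Fin.lt_def] at h2 ⊢
          have : l.val ≠ a.val := fun h => hla (Fin.ext h)
          omega
        rw [hu (Fin.rev l) (Fin.rev a) (Fin.rev_lt_rev.2 h3), mul_zero]
      · rw [hu l b h2, zero_mul]
  · exact fun h => absurd (Finset.mem_univ _) h

lemma up_mid {x : SLm (2 * k + 1) F} (hx : x ∈ SOD k F) (hu : IsUp x) :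
    x.1 (c0 k) (c1 k) = 0 := by
  have h1 := C2 hx (c1 k)
  rw [HS_eq, Finset.sum_eq_single (c0 k)] at h1
  · have h2 : c0 k < Fin.rev (c0 k) := by rw [lt_rv]; exact le_rfl
    rw [if_pos h2, rev_c0] at h1
    exact (mul_eq_zero.1 h1).resolve_right (up_diag_ne hu _)
  · intro l _ hl
    by_cases h2 : l < Fin.rev l
    · rw [if_pos h2]
      have h3 : c1 k < Fin.rev l := by
        have h4 := rv_val l
        have h5 := lt_rv.1 h2
        have h6 : l.val ≠ k := fun h => hl (Fin.ext h)
        rw [Fin.lt_def]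
        change k + 1 < _
        omega
      rw [hu _ _ h3, mul_zero]
    · rw [if_neg h2]
  · exact fun h => absurd (Finset.mem_univ _) h

lemma gm_up {x : SLm (2 * k + 1) F} (hx : x ∈ SOD k F) (hu : IsUp x) : IsUp (gm k F x) := by
  intro i j hij
  rw [gm_apply]
  by_cases h : pp k j < pp k i
  · exact hu _ _ h
  · have h1 : pp k i ≠ pp k j := fun h1 => hij.ne' ((pp k).injective h1)
    have h2 : pp k i < pp k j := lt_of_le_of_ne (not_lt.1 h) h1
    have h3 : i = c1 k ∧ j = c0 k := by
      have h4 := adj_swap (m := 2 * k + 1) ⟨k, by omega⟩ hij h2.le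
      exact h4
    rw [h3.1, h3.2]
    unfold pp
    rw [Equiv.swap_apply_left, Equiv.swap_apply_right]
    exact up_mid hx hu

end

end Vale.Agent.P240.R2.H38.DD
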