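import Vale.Agent.P240.R2.H38.D2

/-!
Groups of type D, part 3: simple reflections, monomial isometries, the rank one relation.
-/

set_option autoImplicit false
set_option linter.all false

namespace Vale.Agent.P240.R2.H38.DD

open Subgroup Matrix Vale.Agent.P240.H195

section
variable {k : ℕ}

/-- the first index of a simple root -/
def ia (i : Fin k) : VI k := ⟨i.val, by omega⟩

/-- the second index of a simple root -/
def ib (i : Fin k) : VI k := ⟨i.val + 1, by omega⟩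

lemma ia_val (i : Fin k) : (ia i).val = i.val := rfl

lemma ib_val (i : Fin k) : (ib i).val = i.val + 1 := rfl

lemma ia_lt (i : Fin k) : ia i < ib i := by
  rw [Fin.lt_def, ia_val, ib_val]
  omega

lemma ia_ne (i : Fin k) : ia i ≠ ib i := (ia_lt i).ne

lemma ia_ne' (i : Fin k) : ia i ≠ Fin.rev (ib i) := by
  intro h
  have h1 := congrArg Fin.val h
  have h2 := rv_val (ib i)
  have h3 := i.2
  rw [ia_val] at h1
  rw [ib_val] at h2
  omega

/-- simple reflections -/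
def tau (i : Fin k) : Equiv.Perm (VI k) :=
  Equiv.swap (ia i) (ib i) * Equiv.swap (Fin.rev (ib i)) (Fin.rev (ia i))

lemma tau_val (i : Fin k) (u : VI k) : (tau i u).val =
    if u.val = i.val then i.val + 1 else if u.val = i.val + 1 then i.val else
      if u.val + i.val = 2 * k then u.val + 1 else
        if u.val + i.val = 2 * k + 1 then u.val - 1 else u.val := by
  have hi := i.2
  have hu := u.2
  have h1 := rv_val (ib i)
  have h2 := rv_val (ia i)
  rw [ia_val] at h2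
  rw [ib_val] at h1
  rw [tau, Equiv.Perm.mul_apply, Equiv.swap_apply_def (Fin.rev (ib i))]
  by_cases h3 : u = Fin.rev (ib i)
  · rw [if_pos h3, Equiv.swap_apply_of_ne_of_ne]
    · rw [Fin.ext_iff] at h3
      split_ifs <;> omega
    · intro h
      rw [Fin.ext_iff, ia_val] at h
      omega
    · intro h
      rw [Fin.ext_iff, ib_val] at h
      omega
  · rw [if_neg h3]
    by_cases h4 : u = Fin.rev (ia i)
    · rw [if_pos h4, Equiv.swap_apply_of_ne_of_ne]
      · rw [Fin.ext_iff] at h4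
        split_ifs <;> omega
      · intro h
        rw [Fin.ext_iff, ia_val] at h
        omega
      · intro h
        rw [Fin.ext_iff, ib_val] at h
        omega
    · rw [if_neg h4, Equiv.swap_apply_def]
      rw [Fin.ext_iff] at h3 h4
      simp only [Fin.ext_iff, ia_val, ib_val]
      split_ifs <;> (try simp only [ia_val, ib_val]) <;> omega

lemma tau_rev (i : Fin k) (u : VI k) : tau i (Fin.rev u) = Fin.rev (tau i u) := by
  apply Fin.ext
  have h1 := rv_val u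
  have h2 := rv_val (tau i u)
  have h3 := tau_val i u
  have h4 := tau_val i (Fin.rev u)
  have hi := i.2
  have hu := u.2
  split_ifs at h3 h4 <;> omega

lemma tau_tau (i : Fin k) (u : VI k) : tau i (tau i u) = u := by
  apply Fin.ext
  have h3 := tau_val i u
  have h4 := tau_val i (tau i u)
  have hi := i.2
  have hu := u.2
  split_ifs at h3 h4 <;> omega

lemma tau_mul (i : Fin k) : tau i * tau i = 1 := by
  ext u
  rw [Equiv.Perm.mul_apply, tau_tau, Equiv.Perm.one_apply]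

lemma tau_iv (i : Fin k) : (tau i)⁻¹ = tau i := inv_eq_of_mul_eq_one_right (tau_mul i)

lemma tau_a (i : Fin k) : tau i (ia i) = ib i := by
  apply Fin.ext
  rw [tau_val, ia_val, if_pos rfl, ib_val]

lemma tau_b (i : Fin k) : tau i (ib i) = ia i := by
  rw [← tau_a, tau_tau]

lemma tau_lt (i : Fin k) {u v : VI k} (h : v < u) (h' : tau i u ≤ tau i v) :
    (u = ib i ∧ v = ia i) ∨ (u = Fin.rev (ia i) ∧ v = Fin.rev (ib i)) := by
  have h1 := rv_val (ib i)
  have h2 := rv_val (ia i)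
  have h3 := tau_val i u
  have h4 := tau_val i v
  have hi := i.2
  have hu := u.2
  have hv := v.2
  rw [ia_val] at h2
  rw [ib_val] at h1
  rw [Fin.lt_def] at h
  rw [Fin.le_def] at h'
  simp only [Fin.ext_iff, ia_val, ib_val]
  split_ifs at h3 h4 <;> omega

variable {F : Type*} [Field F]

/-! monomial isometries -/

lemma mon_one' {n : SLm (2 * k + 1) F} (hn : n ∈ SOD k F) {σ : Equiv.Perm (VI k)} (hσ : Mon n σ)
    (j : VI k) : n.1 (σ j) j * n.1 (Fin.rev (σ j)) (Fin.rev j) = 1 := by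
  have h1 := C1 hn j (Fin.rev j)
  rw [if_pos rfl, Finset.sum_eq_single (σ j)] at h1
  · exact h1
  · intro l _ hl
    rw [mon_eq hσ hl, zero_mul]
  · exact fun h => absurd (Finset.mem_univ _) h

lemma mon_rev {n : SLm (2 * k + 1) F} (hn : n ∈ SOD k F) {σ : Equiv.Perm (VI k)} (hσ : Mon n σ)
    (j : VI k) : σ (Fin.rev j) = Fin.rev (σ j) := by
  have h1 := mon_one' hn hσ j
  have h2 : n.1 (Fin.rev (σ j)) (Fin.rev j) ≠ 0 := right_ne_zero_of_mul (h1 ▸ one_ne_zero)
  exact (hσ _ _ h2).symm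

lemma mon_pr {n : SLm (2 * k + 1) F} (hn : n ∈ SOD k F) {σ : Equiv.Perm (VI k)} (hσ : Mon n σ)
    (j : VI k) : n.1 (σ j) j * n.1 (σ (Fin.rev j)) (Fin.rev j) = 1 := by
  rw [mon_rev hn hσ]
  exact mon_one' hn hσ j

lemma xr_conj [Finite F] {n : SLm (2 * k + 1) F} (hn : n ∈ SOD k F) {σ : Equiv.Perm (VI k)}
    (hσ : Mon n σ) {a b : VI k} (h : a ≠ b) (t : F) :
    n * xr a b t * n⁻¹ = xr (σ a) (σ b) (n.1 (σ a) a * t * (n.1 (σ b) b)⁻¹) := by
  have h' : σ a ≠ σ b := fun h1 => h (σ.injective h1)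
  have h'' : σ (Fin.rev b) ≠ σ (Fin.rev a) := fun h1 => rv_inj h (σ.injective h1)
  have e : n * xr a b t * n⁻¹ = (n * tx h t * n⁻¹) * (n * tx (rv_inj h) (-t) * n⁻¹) := by
    rw [xr_def h]
    group
  rw [e, mon_conj_tx hσ h h', mon_conj_tx hσ (rv_inj h) h'', xr_def h']
  congr 1
  have ha := mon_pr hn hσ a
  have hb := mon_pr hn hσ b
  apply Vale.Agent.P240.R2.H487.CG.tx_congr (mon_rev hn hσ b) (mon_rev hn hσ a)
  have e1 : n.1 (σ (Fin.rev b)) (Fin.rev b) = (n.1 (σ b) b)⁻¹ := (inv_eq_of_mul_eq_one_right hb).symm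
  have e2 : (n.1 (σ (Fin.rev a)) (Fin.rev a))⁻¹ = n.1 (σ a) a := by
    rw [inv_eq_of_mul_eq_one_left ha]
  rw [e1, e2]
  ring

lemma xr_conj' [Finite F] {n : SLm (2 * k + 1) F} (hn : n ∈ SOD k F) {σ : Equiv.Perm (VI k)}
    (hσ : Mon n σ) {a b : VI k} (h : a ≠ b) (t : F) :
    ∃ d : F, n⁻¹ * xr a b t * n = xr (σ⁻¹ a) (σ⁻¹ b) d := by
  have h1 := xr_conj (inv_mem hn) (mon_inv hσ) h t
  rw [inv_inv] at h1
  exact ⟨_, h1⟩

/-- the rank one relation -/
lemma xr_rank {a b : VI k} (h : a ≠ b) (h' : a ≠ Fin.rev b) {c : F} (hc : c ≠ 0) :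
    Mon (xr a b (-c⁻¹) * (xr b a c * xr a b (-c⁻¹)))
      (Equiv.swap a b * Equiv.swap (Fin.rev b) (Fin.rev a)) := by
  have hr1 : Fin.rev a ≠ a := rv_ne a
  have hr2 : Fin.rev b ≠ b := rv_ne b
  have h3 : Fin.rev b ≠ a := h'.symm
  have h4 : b ≠ Fin.rev a := fun h5 => h' (by rw [h5, Fin.rev_rev])
  have e : xr a b (-c⁻¹) * (xr b a c * xr a b (-c⁻¹)) =
      (tx h (-c⁻¹) * (tx h.symm c * tx h (-c⁻¹))) *
        (tx (rv_inj h) (-(-c)⁻¹) * (tx (rv_inj h).symm (-c) * tx (rv_inj h) (-(-c)⁻¹))) := by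
    rw [xr_def h, xr_def h.symm]
    have e1 := tx_cm (rv_inj h) h.symm h4.symm h' (-(-c⁻¹)) c
    have e2 := tx_cm (rv_inj h.symm) h h3 h4 (-c) (-c⁻¹)
    have e3 := tx_cm (rv_inj h) h hr1 hr2.symm (-(-c⁻¹)) (-c⁻¹)
    have e4 : -(-c)⁻¹ = -(-c⁻¹) := by rw [inv_neg]
    rw [e4]
    calc tx h (-c⁻¹) * tx (rv_inj h) (-(-c⁻¹)) * (tx h.symm c * tx (rv_inj h.symm) (-c) *
          (tx h (-c⁻¹) * tx (rv_inj h) (-(-c⁻¹))))
        = tx h (-c⁻¹) * (tx (rv_inj h) (-(-c⁻¹)) * tx h.symm c) *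
          (tx (rv_inj h.symm) (-c) * tx h (-c⁻¹)) * tx (rv_inj h) (-(-c⁻¹)) := by group
      _ = tx h (-c⁻¹) * tx h.symm c * (tx (rv_inj h) (-(-c⁻¹)) * tx h (-c⁻¹)) *
          tx (rv_inj h.symm) (-c) * tx (rv_inj h) (-(-c⁻¹)) := by rw [e1, e2]; group
      _ = _ := by rw [e3]; group
  rw [e]
  exact mon_mul (rank_one h hc) (rank_one (rv_inj h) (neg_ne_zero.2 hc))

end

end Vale.Agent.P240.R2.H38.DD
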