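import Vale.Agent.P240.R2.H38.D3

/-!
Groups of type D, part 4: the exchange axiom.
-/

set_option autoImplicit false
set_option linter.all false

namespace Vale.Agent.P240.R2.H38.DD

open Subgroup Matrix Vale.Agent.P240.H195

section
variable {k : ℕ} {F : Type*} [Field F]

/-- groups of isometries that contain the root elements and are invariant under the graph
automorphism -/
structure Good (H : Subgroup (SLm (2 * k + 1) F)) : Prop where
  le : H ≤ SOD k F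
  xr : ∀ a b : VI k, a ≠ b → a ≠ Fin.rev b → ∀ t : F, xr a b t ∈ H
  gm : ∀ x ∈ H, gm k F x ∈ H

lemma mul_xr {a b : VI k} (h : a ≠ b) (h' : a ≠ Fin.rev b) (M : SLm (2 * k + 1) F) (t : F)
    (i : VI k) : (M * xr a b t).1 i b = M.1 i b + M.1 i a * t := by
  have h4 : b ≠ Fin.rev a := fun h5 => h' (by rw [h5, Fin.rev_rev])
  rw [xr_def h, ← mul_assoc, mul_tx_apply, if_neg h4, add_zero, mul_tx_apply, if_pos rfl]

lemma up_conj_tau {s x : SLm (2 * k + 1) F} {i : Fin k} (hs : Mon s (tau i)) (hx : IsUp x)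
    (h0 : x.1 (ia i) (ib i) = 0) (h1 : x.1 (Fin.rev (ib i)) (Fin.rev (ia i)) = 0) :
    IsUp (s * x * s⁻¹) := by
  intro u v huv
  by_contra hne
  have h2 := (mon_conj_ne hs x (tau i u) (tau i v)).1 (by
      rw [tau_tau, tau_tau]; exact hne)
  have h3 : tau i u ≤ tau i v := by
    by_contra hlt
    exact h2 (hx _ _ (not_le.1 hlt))
  rcases tau_lt i huv h3 with ⟨rfl, rfl⟩ | ⟨rfl, rfl⟩
  · rw [tau_a, tau_b] at h2
    exact h2 h0
  · rw [tau_rev, tau_rev, tau_a, tau_b] at h2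
    exact h2 h1

lemma zero_of_conj_tau {s x : SLm (2 * k + 1) F} {i : Fin k} (hs : Mon s (tau i))
    (hx : IsUp (s * x * s⁻¹)) : x.1 (ia i) (ib i) = 0 := by
  by_contra hne
  have h1 := (mon_conj_ne hs x (ia i) (ib i)).2 hne
  rw [tau_a, tau_b] at h1
  exact h1 (hx _ _ (ia_lt i))

variable [Finite F] {H : Subgroup (SLm (2 * k + 1) F)}

lemma mem_BH {x : SLm (2 * k + 1) F} : x ∈ BU (2 * k + 1) F ⊓ H ↔ IsUp x ∧ x ∈ H := Iff.rfl

lemma main_mul (hg : Good H) {i : Fin k} {s x n : SLm (2 * k + 1) F} (hsH : s ∈ H)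
    (hs : Mon s (tau i)) (hxH : x ∈ H) (hx : IsUp x) (hnH : n ∈ H) {σ : Equiv.Perm (VI k)}
    (hn : Mon n σ) :
    DC (BU (2 * k + 1) F ⊓ H) n (s * x * n) ∨ DC (BU (2 * k + 1) F ⊓ H) (s * n) (s * x * n) := by
  obtain ⟨a, ha⟩ : ∃ a, a = ia i := ⟨_, rfl⟩
  obtain ⟨b, hb⟩ : ∃ b, b = ib i := ⟨_, rfl⟩
  have hlt : a < b := by rw [ha, hb]; exact ia_lt i
  have hab : a ≠ b := hlt.ne
  have hab' : a ≠ Fin.rev b := by rw [ha, hb]; exact ia_ne' i
  have hba' : b ≠ Fin.rev a := fun h5 => hab' (by rw [h5, Fin.rev_rev])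
  have hXH : ∀ t, xr a b t ∈ H := hg.xr a b hab hab'
  have hXU : ∀ t : F, IsUp (xr a b t) := xr_up hlt
  set c := x.1 a b / x.1 a a with hc
  set x0 := x * xr a b (-c) with hx0
  have hx0U : IsUp x0 := up_mul hx (hXU _)
  have hx0H : x0 ∈ H := mul_mem hxH (hXH _)
  have h00 : x0.1 a b = 0 := by
    rw [hx0, mul_xr hab hab', hc]
    have := up_diag_ne hx a
    field_simp
    ring
  have hxe : x = x0 * xr a b c := by
    rw [hx0, mul_assoc, xr_add hab hab', neg_add_cancel, xr_zero, mul_one]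
  have h01 : x0.1 (Fin.rev b) (Fin.rev a) = 0 :=
    up_sup (hg.le hx0H) hx0U (by rw [ha, hb]; rfl) hab' h00
  have h1 : s * x0 * s⁻¹ ∈ BU (2 * k + 1) F ⊓ H := by
    refine mem_inf.2 ⟨mem_BU.2 (up_conj_tau hs hx0U ?_ ?_), mul_mem (mul_mem hsH hx0H) (inv_mem hsH)⟩
    · rw [← ha, ← hb]; exact h00
    · rw [← ha, ← hb]; exact h01
  have e1 : s * x * n = (s * x0 * s⁻¹) * (s * xr a b c * n) := by
    rw [hxe]; group
  suffices hsuf : DC (BU (2 * k + 1) F ⊓ H) n (s * xr a b c * n) ∨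
      DC (BU (2 * k + 1) F ⊓ H) (s * n) (s * xr a b c * n) by
    rw [e1]
    rcases hsuf with ⟨y, hy, z, hz, h2⟩ | ⟨y, hy, z, hz, h2⟩
    · exact Or.inl ⟨_, mul_mem h1 hy, z, hz, by rw [h2]; group⟩
    · exact Or.inr ⟨_, mul_mem h1 hy, z, hz, by rw [h2]; group⟩
  have hσ : σ⁻¹ a ≠ σ⁻¹ b := fun h => hab ((σ⁻¹).injective h)
  by_cases hc0 : c = 0
  · right
    rw [hc0, xr_zero, mul_one]
    exact ⟨1, one_mem _, 1, one_mem _, by group⟩
  rcases lt_or_gt_of_ne hσ with hlt' | hlt'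
  · right
    obtain ⟨d, hd⟩ := xr_conj' (hg.le hnH) hn hab c
    refine ⟨1, one_mem _, xr (σ⁻¹ a) (σ⁻¹ b) d, mem_inf.2 ⟨mem_BU.2 (xr_up hlt' d), ?_⟩, ?_⟩
    · rw [← hd]
      exact mul_mem (mul_mem (inv_mem hnH) (hXH _)) hnH
    · rw [← hd]
      group
  · left
    have hta : tau i a = b := by rw [ha, hb, tau_a]
    have htb : tau i b = a := by rw [ha, hb, tau_b]
    obtain ⟨c', hc', hsc⟩ : ∃ c' : F, c' ≠ 0 ∧ s * xr a b c * s⁻¹ = xr b a c' := by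
      refine ⟨s.1 (tau i a) a * c * (s.1 (tau i b) b)⁻¹,
        mul_ne_zero (mul_ne_zero (mon_ne hs _) hc0) (inv_ne_zero (mon_ne hs _)), ?_⟩
      rw [xr_conj (hg.le hsH) hs hab, hta, htb]
    set w := xr a b (-c'⁻¹) * (xr b a c' * xr a b (-c'⁻¹)) with hw
    have hwM : Mon w (tau i) := by
      have := xr_rank hab hab' hc'
      rw [ha, hb] at this
      rw [hw, ha, hb]
      exact this
    have hwH : w ∈ H := mul_mem (hXH _) (mul_mem (hg.xr b a hab.symm hba' _) (hXH _))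
    have e2 : xr b a c' = xr a b c'⁻¹ * w * xr a b c'⁻¹ := by
      have h2 : xr a b c'⁻¹ * xr a b (-c'⁻¹) = 1 := by
        rw [xr_add hab hab', add_neg_cancel, xr_zero]
      have h3 : xr a b (-c'⁻¹) * xr a b c'⁻¹ = 1 := by
        rw [xr_add hab hab', neg_add_cancel, xr_zero]
      calc xr b a c' = (xr a b c'⁻¹ * xr a b (-c'⁻¹)) * xr b a c' *
            (xr a b (-c'⁻¹) * xr a b c'⁻¹) := by rw [h2, h3, one_mul, mul_one]
        _ = _ := by rw [hw]; group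
    obtain ⟨d, hd⟩ : ∃ d : F, s⁻¹ * xr a b c'⁻¹ * s = xr b a d := by
      obtain ⟨d, hd⟩ := xr_conj' (hg.le hsH) hs hab c'⁻¹
      refine ⟨d, ?_⟩
      rw [hd, tau_iv, hta, htb]
    obtain ⟨d', hd'⟩ := xr_conj' (hg.le hnH) hn hab.symm d
    have hwsM : Mon (w * s) 1 := by
      have h5 := mon_mul hwM hs
      rwa [tau_mul] at h5
    refine ⟨xr a b c'⁻¹ * (w * s), mul_mem (show xr a b c'⁻¹ ∈ BU (2 * k + 1) F ⊓ H from
      ⟨hXU _, hXH _⟩) (show w * s ∈ BU (2 * k + 1) F ⊓ H from ⟨mem_T' hwsM, mul_mem hwH hsH⟩),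
      xr (σ⁻¹ b) (σ⁻¹ a) d', mem_inf.2 ⟨mem_BU.2 (xr_up hlt' d'), ?_⟩, ?_⟩
    · rw [← hd']
      exact mul_mem (mul_mem (inv_mem hnH) (hg.xr b a hab.symm hba' _)) hnH
    · rw [← hd', ← hd]
      have e3 : s * xr a b c * n = (s * xr a b c * s⁻¹) * (s * n) := by group
      rw [e3, hsc, e2]
      group

lemma gm_BH (hg : Good H) {x : SLm (2 * k + 1) F} (hx : x ∈ BU (2 * k + 1) F ⊓ H) :
    gm k F x ∈ BU (2 * k + 1) F ⊓ H := ⟨gm_up (hg.le hx.2) hx.1, hg.gm x hx.2⟩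

lemma gm_mon {x : SLm (2 * k + 1) F} {σ : Equiv.Perm (VI k)} (h : Mon x σ) :
    Mon (gm k F x) (pp k * σ * pp k) := by
  intro i j hij
  rw [gm_apply] at hij
  have h1 := h _ _ hij
  rw [Equiv.Perm.mul_apply, Equiv.Perm.mul_apply, ← h1, pp_pp]

lemma gm_DC (hg : Good H) {n x : SLm (2 * k + 1) F} (h : DC (BU (2 * k + 1) F ⊓ H) n x) :
    DC (BU (2 * k + 1) F ⊓ H) (gm k F n) (gm k F x) := by
  obtain ⟨a, ha, b, hb, rfl⟩ := h
  exact ⟨_, gm_BH hg ha, _, gm_BH hg hb, by rw [map_mul, map_mul]⟩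

lemma pp_conj (σ : Equiv.Perm (VI k)) : pp k * (pp k * σ * pp k) * pp k = σ := by
  calc pp k * (pp k * σ * pp k) * pp k = (pp k * pp k) * σ * (pp k * pp k) := by group
    _ = σ := by rw [pp_mul, one_mul, mul_one]

/-- representatives of the simple reflections -/
def Sim (s : SLm (2 * k + 1) F) : Prop := ∃ i : Fin k, Mon s (tau i) ∨ Mon s (pp k * tau i * pp k)

omit [Finite F] in
lemma Sim.mon {s : SLm (2 * k + 1) F} (h : Sim s) : ∃ τ, Mon s τ ∧ τ * τ = 1 := by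
  obtain ⟨i, hi | hi⟩ := h
  · exact ⟨_, hi, tau_mul i⟩
  · refine ⟨_, hi, ?_⟩
    calc pp k * tau i * pp k * (pp k * tau i * pp k) =
        pp k * (tau i * (pp k * pp k) * tau i) * pp k := by group
      _ = 1 := by rw [pp_mul, mul_one, tau_mul, mul_one, pp_mul]

lemma Sim_mul (hg : Good H) {s x n : SLm (2 * k + 1) F} (hsH : s ∈ H)
    (hs : Sim s) (hxH : x ∈ H) (hx : IsUp x) (hnH : n ∈ H) {σ : Equiv.Perm (VI k)}
    (hn : Mon n σ) :
    DC (BU (2 * k + 1) F ⊓ H) n (s * x * n) ∨ DC (BU (2 * k + 1) F ⊓ H) (s * n) (s * x * n) := by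
  obtain ⟨i, hi | hi⟩ := hs
  · exact main_mul hg hsH hi hxH hx hnH hn
  · have hi' := gm_mon hi
    rw [pp_conj] at hi'
    have h1 := main_mul hg (hg.gm s hsH) hi' (hg.gm x hxH) (gm_up (hg.le hxH) hx) (hg.gm n hnH)
      (gm_mon hn)
    rw [← map_mul, ← map_mul, ← map_mul] at h1
    refine h1.imp (fun h2 => ?_) fun h2 => ?_
    · have := gm_DC hg h2
      rwa [gm_gm, gm_gm] at this
    · have := gm_DC hg h2
      rwa [gm_gm, gm_gm] at this

/-- the root element of a simple reflection -/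
lemma Sim_thick (hg : Good H) {s : SLm (2 * k + 1) F} (hsH : s ∈ H) (hs : Sim s) :
    ∃ b ∈ BU (2 * k + 1) F ⊓ H, ¬ IsUp (s⁻¹ * b * s) := by
  have key : ∀ {s : SLm (2 * k + 1) F} {i : Fin k}, s ∈ H → Mon s (tau i) →
      ¬ IsUp (s⁻¹ * xr (ia i) (ib i) 1 * s) := by
    intro s i hsH hs hcon
    have h1 : Mon s⁻¹ (tau i) := by
      have := mon_inv hs
      rwa [tau_iv] at this
    have h2 : IsUp (s⁻¹ * xr (ia i) (ib i) (1 : F) * s⁻¹⁻¹) := by rwa [inv_inv]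
    have h3 := zero_of_conj_tau h1 h2
    rw [xr_apply (ia_ne i), if_neg (ia_ne i), if_pos ⟨rfl, rfl⟩, if_neg, zero_add, add_zero] at h3
    · exact one_ne_zero h3
    · rintro ⟨h4, -⟩
      exact ia_ne' i h4
  have hX : ∀ i : Fin k, xr (ia i) (ib i) (1 : F) ∈ BU (2 * k + 1) F ⊓ H := fun i =>
    ⟨xr_up (ia_lt i) 1, hg.xr _ _ (ia_ne i) (ia_ne' i) 1⟩
  obtain ⟨i, hi | hi⟩ := hs
  · exact ⟨_, hX i, key hsH hi⟩
  · refine ⟨_, gm_BH hg (hX i), fun hcon => ?_⟩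
    have hi' := gm_mon hi
    rw [pp_conj] at hi'
    refine key (hg.gm s hsH) hi' ?_
    have h1 : s⁻¹ * gm k F (xr (ia i) (ib i) 1) * s ∈ H :=
      mul_mem (mul_mem (inv_mem hsH) (gm_BH hg (hX i)).2) hsH
    have h2 := gm_up (hg.le h1) hcon
    rwa [map_mul, map_mul, map_inv, gm_gm] at h2

end

end Vale.Agent.P240.R2.H38.DD
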