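import Vale.Agent.P240.R2.H38.D4

/-!
Groups of type D, part 5: permutations that preserve the order on the simple roots; unipotent upper
triangular isometries are products of root elements.
-/

set_option autoImplicit false
set_option linter.all false

namespace Vale.Agent.P240.R2.H38.DD

open Subgroup Matrix Vale.Agent.P240.H195

section
variable {k : ℕ}

lemma mono_half {σ : Equiv.Perm (VI k)} (h1 : ∀ i : Fin k, σ (ia i) < σ (ib i)) :
    ∀ v : ℕ, ∀ u : ℕ, ∀ (hu : u < 2 * k + 1 + 1) (hv : v < 2 * k + 1 + 1), u < v → v ≤ k →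
      σ ⟨u, hu⟩ < σ ⟨v, hv⟩ := by
  intro v
  induction v with
  | zero => intro u _ _ h; exact absurd h (Nat.not_lt_zero _)
  | succ v ih =>
    intro u hu hv huv hvk
    have h2 : σ ⟨v, by omega⟩ < σ ⟨v + 1, hv⟩ := h1 ⟨v, by omega⟩
    rcases Nat.eq_or_lt_of_le (Nat.lt_succ_iff.1 huv) with h3 | h3
    · subst h3
      exact h2
    · exact (ih u hu (by omega) h3 (by omega)).trans h2

lemma order_ext {σ : Equiv.Perm (VI k)} (hr : ∀ j, σ (Fin.rev j) = Fin.rev (σ j))
    (h1 : ∀ i : Fin k, σ (ia i) < σ (ib i)) (h2 : ∀ i : Fin k, σ (pp k (ia i)) < σ (pp k (ib i)))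
    {a b : VI k} (hab : a < b) (h' : a ≠ Fin.rev b) : σ a < σ b := by
  have hm := mono_half h1
  have hva : ∀ a : VI k, (σ (Fin.rev a)).val + (σ a).val = 2 * k + 1 := fun a => by
    rw [hr]; exact rv_val _
  -- the last entry
  have hlast : ∀ u : ℕ, ∀ hu : u < 2 * k + 1 + 1, u < k →
      (σ ⟨u, hu⟩).val + (σ (c0 k)).val < 2 * k + 1 := by
    intro u hu huk
    have hk : 0 < k := by omega
    have h3 := h2 ⟨k - 1, by omega⟩
    have e1 : pp k (ia (⟨k - 1, by omega⟩ : Fin k)) = ia ⟨k - 1, by omega⟩ := by
      unfold pp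
      refine Equiv.swap_apply_of_ne_of_ne ?_ ?_
      · intro h
        have := congrArg Fin.val h
        have e : (c0 k).val = k := rfl
        rw [ia_val, e] at this
        simp only at this
        omega
      · intro h
        have := congrArg Fin.val h
        have e : (c1 k).val = k + 1 := rfl
        rw [ia_val, e] at this
        simp only at this
        omega
    have e2 : ib (⟨k - 1, by omega⟩ : Fin k) = c0 k := by
      apply Fin.ext
      rw [ib_val]
      change k - 1 + 1 = k
      omega
    rw [e1, e2] at h3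
    unfold pp at h3
    rw [Equiv.swap_apply_left, ← rev_c0, Fin.lt_def] at h3
    have h4 := hva (c0 k)
    have h5 : (σ ⟨u, hu⟩).val ≤ (σ (ia (⟨k - 1, by omega⟩ : Fin k))).val := by
      rcases Nat.eq_or_lt_of_le (show u ≤ k - 1 by omega) with h6 | h6
      · have : (⟨u, hu⟩ : VI k) = ia (⟨k - 1, by omega⟩ : Fin k) := Fin.ext h6
        rw [this]
      · exact (hm (k - 1) u hu (by omega) h6 (by omega)).le
    omega
  -- sums in the first half
  have hsum : ∀ u v : VI k, u.val ≤ k → v.val ≤ k → u ≠ v → (σ u).val + (σ v).val < 2 * k + 1 := by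
    have hwlog : ∀ u v : VI k, v.val ≤ k → u < v → (σ u).val + (σ v).val < 2 * k + 1 := by
      intro u v hv huv
      rw [Fin.lt_def] at huv
      have h3 := hlast u.val u.2 (by omega)
      rcases Nat.eq_or_lt_of_le hv with h4 | h4
      · have : v = c0 k := Fin.ext h4
        rw [this]
        exact h3
      · have h5 := hlast v.val v.2 h4
        have h6 := hm v.val u.val u.2 v.2 huv hv
        rw [Fin.lt_def] at h6
        have h7 := hm k v.val v.2 (by omega) h4 le_rfl
        rw [Fin.lt_def] at h7
        have e : (σ (c0 k)).val = (σ ⟨k, by omega⟩).val := rfl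
        change (σ u).val < (σ v).val at h6
        change (σ v).val < (σ (c0 k)).val at h7
        change (σ v).val + (σ (c0 k)).val < 2 * k + 1 at h5
        omega
    intro u v hu hv huv
    rcases lt_or_gt_of_ne huv with h | h
    · exact hwlog u v hv h
    · have := hwlog v u hu h
      omega
  have ra := rv_val a
  have rb := rv_val b
  have sa := hva a
  have sb := hva b
  rw [Fin.lt_def] at hab
  by_cases hb : b.val ≤ k
  · exact hm b.val a.val a.2 b.2 hab hb
  · by_cases ha : a.val ≤ k
    · have h3 := hsum a (Fin.rev b) ha (by omega) h'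
      rw [Fin.lt_def]
      omega
    · have h3 := hm (Fin.rev a).val (Fin.rev b).val (Fin.rev b).2 (Fin.rev a).2 (by omega) (by omega)
      change (σ (Fin.rev b)).val < (σ (Fin.rev a)).val at h3
      rw [Fin.lt_def]
      omega

end

section
variable {k : ℕ} {F : Type*} [Field F]

lemma mul_xr_apply {a b : VI k} (h : a ≠ b) (h' : a ≠ Fin.rev b) (M : SLm (2 * k + 1) F) (t : F)
    (i j : VI k) : (M * xr a b t).1 i j = M.1 i j + (if j = b then M.1 i a * t else 0) +
      (if j = Fin.rev a then M.1 i (Fin.rev b) * -t else 0) := by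
  have h4 : b ≠ Fin.rev a := fun h5 => h' (by rw [h5, Fin.rev_rev])
  rw [xr_def h, ← mul_assoc, mul_tx_apply, mul_tx_apply, mul_tx_apply]
  have hr : ¬ Fin.rev b = b := rv_ne b
  rw [if_neg hr, add_zero]

lemma HS_single {f : VI k → F} (b : VI k) (h : ∀ l, l ≠ b → l ≠ Fin.rev b → f l = 0)
    (hs : f (Fin.rev b) = f b) : HS f = f b := by
  rw [HS_eq, Finset.sum_eq_single (hf b)]
  · rw [if_pos (hf_lt b)]
    rcases hf_or b with h1 | h1
    · rw [h1]
    · rw [h1, hs]
  · intro l _ hl
    by_cases h1 : l < Fin.rev l
    · rw [if_pos h1]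
      apply h
      · rintro rfl
        exact hl (hf_of h1).symm
      · intro h2
        apply hl
        rw [← hf_rev, ← h2, hf_of h1]
    · rw [if_neg h1]
  · exact fun h => absurd (Finset.mem_univ _) h

/-- the first `j` columns are those of the identity matrix -/
def Cols (j : ℕ) (x : SLm (2 * k + 1) F) : Prop :=
  ∀ c : VI k, c.val < j → ∀ i, x.1 i c = if i = c then 1 else 0

variable [Finite F]

lemma clear_colD {C : Subgroup (SLm (2 * k + 1) F)}
    (hC : ∀ a b : VI k, a < b → a < Fin.rev b → ∀ t : F, xr a b t ∈ C) (b : VI k) :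
    ∀ t : ℕ, ∀ x ∈ UU (2 * k + 1) F, x ∈ SOD k F → Cols b.val x →
      (∀ i, i < b → i < Fin.rev b → t ≤ i.val → x.1 i b = 0) →
      ∃ w ∈ C, x * w ∈ UU (2 * k + 1) F ∧ x * w ∈ SOD k F ∧ Cols b.val (x * w) ∧
        ∀ i, i < b → i < Fin.rev b → (x * w).1 i b = 0 := by
  intro t
  induction t with
  | zero => exact fun x hx hxS hc h => ⟨1, one_mem _, by rwa [mul_one], by rwa [mul_one],
      by rwa [mul_one], by rw [mul_one]; exact fun i hi hi' => h i hi hi' (Nat.zero_le _)⟩
  | succ t ih =>
    intro x hx hxS hc h
    by_cases htb : t < b.val ∧ t < (Fin.rev b).val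
    · obtain ⟨htb, htr⟩ := htb
      obtain ⟨a, ha⟩ : ∃ a : VI k, a = ⟨t, htb.trans b.2⟩ := ⟨_, rfl⟩
      have hav : a.val = t := by rw [ha]
      have hab : a < b := by rw [Fin.lt_def, hav]; exact htb
      have har : a < Fin.rev b := by rw [Fin.lt_def, hav]; exact htr
      have hent := fun i j => mul_xr_apply hab.ne har.ne x (-(x.1 a b)) i j
      have hra := rv_val a
      have hrb := rv_val b
      have hbr : b < Fin.rev a := by rw [Fin.lt_def]; omega
      have hX : xr a b (-(x.1 a b)) ∈ UU (2 * k + 1) F := ⟨xr_up hab _, xr_diag hab.ne _⟩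
      have hXS : xr a b (-(x.1 a b)) ∈ SOD k F := xr_mem hab.ne har.ne _
      have hcols : Cols b.val (x * xr a b (-(x.1 a b))) := by
        intro c hcb i
        rw [hent, if_neg (by rintro rfl; exact lt_irrefl _ hcb), if_neg, add_zero, add_zero]
        · exact hc c hcb i
        · rintro rfl
          rw [Fin.lt_def] at hbr
          omega
      obtain ⟨w, hw, h1, h2, h3, h4⟩ := ih _ (mul_mem hx hX) (mul_mem hxS hXS) hcols (by
        intro i hi hi' hti
        rw [hent, if_pos rfl, if_neg hbr.ne, add_zero, hc a (by rw [hav]; exact htb)]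
        rcases Nat.eq_or_lt_of_le hti with h4 | h4
        · have : i = a := Fin.ext (by rw [hav]; exact h4.symm)
          rw [this, if_pos rfl, one_mul, add_neg_cancel]
        · have : i ≠ a := fun h5 => by rw [h5, hav] at h4; exact lt_irrefl _ h4
          rw [if_neg this, zero_mul, add_zero, h i hi hi' h4])
      refine ⟨xr a b (-(x.1 a b)) * w, mul_mem (hC _ _ hab har _) hw, ?_, ?_, ?_, ?_⟩
      · rw [← mul_assoc]; exact h1
      · rw [← mul_assoc]; exact h2
      · rw [← mul_assoc]; exact h3
      · rw [← mul_assoc]; exact h4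
    · refine ih x hx hxS hc fun i hi hi' hti => ?_
      exfalso
      rw [Fin.lt_def] at hi hi'
      exact htb ⟨by omega, by omega⟩

/-- unipotent upper triangular isometries are products of root elements -/
lemma u_gen {C : Subgroup (SLm (2 * k + 1) F)}
    (hC : ∀ a b : VI k, a < b → a < Fin.rev b → ∀ t : F, xr a b t ∈ C) :
    ∀ x ∈ UU (2 * k + 1) F, x ∈ SOD k F → x ∈ C := by
  have key : ∀ t j : ℕ, 2 * k + 1 + 1 ≤ j + t → ∀ x ∈ UU (2 * k + 1) F, x ∈ SOD k F →
      Cols j x → x ∈ C := by
    intro t
    induction t with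
    | zero =>
      intro j hj x hx hxS hc
      have : x = 1 := by
        refine sl_ext fun u v => ?_
        rw [sl_one, hc v (by have := v.2; omega)]
      rw [this]
      exact one_mem _
    | succ t ih =>
      intro j hj x hx hxS hc
      by_cases hjm : j < 2 * k + 1 + 1
      · obtain ⟨b, hb⟩ : ∃ b : VI k, b = ⟨j, hjm⟩ := ⟨_, rfl⟩
        have hbv : b.val = j := by rw [hb]
        obtain ⟨w, hw, h1, h2, h3, h4⟩ := clear_colD hC b (2 * k + 1 + 1) x hx hxS
          (by rw [hbv]; exact hc) (fun i _ _ hi => absurd i.2 (by omega))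
        obtain ⟨y, hy⟩ : ∃ y, y = x * w := ⟨_, rfl⟩
        rw [← hy] at h1 h2 h3 h4
        have hrb := rv_val b
        -- entries between
        have h5 : ∀ i, i < b → Fin.rev b < i → y.1 i b = 0 := by
          intro i hi hi'
          have hri := rv_val i
          have h6 := C1 h2 (Fin.rev i) b
          rw [Fin.rev_rev, if_neg hi.ne, Finset.sum_eq_single (Fin.rev i)] at h6
          · rw [h3 (Fin.rev i) (by rw [Fin.lt_def] at hi'; omega), if_pos rfl, one_mul,
              Fin.rev_rev] at h6
            exact h6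
          · intro l _ hl
            rw [h3 (Fin.rev i) (by rw [Fin.lt_def] at hi'; omega), if_neg hl, zero_mul]
          · exact fun h => absurd (Finset.mem_univ _) h
        have h6 : ∀ i, i < b → i ≠ Fin.rev b → y.1 i b = 0 := by
          intro i hi hne
          rcases lt_or_gt_of_ne hne with h7 | h7
          · exact h4 i hi h7
          · exact h5 i hi h7
        have h7 : y.1 (Fin.rev b) b = 0 := by
          by_cases hlt : Fin.rev b < b
          · have h8 := C2 h2 b
            rw [HS_single b] at h8
            · rw [h1.2, one_mul] at h8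
              exact h8
            · intro l hl hl'
              rcases lt_or_gt_of_ne hl with h9 | h9
              · rw [h6 l h9 hl', zero_mul]
              · rw [h1.1 l b h9, zero_mul]
            · rw [Fin.rev_rev, mul_comm]
          · exact h1.1 _ _ (lt_of_le_of_ne (not_lt.1 hlt) (rv_ne b).symm)
        have h8 := ih (j + 1) (by omega) y h1 h2 (by
          intro c hcj i
          by_cases hcb : c = b
          · rw [hcb]
            rcases lt_trichotomy i b with h9 | h9 | h9
            · rw [if_neg h9.ne]
              by_cases h10 : i = Fin.rev b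
              · rw [h10]; exact h7
              · exact h6 i h9 h10
            · rw [h9, if_pos rfl, h1.2]
            · rw [if_neg h9.ne', h1.1 i b h9]
          · refine h3 c ?_ i
            have : c.val ≠ b.val := fun h => hcb (Fin.ext h)
            omega)
        rw [hy] at h8
        exact (mul_mem_cancel_right hw).1 h8
      · exact ih (j + 1) (by omega) x hx hxS fun c hc' i => hc c (by have := c.2; omega) i
  exact fun x hx hxS => key (2 * k + 1 + 1) 0 (by omega) x hx hxS fun c hc =>
    absurd hc (Nat.not_lt_zero _)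

end

end Vale.Agent.P240.R2.H38.DD
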