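import Vale.Agent.P240.R2.H38.D5

/-!
Groups of type D, part 6: the split BN-pair.
-/

set_option autoImplicit false
set_option linter.all false

namespace Vale.Agent.P240.R2.H38.DD

open Subgroup Matrix Vale.Agent.P240.H195

section
variable {k : ℕ} {F : Type*} [Field F] [Finite F]

/-- the upper triangular elements -/
abbrev BH (H : Subgroup (SLm (2 * k + 1) F)) : Subgroup ↥H := (BU (2 * k + 1) F).subgroupOf H

/-- the unipotent upper triangular elements -/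
abbrev UH (H : Subgroup (SLm (2 * k + 1) F)) : Subgroup ↥H := (UU (2 * k + 1) F).subgroupOf H

/-- the diagonal elements -/
abbrev TH (H : Subgroup (SLm (2 * k + 1) F)) : Subgroup ↥H :=
  (BU (2 * k + 1) F ⊓ NM (2 * k + 1) F).subgroupOf H

/-- the representatives of the simple reflections -/
def SH (H : Subgroup (SLm (2 * k + 1) F)) : Set ↥H := {s | Sim s.1}

/-- the monomial subgroup -/
def NH (H : Subgroup (SLm (2 * k + 1) F)) : Subgroup ↥H := closure (SH H) ⊔ TH H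

variable {H : Subgroup (SLm (2 * k + 1) F)}

lemma mem_BH' {x : ↥H} : x ∈ BH H ↔ IsUp x.1 := Iff.rfl

lemma mem_UH' {x : ↥H} : x ∈ UH H ↔ x.1 ∈ UU (2 * k + 1) F := Iff.rfl

lemma mem_TH' {x : ↥H} : x ∈ TH H ↔ Mon x.1 1 := mem_T

lemma NH_le : NH H ≤ (NM (2 * k + 1) F).subgroupOf H := by
  unfold NH
  rw [sup_le_iff, closure_le]
  refine ⟨fun s hs => ?_, fun t ht => ?_⟩
  · obtain ⟨τ, hτ, -⟩ := Sim.mon (show Sim s.1 from hs)
    exact ⟨τ, hτ⟩
  · exact (mem_inf.1 ht).2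

lemma NH_mon {n : ↥H} (hn : n ∈ NH H) : ∃ σ, Mon n.1 σ := NH_le hn

lemma BH_inf : BH H ⊓ NH H = TH H := by
  apply le_antisymm
  · rintro x ⟨hx, hxN⟩
    obtain ⟨σ, hσ⟩ := NH_mon hxN
    have h1 := mon_up hσ hx
    rw [h1] at hσ
    exact mem_TH'.2 hσ
  · intro x hx
    exact ⟨(mem_inf.1 hx).1, mem_sup_right hx⟩

lemma DC_sub {n x : ↥H} (h : DC (BU (2 * k + 1) F ⊓ H) n.1 x.1) : DC (BH H) n x := by
  obtain ⟨a, ha, b, hb, e⟩ := h
  exact ⟨⟨a, ha.2⟩, ha.1, ⟨b, hb.2⟩, hb.1, Subtype.ext e⟩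

lemma exists_sim (hg : Good H) (i : Fin k) : ∃ s : ↥H, Mon s.1 (tau i) :=
  ⟨⟨_, mul_mem (hg.xr _ _ (ia_ne i) (ia_ne' i) (-(1 : F)⁻¹))
    (mul_mem (hg.xr _ _ (ia_ne i).symm (fun h => ia_ne' i (by rw [h, Fin.rev_rev])) (1 : F))
      (hg.xr _ _ (ia_ne i) (ia_ne' i) (-(1 : F)⁻¹)))⟩,
    xr_rank (ia_ne i) (ia_ne' i) one_ne_zero⟩

lemma exists_sim' (hg : Good H) (i : Fin k) : ∃ s : ↥H, Mon s.1 (pp k * tau i * pp k) := by
  obtain ⟨s, hs⟩ := exists_sim hg i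
  exact ⟨⟨_, hg.gm _ s.2⟩, gm_mon hs⟩

theorem dBN0 (hg : Good H) : BN0 (BH H) (NH H) (SH H) where
  norm := by
    intro n hn t ht htN
    obtain ⟨σ, hσ⟩ := NH_mon hn
    have ht1 : Mon t.1 1 := by
      have : t ∈ BH H ⊓ NH H := ⟨ht, htN⟩
      rw [BH_inf] at this
      exact mem_TH'.1 this
    have h1 : Mon (n.1 * t.1 * n.1⁻¹) (σ * 1 * σ⁻¹) := mon_mul (mon_mul hσ ht1) (mon_inv hσ)
    rw [mul_one, mul_inv_cancel] at h1
    exact mem_T' h1
  sub := fun s hs => mem_sup_left (subset_closure hs)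
  span := by
    rw [BH_inf]
    rfl
  sq := by
    intro s hs
    obtain ⟨τ, hτ, h2⟩ := Sim.mon (show Sim s.1 from hs)
    have h1 := mon_mul hτ hτ
    rw [h2] at h1
    exact mem_T' h1
  mul := by
    intro s hs x hx n hn
    obtain ⟨σ, hσ⟩ := NH_mon hn
    exact (Sim_mul hg s.2 hs x.2 hx n.2 hσ).imp (fun h => DC_sub (n := n) (x := s * x * n) h)
      fun h => DC_sub (n := s * n) (x := s * x * n) h
  thick := by
    intro s hs
    obtain ⟨b, hb, hbs⟩ := Sim_thick hg s.2 hs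
    exact ⟨⟨b, hb.2⟩, hb.1, hbs⟩

/-- root pairs -/
lemma swap_lt {σ : Equiv.Perm (VI k)} (hr : ∀ j, σ (Fin.rev j) = Fin.rev (σ j)) {a b : VI k}
    (hab : a < b) (h' : a ≠ Fin.rev b)
    (hmin : Vale.Agent.P240.R2.H487.CG.fw σ ≤ Vale.Agent.P240.R2.H487.CG.fw
      (σ * (Equiv.swap a b * Equiv.swap (Fin.rev b) (Fin.rev a)))) : σ b < σ a := by
  have h4 : b ≠ Fin.rev a := fun h5 => h' (by rw [h5, Fin.rev_rev])
  have h5 : Fin.rev b ≠ Fin.rev a := rv_inj hab.ne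
  rw [← mul_assoc, Vale.Agent.P240.R2.H487.CG.fw_swap _ h5,
    Vale.Agent.P240.R2.H487.CG.fw_swap _ hab.ne, Equiv.Perm.mul_apply, Equiv.Perm.mul_apply,
    Equiv.swap_apply_of_ne_of_ne h'.symm (rv_ne b),
    Equiv.swap_apply_of_ne_of_ne (rv_ne a) h4.symm, hr, hr] at hmin
  have ra := rv_val a
  have rb := rv_val b
  have sa := rv_val (σ a)
  have sb := rv_val (σ b)
  by_contra hcon
  have hlt : σ a < σ b := lt_of_le_of_ne (not_lt.1 hcon) fun h => hab.ne (σ.injective h)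
  rw [Fin.lt_def] at hab hlt
  have e1 : ((Fin.rev a).val : ℤ) - (Fin.rev b).val = (b.val : ℤ) - a.val := by omega
  have e2 : ((Fin.rev (σ b)).val : ℤ) - (Fin.rev (σ a)).val = (σ a).val - (σ b).val := by omega
  rw [e1, e2] at hmin
  have h6 : (0 : ℤ) < (b.val : ℤ) - a.val := by omega
  have h7 : ((σ a).val : ℤ) - (σ b).val < 0 := by omega
  have h8 := mul_neg_of_pos_of_neg h6 h7
  linarith

lemma exists_long (hg : Good H) : ∃ n ∈ NH H, ∃ σ : Equiv.Perm (VI k), Mon n.1 σ ∧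
    ∀ a b : VI k, a < b → a ≠ Fin.rev b → σ b < σ a := by
  obtain ⟨σ, ⟨n, hn, hσ⟩, hmin⟩ := Set.exists_min_image
    {σ : Equiv.Perm (VI k) | ∃ n ∈ NH H, Mon n.1 σ} Vale.Agent.P240.R2.H487.CG.fw (Set.toFinite _)
    ⟨1, 1, one_mem _, mon_one⟩
  have hr := mon_rev (hg.le n.2) hσ
  refine ⟨n, hn, σ, hσ, ?_⟩
  have hstep : ∀ {τ : Equiv.Perm (VI k)} (s : ↥H), Sim s.1 → Mon s.1 τ →
      Vale.Agent.P240.R2.H487.CG.fw σ ≤ Vale.Agent.P240.R2.H487.CG.fw (σ * τ) := by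
    intro τ s hs hsτ
    exact hmin _ ⟨n * s, mul_mem hn (mem_sup_left (subset_closure hs)), mon_mul hσ hsτ⟩
  have h1 : ∀ i : Fin k, σ (ib i) < σ (ia i) := by
    intro i
    obtain ⟨s, hs⟩ := exists_sim hg i
    exact swap_lt hr (ia_lt i) (ia_ne' i) (hstep s ⟨i, Or.inl hs⟩ hs)
  have h2 : ∀ i : Fin k, σ (pp k (ib i)) < σ (pp k (ia i)) := by
    intro i
    obtain ⟨s, hs⟩ := exists_sim' hg i
    have e : pp k * tau i * pp k = Equiv.swap (pp k (ia i)) (pp k (ib i)) *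
        Equiv.swap (Fin.rev (pp k (ib i))) (Fin.rev (pp k (ia i))) := by
      rw [← pp_rev, ← pp_rev, Equiv.swap_apply_apply, Equiv.swap_apply_apply, pp_inv, tau]
      calc pp k * (Equiv.swap (ia i) (ib i) * Equiv.swap (Fin.rev (ib i)) (Fin.rev (ia i))) * pp k
          = pp k * Equiv.swap (ia i) (ib i) * 1 *
            Equiv.swap (Fin.rev (ib i)) (Fin.rev (ia i)) * pp k := by group
        _ = _ := by rw [← pp_mul]; group
    have hlt : pp k (ia i) < pp k (ib i) := by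
      have hi := i.2
      have e1 : pp k (ia i) = ia i := by
        unfold pp
        refine Equiv.swap_apply_of_ne_of_ne ?_ ?_ <;> rw [Ne, Fin.ext_iff, ia_val]
        · change ¬ i.val = k
          omega
        · change ¬ i.val = k + 1
          omega
      rw [e1]
      by_cases h3 : ib i = c0 k
      · rw [h3]
        unfold pp
        rw [Equiv.swap_apply_left, Fin.lt_def, ia_val]
        change i.val < k + 1
        omega
      · unfold pp
        rw [Equiv.swap_apply_of_ne_of_ne h3]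
        · exact ia_lt i
        · rw [Ne, Fin.ext_iff, ib_val]
          change ¬ i.val + 1 = k + 1
          omega
    refine swap_lt hr hlt ?_ (by rw [← e]; exact hstep s ⟨i, Or.inr hs⟩ hs)
    rw [← pp_rev]
    exact fun h => ia_ne' i ((pp k).injective h)
  intro a b hab h'
  have h3 := order_ext (σ := Fin.revPerm * σ) (k := k) ?_ ?_ ?_ hab h'
  · rw [Equiv.Perm.mul_apply, Equiv.Perm.mul_apply, Fin.revPerm_apply, Fin.revPerm_apply,
      Fin.rev_lt_rev] at h3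
    exact h3
  · intro j
    rw [Equiv.Perm.mul_apply, Equiv.Perm.mul_apply, Fin.revPerm_apply, Fin.revPerm_apply, hr]
  · intro i
    rw [Equiv.Perm.mul_apply, Equiv.Perm.mul_apply, Fin.revPerm_apply, Fin.revPerm_apply,
      Fin.rev_lt_rev]
    exact h1 i
  · intro i
    rw [Equiv.Perm.mul_apply, Equiv.Perm.mul_apply, Fin.revPerm_apply, Fin.revPerm_apply,
      Fin.rev_lt_rev]
    exact h2 i

/-- the group is generated by root elements and diagonal elements -/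
def Gen (H : Subgroup (SLm (2 * k + 1) F)) : Prop :=
  H ≤ closure ({x | ∃ (a b : VI k) (t : F), a ≠ b ∧ a ≠ Fin.rev b ∧ x = xr a b t} ∪
    {x | x ∈ H ∧ Mon x 1})

lemma xr_in_sup (hg : Good H) {a b : VI k} (h : a ≠ b) (h' : a ≠ Fin.rev b) (t : F) :
    (⟨xr a b t, hg.xr a b h h' t⟩ : ↥H) ∈ BH H ⊔ NH H := by
  rcases lt_or_gt_of_ne h with h1 | h1
  · exact mem_sup_left (xr_up h1 t : IsUp _)
  · obtain ⟨n, hn, σ, hσ, hlong⟩ := exists_long hg
    have hr := mon_rev (hg.le n.2) hσ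
    obtain ⟨d, hd⟩ := xr_conj' (hg.le n.2) hσ h t
    have h2 : σ⁻¹ a ≠ σ⁻¹ b := fun h3 => h ((σ⁻¹).injective h3)
    have ea : σ (σ⁻¹ a) = a := by rw [← Equiv.Perm.mul_apply, mul_inv_cancel, Equiv.Perm.one_apply]
    have eb : σ (σ⁻¹ b) = b := by rw [← Equiv.Perm.mul_apply, mul_inv_cancel, Equiv.Perm.one_apply]
    have h3 : σ⁻¹ b ≠ Fin.rev (σ⁻¹ a) := by
      intro h4
      have h5 := congrArg σ h4
      rw [hr, ea, eb] at h5
      exact h' (by rw [h5, Fin.rev_rev])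
    have h4 : σ⁻¹ a < σ⁻¹ b := by
      by_contra hcon
      have h5 := hlong _ _ (lt_of_le_of_ne (not_lt.1 hcon) h2.symm) h3
      rw [ea, eb] at h5
      exact lt_asymm h1 h5
    have hX : n⁻¹ * (⟨xr a b t, hg.xr a b h h' t⟩ : ↥H) * n ∈ BH H := by
      change IsUp (n.1⁻¹ * xr a b t * n.1)
      rw [hd]
      exact xr_up h4 d
    have e : (⟨xr a b t, hg.xr a b h h' t⟩ : ↥H) =
        n * (n⁻¹ * (⟨xr a b t, hg.xr a b h h' t⟩ : ↥H) * n) * n⁻¹ := by group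
    rw [e]
    exact mul_mem (mul_mem (mem_sup_right hn) (mem_sup_left hX)) (inv_mem (mem_sup_right hn))

theorem dBN (hg : Good H) (hgen : Gen H) : BN (BH H) (NH H) (SH H) where
  toBN0 := dBN0 hg
  gen := by
    rw [eq_top_iff]
    have hle : closure ({x | ∃ (a b : VI k) (t : F), a ≠ b ∧ a ≠ Fin.rev b ∧ x = xr a b t} ∪
        {x | x ∈ H ∧ Mon x 1}) ≤ (BH H ⊔ NH H).map H.subtype := by
      rw [closure_le]
      rintro x (⟨a, b, t, h, h', rfl⟩ | ⟨hx, hxT⟩)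
      · exact ⟨_, xr_in_sup hg h h' t, rfl⟩
      · exact ⟨⟨x, hx⟩, mem_sup_left (mem_T' hxT : IsUp _), rfl⟩
    intro x _
    obtain ⟨y, hy, hyx⟩ := hle (hgen x.2)
    have : y = x := Subtype.ext hyx
    rw [← this]
    exact hy

end

end Vale.Agent.P240.R2.H38.DD
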