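import Vale.Agent.P240.R2.H38.D6

/-!
Groups of type D, part 7: the split BN-pair, continued.
-/

set_option autoImplicit false
set_option linter.all false

namespace Vale.Agent.P240.R2.H38.DD

open Subgroup Matrix Vale.Agent.P240.H195

section
variable {k : ℕ} {F : Type*} [Field F] [Finite F] {H : Subgroup (SLm (2 * k + 1) F)}

lemma gm_UU {x : SLm (2 * k + 1) F} (hx : x ∈ UU (2 * k + 1) F) (hxS : x ∈ SOD k F) :
    gm k F x ∈ UU (2 * k + 1) F :=
  ⟨gm_up hxS hx.1, fun i => by rw [gm_apply, hx.2]⟩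

lemma strong_main {s x u : SLm (2 * k + 1) F} {i : Fin k} (hs : Mon s (tau i))
    (hx : x ∈ UU (2 * k + 1) F) (hxS : x ∈ SOD k F) (hsx : s * x * s⁻¹ ∈ UU (2 * k + 1) F)
    (hu : u ∈ UU (2 * k + 1) F) (huS : u ∈ SOD k F) :
    s * (u * x * u⁻¹) * s⁻¹ ∈ UU (2 * k + 1) F := by
  have h0 := zero_of_conj_tau hs hsx.1
  have hU : u * x * u⁻¹ ∈ UU (2 * k + 1) F := mul_mem (mul_mem hu hx) (inv_mem hu)
  have hS : u * x * u⁻¹ ∈ SOD k F := mul_mem (mul_mem huS hxS) (inv_mem huS)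
  have h1 : (u * x * u⁻¹).1 (ia i) (ib i) = 0 :=
    Vale.Agent.P240.R2.H487.CG.conj_super (m := 2 * k + 1) hu hx
      (i := ⟨i.val, by have := i.2; omega⟩) h0
  have h2 := up_sup hS hU.1 (a := ia i) (b := ib i) rfl (ia_ne' i) h1
  exact ⟨up_conj_tau hs hU.1 h1 h2, Vale.Agent.P240.R2.H487.CG.diag_conj hs hU⟩

/-- the diagonal part -/
lemma exists_diag {b : SLm (2 * k + 1) F} (hbS : b ∈ SOD k F) (hbU : IsUp b) :
    ∃ t : SLm (2 * k + 1) F, Mon t 1 ∧ t ∈ SOD k F ∧ b * t⁻¹ ∈ UU (2 * k + 1) F := by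
  have hdet : (Matrix.diagonal fun i => b.1 i i).det = 1 := by
    rw [Matrix.det_diagonal]
    have h1 : b.1.det = ∏ i, b.1 i i :=
      Matrix.det_of_isUpperTriangular fun i j hij => hbU i j hij
    rw [← h1]
    exact b.2
  obtain ⟨t, ht⟩ : ∃ t : SLm (2 * k + 1) F, t = ⟨Matrix.diagonal fun i => b.1 i i, hdet⟩ :=
    ⟨_, rfl⟩
  have hte : ∀ i j, t.1 i j = if i = j then b.1 i i else 0 := by
    intro i j
    rw [ht]
    exact Matrix.diagonal_apply ..
  have htM : Mon t 1 := by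
    intro i j hij
    rw [hte] at hij
    by_contra hne
    exact hij (if_neg hne)
  have htU := mem_T' htM
  have hti : IsUp t⁻¹ := inv_mem (mem_BU.2 htU)
  have htS : t ∈ SOD k F := by
    intro v
    have h1 : t.1 *ᵥ v = fun i => b.1 i i * v i := by
      funext i
      rw [ht]
      exact Matrix.mulVec_diagonal _ _ _
    rw [h1, Qd_eq, Qd_eq]
    refine HS_congr fun i _ => ?_
    have h2 := up_dd hbS hbU i
    calc b.1 i i * v i * (b.1 (Fin.rev i) (Fin.rev i) * v (Fin.rev i)) =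
        (b.1 i i * b.1 (Fin.rev i) (Fin.rev i)) * (v i * v (Fin.rev i)) := by ring
      _ = _ := by rw [h2, one_mul]
  exact ⟨t, htM, htS, up_mul hbU hti, fun i => by
    rw [up_mul_diag hbU hti, up_inv_diag htU, hte, if_pos rfl, mul_inv_cancel₀ (up_diag_ne hbU i)]⟩

lemma strong_gm {s x u : SLm (2 * k + 1) F} (hs : Sim s) (hsS : s ∈ SOD k F)
    (hx : x ∈ UU (2 * k + 1) F) (hxS : x ∈ SOD k F) (hsx : s * x * s⁻¹ ∈ UU (2 * k + 1) F)
    (hu : u ∈ UU (2 * k + 1) F) (huS : u ∈ SOD k F) :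
    s * (u * x * u⁻¹) * s⁻¹ ∈ UU (2 * k + 1) F := by
  obtain ⟨i, hi | hi⟩ := hs
  · exact strong_main hi hx hxS hsx hu huS
  · have hi' := gm_mon hi
    rw [pp_conj] at hi'
    have hsxS : s * x * s⁻¹ ∈ SOD k F := mul_mem (mul_mem hsS hxS) (inv_mem hsS)
    have h0 : gm k F s * gm k F x * (gm k F s)⁻¹ = gm k F (s * x * s⁻¹) := by
      rw [map_mul, map_mul, map_inv]
    have h1 := strong_main hi' (gm_UU hx hxS) (gm_SOD hxS) (by
      rw [h0]
      exact gm_UU hsx hsxS) (gm_UU hu huS) (gm_SOD huS)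
    have h2 : s * (u * x * u⁻¹) * s⁻¹ ∈ SOD k F :=
      mul_mem (mul_mem hsS (mul_mem (mul_mem huS hxS) (inv_mem huS))) (inv_mem hsS)
    have h4 : gm k F s * (gm k F u * gm k F x * (gm k F u)⁻¹) * (gm k F s)⁻¹ =
        gm k F (s * (u * x * u⁻¹) * s⁻¹) := by
      simp only [map_mul, map_inv]
    rw [h4] at h1
    have h3 := gm_UU h1 (gm_SOD h2)
    rw [gm_gm] at h3
    exact h3

lemma opp_main {n x : SLm (2 * k + 1) F} {σ : Equiv.Perm (VI k)} (hσ : Mon n σ)
    (hlong : ∀ a b : VI k, a < b → a ≠ Fin.rev b → σ b < σ a) (hxS : x ∈ SOD k F)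
    (hx : x ∈ UU (2 * k + 1) F) (hnx : n * x * n⁻¹ ∈ UU (2 * k + 1) F) : x = 1 := by
  have h1 : ∀ a b : VI k, a < b → a ≠ Fin.rev b → x.1 a b = 0 := by
    intro a b hab h'
    by_contra hne
    exact (mon_conj_ne hσ x a b).2 hne (hnx.1 _ _ (hlong a b hab h'))
  have h2 : ∀ b : VI k, x.1 (Fin.rev b) b = 0 := by
    intro b
    by_cases hlt : Fin.rev b < b
    · have h8 := C2 hxS b
      rw [HS_single b] at h8
      · rw [hx.2, one_mul] at h8
        exact h8
      · intro l hl hl'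
        rcases lt_or_gt_of_ne hl with h9 | h9
        · rw [h1 l b h9 hl', zero_mul]
        · rw [hx.1 l b h9, zero_mul]
      · rw [Fin.rev_rev, mul_comm]
    · exact hx.1 _ _ (lt_of_le_of_ne (not_lt.1 hlt) (rv_ne b).symm)
  refine sl_ext fun i j => ?_
  rw [sl_one]
  rcases lt_trichotomy i j with h3 | h3 | h3
  · rw [if_neg h3.ne]
    by_cases h4 : i = Fin.rev j
    · rw [h4]; exact h2 j
    · exact h1 i j h3 h4
  · rw [h3, if_pos rfl, hx.2]
  · rw [if_neg h3.ne', hx.1 i j h3]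

theorem dSB {p : ℕ} [hp : Fact p.Prime] [CharP F p] (hk : 0 < k) (hg : Good H) (hgen : Gen H) :
    SB p (BH H) (NH H) (UH H) (SH H) where
  toBN := dBN hg hgen
  le := fun x hx => hx.1
  pgroup := by
    have h1 := (sl_SB (F := F) (m := 2 * k + 1) (p := p) (by omega)).pgroup
    exact h1.comap_of_injective H.subtype Subtype.val_injective
  normal := by
    intro b hb u hu
    exact (sl_SB (F := F) (m := 2 * k + 1) (p := p) (by omega)).normal b.1 hb u.1 hu
  split := by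
    intro b hb
    obtain ⟨t, htM, htS, huU⟩ := exists_diag (hg.le b.2) hb
    have huH : b.1 * t⁻¹ ∈ H :=
      u_gen (fun a b hab har t => hg.xr a b hab.ne har.ne t) _ huU
        (mul_mem (hg.le b.2) (inv_mem htS))
    have htH : t ∈ H := by
      have : t = (b.1 * t⁻¹)⁻¹ * b.1 := by group
      rw [this]
      exact mul_mem (inv_mem huH) b.2
    refine ⟨⟨b.1 * t⁻¹, huH⟩, huU, ⟨t, htH⟩, mem_T' htM, mem_sup_right (mem_TH'.2 htM),
      Subtype.ext ?_⟩
    change b.1 = b.1 * t⁻¹ * t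
    group
  coprime := by
    intro hdvd
    apply (sl_SB (F := F) (m := 2 * k + 1) (p := p) (by omega)).coprime
    refine hdvd.trans ?_
    rw [BH_inf]
    exact Subgroup.card_comap_dvd_of_injective _ _ Subtype.val_injective
  strong := fun s hs x hx hsx u hu =>
    strong_gm hs (hg.le s.2) hx (hg.le x.2) hsx hu (hg.le u.2)
  opp := by
    obtain ⟨n, hn, σ, hσ, hlong⟩ := exists_long hg
    exact ⟨n, hn, fun x hx hnx => Subtype.ext (opp_main hσ hlong (hg.le x.2) hx hnx)⟩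
  nonempty := by
    obtain ⟨s, hs⟩ := exists_sim hg ⟨0, hk⟩
    exact ⟨s, ⟨0, hk⟩, Or.inl hs⟩

end

end Vale.Agent.P240.R2.H38.DD
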