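import Vale.Agent.P240.R2.H38.D7
import Vale.Agent.P240.H195.SL7

/-!
Groups of type D, part 9: the group generated by the root elements; Gaussian elimination.
-/

set_option autoImplicit false
set_option linter.all false

namespace Vale.Agent.P240.R2.H38.DD

open Subgroup Matrix Vale.Agent.P240.H195

section
variable {k : ℕ} {F : Type*} [Field F]

lemma tx_comm2 {a l b : VI k} (hal : a ≠ l) (hlb : l ≠ b) (hab : a ≠ b) (c d : F) :
    tx hal c * tx hlb d = tx hab (c * d) * (tx hlb d * tx hal c) := by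
  refine sl_ext fun u v => ?_
  rw [tx_mul_apply, tx_mul_apply, mul_tx_apply, mul_tx_apply]
  simp only [tx_apply]
  by_cases hu : u = a
  · subst hu
    by_cases hv : v = l
    · subst hv
      simp [hal, hlb, hab, hab.symm, hlb.symm]
    · by_cases hv' : v = b
      · subst hv'
        simp [hal, hlb, hab, hlb.symm]
      · simp [hal, hv, hv', Ne.symm hv, Ne.symm hv']
  · by_cases hv : v = l
    · subst hv
      simp [hu, hlb, hab]
    · simp [hu, hv]

/-- the commutator relation -/
lemma xr_comm {a b l : VI k} (hab : a ≠ b) (h' : a ≠ Fin.rev b) (hal : a ≠ l) (hal' : a ≠ Fin.rev l)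
    (hlb : l ≠ b) (hlb' : l ≠ Fin.rev b) (t : F) :
    xr a l t * xr l b 1 = xr a b t * (xr l b 1 * xr a l t) := by
  have e1 := tx_comm2 hal hlb hab t 1
  have e2 := tx_comm2 (rv_inj hlb) (rv_inj hal) (rv_inj hab) (-1) (-t)
  have hra := rv_ne a
  have hrb := rv_ne b
  have hrl := rv_ne l
  have h1 : b ≠ Fin.rev a := fun h5 => h' (by rw [h5, Fin.rev_rev])
  have h2 : l ≠ Fin.rev a := fun h5 => hal' (by rw [h5, Fin.rev_rev])
  have h3 : b ≠ Fin.rev l := fun h5 => hlb' (by rw [h5, Fin.rev_rev])
  rw [mul_one] at e1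
  have e2' : tx (rv_inj hal) (-t) * tx (rv_inj hlb) (-1) =
      tx (rv_inj hab) (-t) * (tx (rv_inj hlb) (-1) * tx (rv_inj hal) (-t)) := by
    rw [e2, ← mul_assoc (tx (rv_inj hab) (-t)), tx_mul_tx]
    have : -t + -1 * -t = (0 : F) := by ring
    rw [this, tx_zero, one_mul]
  -- the two blocks commute
  have c1 := tx_cm (rv_inj hal) hlb h2.symm h3 (-t) (1 : F)
  have c2 := tx_cm (rv_inj hab) hlb h2.symm hrb.symm (-t) (1 : F)
  have c3 := tx_cm (rv_inj hab) hal hra hlb' (-t) t
  have c4 := tx_cm (rv_inj hlb) hal hal'.symm hlb' (-1 : F) t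
  rw [xr_def hal, xr_def hlb, xr_def hab]
  calc tx hal t * tx (rv_inj hal) (-t) * (tx hlb 1 * tx (rv_inj hlb) (-1))
      = tx hal t * (tx (rv_inj hal) (-t) * tx hlb 1) * tx (rv_inj hlb) (-1) := by group
    _ = (tx hal t * tx hlb 1) * (tx (rv_inj hal) (-t) * tx (rv_inj hlb) (-1)) := by
        rw [c1]; group
    _ = tx hab t * tx hlb 1 * (tx hal t * tx (rv_inj hab) (-t)) * tx (rv_inj hlb) (-1) *
        tx (rv_inj hal) (-t) := by rw [e1, e2']; group
    _ = tx hab t * (tx hlb 1 * tx (rv_inj hab) (-t)) * (tx hal t * tx (rv_inj hlb) (-1)) *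
        tx (rv_inj hal) (-t) := by rw [← c3]; group
    _ = _ := by rw [← c2, ← c4]; group

/-- the group generated by the root elements -/
def EE (k : ℕ) (F : Type*) [Field F] : Subgroup (SLm (2 * k + 1) F) :=
  closure {x | ∃ (a b : VI k) (t : F), a ≠ b ∧ a ≠ Fin.rev b ∧ x = xr a b t}

lemma xr_EE {a b : VI k} (h : a ≠ b) (h' : a ≠ Fin.rev b) (t : F) : xr a b t ∈ EE k F :=
  subset_closure ⟨a, b, t, h, h', rfl⟩

theorem EE_good : Good (EE k F) where
  le := by
    unfold EE
    rw [closure_le]
    rintro x ⟨a, b, t, h, h', rfl⟩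
    exact xr_mem h h' t
  xr := fun a b h h' t => xr_EE h h' t
  gm := by
    have hle : EE k F ≤ (EE k F).comap (gm k F) := by
      conv_lhs => unfold EE
      rw [closure_le]
      rintro x ⟨a, b, t, h, h', rfl⟩
      change gm k F (xr a b t) ∈ EE k F
      rw [gm_xr h]
      refine xr_EE (fun h1 => h ((pp k).injective h1)) (fun h1 => h' ?_) t
      rw [← pp_rev] at h1
      exact (pp k).injective h1
    exact fun x hx => hle hx

theorem EE_gen [Finite F] : Gen (EE k F) := by
  unfold Gen
  exact closure_mono Set.subset_union_left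

lemma EE_le : EE k F ≤ SOD k F := EE_good.le

variable [Finite F]

/-- the root group is normalized by the monomial isometries -/
lemma EE_conj {n : SLm (2 * k + 1) F} (hn : n ∈ SOD k F) {σ : Equiv.Perm (VI k)} (hσ : Mon n σ)
    {e : SLm (2 * k + 1) F} (he : e ∈ EE k F) : n * e * n⁻¹ ∈ EE k F := by
  have hle : EE k F ≤ (EE k F).comap (MulAut.conj n).toMonoidHom := by
    conv_lhs => unfold EE
    rw [closure_le]
    rintro x ⟨a, b, t, h, h', rfl⟩
    change n * xr a b t * n⁻¹ ∈ EE k F
    rw [xr_conj hn hσ h]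
    refine xr_EE (fun h1 => h (σ.injective h1)) (fun h1 => h' ?_) _
    rw [← mon_rev hn hσ] at h1
    exact σ.injective h1
  exact hle he

/-! Gaussian elimination -/

lemma xr_mul_apply {a b : VI k} (h : a ≠ b) (h' : a ≠ Fin.rev b) (M : SLm (2 * k + 1) F) (t : F)
    (i j : VI k) : (xr a b t * M).1 i j = M.1 i j + (if i = a then t * M.1 b j else 0) +
      (if i = Fin.rev b then -t * M.1 (Fin.rev a) j else 0) := by
  have h4 : b ≠ Fin.rev b := (rv_ne b).symm
  rw [xr_def h, mul_assoc, tx_mul_apply, tx_mul_apply, tx_mul_apply, if_neg h4, add_zero]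
  ring

/-- the column `c` is a multiple of that of the identity matrix -/
def Dg (M : SLm (2 * k + 1) F) (c : VI k) : Prop := ∀ i, i ≠ c → M.1 i c = 0

omit [Finite F] in
lemma Dg_ne {M : SLm (2 * k + 1) F} {c : VI k} (h : Dg M c) : M.1 c c ≠ 0 := by
  intro h0
  have hcol : ∀ i, M.1 i c = 0 := by
    intro i
    by_cases hi : i = c
    · rw [hi, h0]
    · exact h i hi
  have hdet := M.2
  rw [Matrix.det_eq_zero_of_column_eq_zero c hcol] at hdet
  exact zero_ne_one hdet

omit [Finite F] in
/-- a diagonal column gives a diagonal row -/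
lemma Dg_row {M : SLm (2 * k + 1) F} (hM : M ∈ SOD k F) {j c : VI k} (h : Dg M j)
    (hc : Fin.rev j ≠ c) : M.1 (Fin.rev j) c = 0 := by
  have h1 := C1 hM j c
  rw [if_neg hc, Finset.sum_eq_single j] at h1
  · exact (mul_eq_zero.1 h1).resolve_left (Dg_ne h)
  · intro l _ hl
    rw [h l hl, zero_mul]
  · exact fun h => absurd (Finset.mem_univ _) h

/-- clearing a column -/
lemma clear {P : Set (VI k)} {c : VI k} : ∀ t : ℕ, ∀ M : SLm (2 * k + 1) F, M ∈ SOD k F →
    (∀ j ∈ P, Dg M j) → M.1 c c ≠ 0 →
    (∀ i, i ≠ c → i ≠ Fin.rev c → t ≤ i.val → M.1 i c = 0) →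
    ∃ e ∈ EE k F, (∀ j ∈ P, Dg (e * M) j) ∧ Dg (e * M) c := by
  intro t
  induction t with
  | zero =>
    intro M hM hP hc h
    refine ⟨1, one_mem _, by rwa [one_mul], ?_⟩
    rw [one_mul]
    intro i hi
    by_cases hi' : i = Fin.rev c
    · have h8 := C2 hM c
      rw [HS_single c] at h8
      · rw [hi']
        exact (mul_eq_zero.1 h8).resolve_left hc
      · intro l hl hl'
        rw [h l hl hl' (Nat.zero_le _), zero_mul]
      · rw [Fin.rev_rev, mul_comm]
    · exact h i hi hi' (Nat.zero_le _)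
  | succ t ih =>
    intro M hM hP hc h
    by_cases ht : ∃ a : VI k, a.val = t ∧ a ≠ c ∧ a ≠ Fin.rev c ∧ M.1 a c ≠ 0
    · obtain ⟨a, hat, hac, hac', hM0⟩ := ht
      have hent := xr_mul_apply hac hac' M (-(M.1 a c / M.1 c c))
      have hcc : c ≠ Fin.rev c := (rv_ne c).symm
      obtain ⟨e, he, h1, h2⟩ := ih (xr a c (-(M.1 a c / M.1 c c)) * M)
        (mul_mem (xr_mem hac hac' _) hM) (by
          intro j hj i hij
          have hjc : j ≠ c := by
            rintro rfl
            exact hM0 (hP j hj a hac)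
          rw [hent, hP j hj i hij, hP j hj c (Ne.symm hjc), mul_zero]
          have h3 : Fin.rev a ≠ j := by
            intro h4
            apply hM0
            have h5 := Dg_row hM (hP j hj) (c := c) (by rw [← h4, Fin.rev_rev]; exact hac)
            rwa [← h4, Fin.rev_rev] at h5
          rw [hP j hj _ h3, mul_zero]
          simp) (by
          rw [hent, if_neg hac.symm, if_neg hcc, add_zero, add_zero]
          exact hc) (by
          intro i hi hi' hti
          rw [hent, if_neg hi', add_zero]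
          rcases Nat.eq_or_lt_of_le hti with h4 | h4
          · have : i = a := Fin.ext (by omega)
            rw [this, if_pos rfl]
            field_simp
            ring
          · have : i ≠ a := by
              rintro rfl
              omega
            rw [if_neg this, add_zero, h i hi hi' h4])
      exact ⟨e * xr a c (-(M.1 a c / M.1 c c)), mul_mem he (xr_EE hac hac' _),
        by rw [mul_assoc]; exact h1, by rw [mul_assoc]; exact h2⟩
    · refine ih M hM hP hc fun i hi hi' hti => ?_
      rcases Nat.eq_or_lt_of_le hti with h4 | h4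
      · by_contra hne
        exact ht ⟨i, h4.symm, hi, hi', hne⟩
      · exact h i hi hi' h4

end

end Vale.Agent.P240.R2.H38.DD
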