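import Vale.Agent.P240.R2.H38.GDefs
import Vale.Agent.P240.R2.H487.CG.A7

/-!
The groups `G_2(F)`, part 1: relations between the entries.
-/

set_option autoImplicit false
set_option linter.all false

namespace Vale.Agent.P240.R2.H38.Oct

open Subgroup Matrix Vale.Agent.P240.H195

section
variable {F : Type*} [Field F]

/-- columns -/
def cl (A : SLm 7 F) (j : Fin 8) : Fin 8 → F := fun i => A.1 i j

/-- unit vectors -/
def bs (j : Fin 8) : Fin 8 → F := Pi.single j 1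

lemma mv_bs (A : SLm 7 F) (j : Fin 8) : A.1 *ᵥ bs j = cl A j := by
  funext i
  simp [bs, cl]

lemma mv_neg_bs (A : SLm 7 F) (j : Fin 8) : A.1 *ᵥ (-bs j) = -cl A j := by
  rw [mulVec_neg, mv_bs]

lemma mem_G2 {A : SLm 7 F} :
    A ∈ G2 F ↔ ∀ x y : Fin 8 → F, A.1 *ᵥ zmul x y = zmul (A.1 *ᵥ x) (A.1 *ᵥ y) := Iff.rfl

lemma zc {A : SLm 7 F} (hA : A ∈ G2 F) (i j : Fin 8) :
    zmul (cl A i) (cl A j) = A.1 *ᵥ zmul (bs i) (bs j) := by
  rw [hA, mv_bs, mv_bs]

lemma z12 : zmul (bs 1) (bs 2) = (bs 0 : Fin 8 → F) := by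
  funext k; fin_cases k <;> simp [zmul, bs, Pi.single_apply]

lemma z13 : zmul (bs 1) (bs 3) = (bs 1 : Fin 8 → F) := by
  funext k; fin_cases k <;> simp [zmul, bs, Pi.single_apply]

lemma z33 : zmul (bs 3) (bs 3) = (bs 3 : Fin 8 → F) := by
  funext k; fin_cases k <;> simp [zmul, bs, Pi.single_apply]

lemma z44 : zmul (bs 4) (bs 4) = (bs 4 : Fin 8 → F) := by
  funext k; fin_cases k <;> simp [zmul, bs, Pi.single_apply]

lemma z52 : zmul (bs 5) (bs 2) = (bs 3 : Fin 8 → F) := by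
  funext k; fin_cases k <;> simp [zmul, bs, Pi.single_apply]

lemma z25 : zmul (bs 2) (bs 5) = (bs 4 : Fin 8 → F) := by
  funext k; fin_cases k <;> simp [zmul, bs, Pi.single_apply]

lemma z55 : zmul (bs 5) (bs 5) = (0 : Fin 8 → F) := by
  funext k; fin_cases k <;> simp [zmul, bs, Pi.single_apply]

lemma z00 : zmul (bs 0) (bs 0) = (0 : Fin 8 → F) := by
  funext k; fin_cases k <;> simp [zmul, bs, Pi.single_apply]

lemma z17 : zmul (bs 1) (bs 7) = (-bs 5 : Fin 8 → F) := by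
  funext k; fin_cases k <;> simp [zmul, bs, Pi.single_apply]

lemma z26 : zmul (bs 2) (bs 6) = (0 : Fin 8 → F) := by
  funext k; fin_cases k <;> simp [zmul, bs, Pi.single_apply]

lemma z01 : zmul (bs 0) (bs 1) = (0 : Fin 8 → F) := by
  funext k; fin_cases k <;> simp [zmul, bs, Pi.single_apply]

lemma z10 : zmul (bs 1) (bs 0) = (0 : Fin 8 → F) := by
  funext k; fin_cases k <;> simp [zmul, bs, Pi.single_apply]

lemma z02 : zmul (bs 0) (bs 2) = (0 : Fin 8 → F) := by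
  funext k; fin_cases k <;> simp [zmul, bs, Pi.single_apply]

lemma z20 : zmul (bs 2) (bs 0) = (0 : Fin 8 → F) := by
  funext k; fin_cases k <;> simp [zmul, bs, Pi.single_apply]

lemma z03 : zmul (bs 0) (bs 3) = (0 : Fin 8 → F) := by
  funext k; fin_cases k <;> simp [zmul, bs, Pi.single_apply]

lemma z30 : zmul (bs 3) (bs 0) = (bs 0 : Fin 8 → F) := by
  funext k; fin_cases k <;> simp [zmul, bs, Pi.single_apply]

lemma z05 : zmul (bs 0) (bs 5) = (bs 1 : Fin 8 → F) := by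
  funext k; fin_cases k <;> simp [zmul, bs, Pi.single_apply]

lemma z06 : zmul (bs 0) (bs 6) = (-bs 2 : Fin 8 → F) := by
  funext k; fin_cases k <;> simp [zmul, bs, Pi.single_apply]

lemma z07 : zmul (bs 0) (bs 7) = (bs 3 : Fin 8 → F) := by
  funext k; fin_cases k <;> simp [zmul, bs, Pi.single_apply]

lemma z61 : zmul (bs 6) (bs 1) = (bs 3 : Fin 8 → F) := by
  funext k; fin_cases k <;> simp [zmul, bs, Pi.single_apply]

/-- the unit element -/
def un : Fin 8 → F := ![0, 0, 0, 1, 1, 0, 0, 0]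

lemma un_mul (x : Fin 8 → F) : zmul un x = x := by
  funext k; fin_cases k <;> simp [zmul, un]

lemma mul_un (x : Fin 8 → F) : zmul x un = x := by
  funext k; fin_cases k <;> simp [zmul, un]

lemma un_eq : (un : Fin 8 → F) = bs 3 + bs 4 := by
  funext k; fin_cases k <;> simp [un, bs, Pi.single_apply]

lemma mv_inv (A : SLm 7 F) (z : Fin 8 → F) : A.1 *ᵥ ((A⁻¹).1 *ᵥ z) = z := by
  rw [mulVec_mulVec, ← SpecialLinearGroup.coe_mul, mul_inv_cancel, SpecialLinearGroup.coe_one,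
    one_mulVec]

lemma mv_un {A : SLm 7 F} (hA : A ∈ G2 F) : A.1 *ᵥ un = un := by
  have h1 : ∀ y, zmul (A.1 *ᵥ un) y = y := by
    intro y
    have h2 := hA un ((A⁻¹).1 *ᵥ y)
    rw [un_mul, mv_inv] at h2
    exact h2.symm
  have h3 := h1 un
  rwa [mul_un] at h3

lemma cl34 {A : SLm 7 F} (hA : A ∈ G2 F) : cl A 3 + cl A 4 = un := by
  have h1 := mv_un hA
  rwa [un_eq, mulVec_add, mv_bs, mv_bs, ← un_eq] at h1

end

section
variable {F : Type*} [Field F] {A : SLm 7 F}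

/-- the diagonal entries of upper triangular elements -/
lemma up_diag (hA : A ∈ G2 F) (hU : IsUp A) : A.1 3 3 = 1 ∧ A.1 4 4 = 1 ∧ A.1 3 4 = 0 ∧
    A.1 1 1 * A.1 2 2 = A.1 0 0 ∧ A.1 0 0 * A.1 7 7 = 1 ∧ A.1 1 1 * A.1 6 6 = 1 ∧
    A.1 2 2 * A.1 5 5 = 1 := by
  have u : ∀ i j : Fin 8, j < i → A.1 i j = 0 := hU
  have d3 : A.1 3 3 ≠ 0 := up_diag_ne hU 3
  have e33 : A.1 3 3 = 1 := by
    have h := congrFun (zc hA 3 3) 3
    rw [z33, mv_bs] at h
    simp [zmul, cl, u] at h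
    refine mul_right_cancel₀ d3 ?_
    rw [one_mul]
    exact h
  have e4 := congrFun (cl34 hA) 4
  have e3 := congrFun (cl34 hA) 3
  simp [cl, un, u] at e3 e4
  rw [e33] at e3
  have e34 : A.1 3 4 = 0 := by simpa using e3
  refine ⟨e33, e4, e34, ?_, ?_, ?_, ?_⟩
  · have h := congrFun (zc hA 1 2) 0
    rw [z12, mv_bs] at h
    simp [zmul, cl, u] at h
    exact h
  · have h := congrFun (zc hA 0 7) 3
    rw [z07, mv_bs] at h
    simp [zmul, cl, u, e33] at h
    exact h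
  · have h := congrFun (zc hA 6 1) 3
    rw [z61, mv_bs] at h
    simp [zmul, cl, u, e33] at h
    rw [mul_comm]
    exact h
  · have h := congrFun (zc hA 5 2) 3
    rw [z52, mv_bs] at h
    simp [zmul, cl, u, e33] at h
    rw [mul_comm]
    exact h

/-- the entries of upper unitriangular elements near the diagonal -/
lemma uu_rel (hA : A ∈ G2 F) (hU : IsUp A) (hd : ∀ i, A.1 i i = 1) : A.1 3 4 = 0 ∧
    A.1 2 3 = A.1 0 1 ∧ A.1 2 4 = -A.1 0 1 ∧ A.1 4 5 = A.1 0 1 ∧ A.1 3 5 = -A.1 0 1 ∧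
    A.1 2 5 = -(A.1 0 1 ^ 2) ∧ A.1 6 7 = -A.1 0 1 ∧ A.1 5 6 = -A.1 1 2 := by
  have u : ∀ i j : Fin 8, j < i → A.1 i j = 0 := hU
  obtain ⟨-, -, e34, -⟩ := up_diag hA hU
  have e23 : A.1 2 3 = A.1 0 1 := by
    have h := congrFun (zc hA 1 3) 0
    rw [z13, mv_bs] at h
    simp [zmul, cl, u, hd] at h
    exact h
  have e24 : A.1 2 4 = -A.1 0 1 := by
    have h := congrFun (cl34 hA) 2
    simp [cl, un] at h
    rw [← e23]
    exact eq_neg_of_add_eq_zero_right h
  have e45 : A.1 4 5 = A.1 0 1 := by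
    have h := congrFun (zc hA 5 2) 2
    rw [z52, mv_bs] at h
    simp [zmul, cl, u, hd] at h
    rw [h, e23]
  have e35 : A.1 3 5 = -A.1 0 1 := by
    have h := congrFun (zc hA 2 5) 2
    rw [z25, mv_bs] at h
    simp [zmul, cl, u, hd] at h
    rw [h, e24]
  have e25 : A.1 2 5 = -(A.1 0 1 ^ 2) := by
    have h := congrFun (zc hA 5 5) 3
    rw [z55] at h
    simp [zmul, cl, u, hd, e35] at h
    linear_combination h
  have e67 : A.1 6 7 = -A.1 0 1 := by
    have h := congrFun (zc hA 1 7) 4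
    rw [z17, mv_neg_bs] at h
    simp [zmul, cl, u, hd, e45] at h
    exact h
  have e56 : A.1 5 6 = -A.1 1 2 := by
    have h := congrFun (zc hA 2 6) 4
    rw [z26] at h
    simp [zmul, cl, u, hd] at h
    linear_combination h
  exact ⟨e34, e23, e24, e45, e35, e25, e67, e56⟩

end

end Vale.Agent.P240.R2.H38.Oct
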