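import Vale.Agent.P240.R2.H38.G1

/-!
The groups `G_2(F)`, part 2: root elements, representatives of the simple reflections, diagonal
elements.
-/

set_option autoImplicit false
set_option linter.all false

namespace Vale.Agent.P240.R2.H38.Oct

open Subgroup Matrix Vale.Agent.P240.H195

section
variable {F : Type*} [Field F]

/-- the matrix of the short root element -/
def xaM (t : F) : Matrix (Fin 8) (Fin 8) F :=
  !![1, t, 0, 0, 0, 0, 0, 0;
     0, 1, 0, 0, 0, 0, 0, 0;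
     0, 0, 1, t, -t, -t ^ 2, 0, 0;
     0, 0, 0, 1, 0, -t, 0, 0;
     0, 0, 0, 0, 1, t, 0, 0;
     0, 0, 0, 0, 0, 1, 0, 0;
     0, 0, 0, 0, 0, 0, 1, -t;
     0, 0, 0, 0, 0, 0, 0, 1]

/-- the matrix of the long root element -/
def xbM (t : F) : Matrix (Fin 8) (Fin 8) F :=
  !![1, 0, 0, 0, 0, 0, 0, 0;
     0, 1, -t, 0, 0, 0, 0, 0;
     0, 0, 1, 0, 0, 0, 0, 0;
     0, 0, 0, 1, 0, 0, 0, 0;
     0, 0, 0, 0, 1, 0, 0, 0;
     0, 0, 0, 0, 0, 1, t, 0;
     0, 0, 0, 0, 0, 0, 1, 0;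
     0, 0, 0, 0, 0, 0, 0, 1]

lemma xaM_low (t : F) : ∀ i j : Fin 8, j < i → xaM t i j = 0 := by
  intro i j h
  fin_cases i <;> fin_cases j <;> first | rfl | exact absurd h (by decide)

lemma xbM_low (t : F) : ∀ i j : Fin 8, j < i → xbM t i j = 0 := by
  intro i j h
  fin_cases i <;> fin_cases j <;> first | rfl | exact absurd h (by decide)

lemma xaM_diag (t : F) : ∀ i : Fin 8, xaM t i i = 1 := by
  intro i
  fin_cases i <;> rfl

lemma xbM_diag (t : F) : ∀ i : Fin 8, xbM t i i = 1 := by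
  intro i
  fin_cases i <;> rfl

lemma xaM_det (t : F) : (xaM t).det = 1 := by
  rw [Matrix.det_of_isUpperTriangular (M := xaM t) fun i j hij => xaM_low t i j hij]
  simp only [xaM_diag, Finset.prod_const_one]

lemma xbM_det (t : F) : (xbM t).det = 1 := by
  rw [Matrix.det_of_isUpperTriangular (M := xbM t) fun i j hij => xbM_low t i j hij]
  simp only [xbM_diag, Finset.prod_const_one]

/-- the short simple root element -/
def xa (t : F) : SLm 7 F := ⟨xaM t, xaM_det t⟩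

/-- the long simple root element -/
def xb (t : F) : SLm 7 F := ⟨xbM t, xbM_det t⟩

/-- the opposite short root element -/
def ya (t : F) : SLm 7 F := ⟨(xaM (-t))ᵀ, by rw [Matrix.det_transpose]; exact xaM_det _⟩

/-- the opposite long root element -/
def yb (t : F) : SLm 7 F := ⟨(xbM (-t))ᵀ, by rw [Matrix.det_transpose]; exact xbM_det _⟩

lemma xa_mv (t : F) (v : Fin 8 → F) : (xa t).1 *ᵥ v = ![v 0 + t * v 1, v 1,
    v 2 + t * v 3 - t * v 4 - t ^ 2 * v 5, v 3 - t * v 5, v 4 + t * v 5, v 5, v 6 - t * v 7, v 7] := by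
  funext i
  fin_cases i <;> simp [xa, xaM, Matrix.mulVec, dotProduct, Fin.sum_univ_succ] <;> ring

lemma xb_mv (t : F) (v : Fin 8 → F) : (xb t).1 *ᵥ v = ![v 0, v 1 - t * v 2, v 2, v 3, v 4,
    v 5 + t * v 6, v 6, v 7] := by
  funext i
  fin_cases i <;> simp [xb, xbM, Matrix.mulVec, dotProduct, Fin.sum_univ_succ] <;> ring

lemma ya_mv (t : F) (v : Fin 8 → F) : (ya t).1 *ᵥ v = ![v 0, v 1 - t * v 0, v 2, v 3 - t * v 2,
    v 4 + t * v 2, v 5 - t * v 4 + t * v 3 - t ^ 2 * v 2, v 6, v 7 + t * v 6] := by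
  funext i
  fin_cases i <;> simp [ya, xaM, Matrix.mulVec, dotProduct, Fin.sum_univ_succ] <;> ring

lemma yb_mv (t : F) (v : Fin 8 → F) : (yb t).1 *ᵥ v = ![v 0, v 1, v 2 + t * v 1, v 3, v 4,
    v 5, v 6 - t * v 5, v 7] := by
  funext i
  fin_cases i <;> simp [yb, xbM, Matrix.mulVec, dotProduct, Fin.sum_univ_succ] <;> ring

lemma xa_mem (t : F) : xa t ∈ G2 F := by
  intro v w
  rw [xa_mv, xa_mv, xa_mv]
  funext i
  fin_cases i <;> simp [zmul] <;> ring

lemma xb_mem (t : F) : xb t ∈ G2 F := by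
  intro v w
  rw [xb_mv, xb_mv, xb_mv]
  funext i
  fin_cases i <;> simp [zmul] <;> ring

lemma ya_mem (t : F) : ya t ∈ G2 F := by
  intro v w
  rw [ya_mv, ya_mv, ya_mv]
  funext i
  fin_cases i <;> simp [zmul] <;> ring

lemma yb_mem (t : F) : yb t ∈ G2 F := by
  intro v w
  rw [yb_mv, yb_mv, yb_mv]
  funext i
  fin_cases i <;> simp [zmul] <;> ring

lemma ext_mv {A B : SLm 7 F} (h : ∀ v, A.1 *ᵥ v = B.1 *ᵥ v) : A = B := by
  refine sl_ext fun i j => ?_
  have h1 := congrFun (h (bs j)) i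
  rwa [mv_bs, mv_bs] at h1

lemma mul_mv (A B : SLm 7 F) (v : Fin 8 → F) : (A * B).1 *ᵥ v = A.1 *ᵥ (B.1 *ᵥ v) := by
  rw [mulVec_mulVec, ← SpecialLinearGroup.coe_mul]

lemma xa_add (s t : F) : xa (s + t) = xa s * xa t := by
  refine ext_mv fun v => ?_
  rw [mul_mv, xa_mv, xa_mv, xa_mv]
  funext i
  fin_cases i <;> simp <;> ring

lemma xb_add (s t : F) : xb (s + t) = xb s * xb t := by
  refine ext_mv fun v => ?_
  rw [mul_mv, xb_mv, xb_mv, xb_mv]
  funext i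
  fin_cases i <;> simp <;> ring

lemma xa_zero : xa (0 : F) = 1 := by
  refine ext_mv fun v => ?_
  rw [xa_mv, SpecialLinearGroup.coe_one, one_mulVec]
  funext i
  fin_cases i <;> simp

lemma xb_zero : xb (0 : F) = 1 := by
  refine ext_mv fun v => ?_
  rw [xb_mv, SpecialLinearGroup.coe_one, one_mulVec]
  funext i
  fin_cases i <;> simp

lemma xa_neg (t : F) : (xa t)⁻¹ = xa (-t) := by
  rw [inv_eq_iff_mul_eq_one, ← xa_add, add_neg_cancel, xa_zero]

lemma xb_neg (t : F) : (xb t)⁻¹ = xb (-t) := by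
  rw [inv_eq_iff_mul_eq_one, ← xb_add, add_neg_cancel, xb_zero]

/-- the permutation of the short simple reflection -/
def ta : Equiv.Perm (Fin 8) :=
  Equiv.swap 0 1 * Equiv.swap 2 5 * Equiv.swap 3 4 * Equiv.swap 6 7

/-- the permutation of the long simple reflection -/
def tb : Equiv.Perm (Fin 8) := Equiv.swap 1 2 * Equiv.swap 5 6

lemma ta_sq : ta * ta = 1 := by decide

lemma tb_sq : tb * tb = 1 := by decide

/-- a representative of the short simple reflection, for `t ≠ 0` -/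
def wa (t : F) : SLm 7 F := ya (t⁻¹) * xa t * ya (t⁻¹)

/-- a representative of the long simple reflection, for `t ≠ 0` -/
def wb (t : F) : SLm 7 F := yb (t⁻¹) * xb t * yb (t⁻¹)

lemma wa_mem (t : F) : wa t ∈ G2 F := mul_mem (mul_mem (ya_mem _) (xa_mem _)) (ya_mem _)

lemma wb_mem (t : F) : wb t ∈ G2 F := mul_mem (mul_mem (yb_mem _) (xb_mem _)) (yb_mem _)

lemma wa_mv {t : F} (ht : t ≠ 0) (v : Fin 8 → F) : (wa t).1 *ᵥ v = ![t * v 1, -t⁻¹ * v 0,
    -t ^ 2 * v 5, v 4, v 3, -(t⁻¹) ^ 2 * v 2, -t * v 7, t⁻¹ * v 6] := by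
  rw [wa, mul_mv, mul_mv, ya_mv, xa_mv, ya_mv]
  funext i
  fin_cases i <;> simp <;> field_simp <;> ring

lemma wb_mv {t : F} (ht : t ≠ 0) (v : Fin 8 → F) : (wb t).1 *ᵥ v = ![v 0, -t * v 2,
    t⁻¹ * v 1, v 3, v 4, t * v 6, -t⁻¹ * v 5, v 7] := by
  rw [wb, mul_mv, mul_mv, yb_mv, xb_mv, yb_mv]
  funext i
  fin_cases i <;> simp <;> field_simp <;> ring

lemma mon_of_mv {A : SLm 7 F} {τ : Equiv.Perm (Fin 8)} {c : Fin 8 → F}
    (h : ∀ v : Fin 8 → F, A.1 *ᵥ v = fun i => c i * v (τ⁻¹ i)) : Mon A τ := by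
  intro i j hij
  by_contra hne
  apply hij
  have h1 := congrFun (h (bs j)) i
  rw [mv_bs] at h1
  have h2 : A.1 i j = c i * (bs j : Fin 8 → F) (τ⁻¹ i) := h1
  rw [h2, bs, Pi.single_apply, if_neg, mul_zero]
  intro h3
  apply hne
  rw [← h3]
  exact (τ.apply_symm_apply i).symm

lemma wa_mon {t : F} (ht : t ≠ 0) : Mon (wa t) ta := by
  refine mon_of_mv (c := ![t, -t⁻¹, -t ^ 2, 1, 1, -(t⁻¹) ^ 2, -t, t⁻¹]) fun v => ?_
  rw [wa_mv ht]
  have e : ta⁻¹ = ta := by decide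
  rw [e]
  funext i
  fin_cases i <;> simp [ta, Equiv.swap_apply_def]

lemma wb_mon {t : F} (ht : t ≠ 0) : Mon (wb t) tb := by
  refine mon_of_mv (c := ![1, -t, t⁻¹, 1, 1, t, -t⁻¹, 1]) fun v => ?_
  rw [wb_mv ht]
  have e : tb⁻¹ = tb := by decide
  rw [e]
  funext i
  fin_cases i <;> simp [tb, Equiv.swap_apply_def]

end

end Vale.Agent.P240.R2.H38.Oct
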