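import Mathlib.LinearAlgebra.Matrix.SpecialLinearGroup

/-!
The groups `G_2(F)`: definitions.
-/

set_option autoImplicit false

namespace Vale.Agent.P240.R2.H38.Oct

open Matrix

/-- The product of Zorn's vector matrices (split octonions) in coordinates: `x` stands for the vector
matrix with diagonal entries `a = x 3`, `b = x 4` and off-diagonal entries the vectors
`u = (x 0, x 5, x 6)` and `v = (x 7, x 2, x 1)`; the product of `(a, u; v, b)` and `(a', u'; v', b')`
is `(a a' + u · v', a u' + b' u - v × v'; a' v + b v' + u × u', b b' + v · u')`. -/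
def zmul {F : Type*} [CommRing F] (x y : Fin 8 → F) : Fin 8 → F :=
  ![x 3 * y 0 + x 0 * y 4 - (x 2 * y 1 - x 1 * y 2),
    x 1 * y 3 + x 4 * y 1 + (x 0 * y 5 - x 5 * y 0),
    x 2 * y 3 + x 4 * y 2 + (x 6 * y 0 - x 0 * y 6),
    x 3 * y 3 + (x 0 * y 7 + x 5 * y 2 + x 6 * y 1),
    x 4 * y 4 + (x 7 * y 0 + x 2 * y 5 + x 1 * y 6),
    x 3 * y 5 + x 5 * y 4 - (x 1 * y 7 - x 7 * y 1),
    x 3 * y 6 + x 6 * y 4 - (x 7 * y 2 - x 2 * y 7),
    x 7 * y 3 + x 4 * y 7 + (x 5 * y 6 - x 6 * y 5)]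

/-- `L` is isomorphic to `G_2(F)`: the matrices of determinant `1` that preserve the product of the
split octonions (they form a group; `closure` only names it). -/
def IsG2 (F : Type*) [Field F] (L : Type*) [Group L] : Prop :=
  Nonempty (L ≃* Subgroup.closure {A : SpecialLinearGroup (Fin 8) F |
    ∀ x y : Fin 8 → F, A.1 *ᵥ zmul x y = zmul (A.1 *ᵥ x) (A.1 *ᵥ y)})

end Vale.Agent.P240.R2.H38.Oct
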