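import Vale.Agent.P240.R2.H38.G2

/-!
The groups `G_2(F)`, part 3: monomial elements.
-/

set_option autoImplicit false
set_option linter.all false

namespace Vale.Agent.P240.R2.H38.Oct

open Subgroup Matrix Vale.Agent.P240.H195

section
variable {F : Type*} [Field F]

/-- the structure constants -/
def zt (x y z : Fin 8) : ℤ :=
  zmul (fun i => if i = x then (1 : ℤ) else 0) (fun i => if i = y then (1 : ℤ) else 0) z

lemma zt_cast (x y z : Fin 8) : zmul (bs x : Fin 8 → F) (bs y) z = ((zt x y z : ℤ) : F) := by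
  have hb : ∀ w i : Fin 8, (bs w : Fin 8 → F) i = (((if i = w then (1 : ℤ) else 0) : ℤ) : F) := by
    intro w i
    rw [bs, Pi.single_apply]
    split_ifs <;> simp
  unfold zt
  fin_cases z <;> simp [zmul, hb]

lemma zt_mon {A : SLm 7 F} (hA : A ∈ G2 F) {ρ : Equiv.Perm (Fin 8)} (hρ : Mon A ρ) {i j k : Fin 8}
    {c : F} (hc : c ≠ 0) (h : zmul (bs i) (bs j) = c • (bs k : Fin 8 → F)) :
    zt (ρ i) (ρ j) (ρ k) ≠ 0 := by
  have hcl : ∀ w : Fin 8, cl A w = A.1 (ρ w) w • (bs (ρ w) : Fin 8 → F) := by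
    intro w
    funext i
    rw [Pi.smul_apply, bs, Pi.single_apply, smul_eq_mul]
    split_ifs with h1
    · rw [h1, mul_one]; rfl
    · rw [mul_zero]
      exact mon_eq hρ h1
  have h1 := zc hA i j
  rw [h, mulVec_smul, mv_bs, hcl i, hcl j, hcl k] at h1
  have h2 := congrFun h1 (ρ k)
  have hs : ∀ (a b : F) (x y : Fin 8 → F) (l : Fin 8),
      zmul (a • x) (b • y) l = a * b * zmul x y l := by
    intro a b x y l
    fin_cases l <;> simp [zmul] <;> ring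
  rw [hs, zt_cast] at h2
  intro h3
  rw [h3, Int.cast_zero, mul_zero, Pi.smul_apply, Pi.smul_apply, bs, Pi.single_apply, if_pos rfl,
    smul_eq_mul, smul_eq_mul, mul_one] at h2
  exact mul_ne_zero hc (mon_ne hρ k) h2.symm

lemma d1 : ∀ x : Fin 8, zt x x x ≠ 0 → x = 3 ∨ x = 4 := by decide

lemma d2 : ∀ x y z : Fin 8, (z = 3 ∨ z = 4) → x ≠ 3 → x ≠ 4 → zt x y z ≠ 0 → y = Fin.rev x := by
  decide

lemma d3 : ∀ x y z : Fin 8, x ≠ 3 → x ≠ 4 → y ≠ 3 → y ≠ 4 → z ≠ 3 → z ≠ 4 → zt x y z ≠ 0 →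
    (z < x ∧ y < 3) ∨ (x < z ∧ 4 < y) := by
  decide

lemma one_smul' (x : Fin 8 → F) : x = (1 : F) • x := (one_smul F x).symm

/-- the permutations of monomial elements -/
lemma perm_main {A : SLm 7 F} (hA : A ∈ G2 F) {ρ : Equiv.Perm (Fin 8)} (hρ : Mon A ρ) :
    (ρ 3 = 3 ∨ ρ 3 = 4) ∧ (ρ 4 = 3 ∨ ρ 4 = 4) ∧ ρ 7 = Fin.rev (ρ 0) ∧ ρ 2 = Fin.rev (ρ 5) ∧
      ρ 1 = Fin.rev (ρ 6) ∧ ((ρ 0 < ρ 1 ∧ ρ 2 < 3) ∨ (ρ 1 < ρ 0 ∧ 4 < ρ 2)) := by
  have h3 : ρ 3 = 3 ∨ ρ 3 = 4 := d1 _ (zt_mon hA hρ one_ne_zero (z33.trans (one_smul' _)))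
  have h4 : ρ 4 = 3 ∨ ρ 4 = 4 := d1 _ (zt_mon hA hρ one_ne_zero (z44.trans (one_smul' _)))
  have hne : ∀ i : Fin 8, i ≠ 3 → i ≠ 4 → ρ i ≠ 3 ∧ ρ i ≠ 4 := by
    intro i hi3 hi4
    have a1 : ρ i ≠ ρ 3 := fun h => hi3 (ρ.injective h)
    have a2 : ρ i ≠ ρ 4 := fun h => hi4 (ρ.injective h)
    have a3 : ρ 3 ≠ ρ 4 := fun h => absurd (ρ.injective h) (by decide)
    rcases h3 with h3 | h3 <;> rcases h4 with h4 | h4
    · exact absurd (h3.trans h4.symm) a3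
    · rw [h3] at a1
      rw [h4] at a2
      exact ⟨a1, a2⟩
    · rw [h3] at a1
      rw [h4] at a2
      exact ⟨a2, a1⟩
    · exact absurd (h3.trans h4.symm) a3
  have n0 := hne 0 (by decide) (by decide)
  have n1 := hne 1 (by decide) (by decide)
  have n2 := hne 2 (by decide) (by decide)
  have n5 := hne 5 (by decide) (by decide)
  have n6 := hne 6 (by decide) (by decide)
  refine ⟨h3, h4, ?_, ?_, ?_, ?_⟩
  · exact d2 _ _ _ h3 n0.1 n0.2 (zt_mon hA hρ one_ne_zero (z07.trans (one_smul' _)))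
  · exact d2 _ _ _ h3 n5.1 n5.2 (zt_mon hA hρ one_ne_zero (z52.trans (one_smul' _)))
  · exact d2 _ _ _ h3 n6.1 n6.2 (zt_mon hA hρ one_ne_zero (z61.trans (one_smul' _)))
  · exact d3 _ _ _ n1.1 n1.2 n2.1 n2.2 n0.1 n0.2
      (zt_mon hA hρ one_ne_zero (z12.trans (one_smul' _)))

/-- the positions of the short simple root -/
def Sa (i j : Fin 8) : Prop := (i = 0 ∧ j = 1) ∨ (i = 2 ∧ (j = 3 ∨ j = 4 ∨ j = 5)) ∨
  ((i = 3 ∨ i = 4) ∧ j = 5) ∨ (i = 6 ∧ j = 7)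

/-- the positions of the long simple root -/
def Sb (i j : Fin 8) : Prop := (i = 1 ∧ j = 2) ∨ (i = 5 ∧ j = 6)

instance : DecidableRel Sa := fun i j => by unfold Sa; infer_instance

instance : DecidableRel Sb := fun i j => by unfold Sb; infer_instance

lemma xa_supp (t : F) : ∀ i j : Fin 8, (xa t).1 i j ≠ 0 → i = j ∨ Sa i j := by
  intro i j h
  fin_cases i <;> fin_cases j <;> first | exact absurd rfl h | decide

lemma xb_supp (t : F) : ∀ i j : Fin 8, (xb t).1 i j ≠ 0 → i = j ∨ Sb i j := by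
  intro i j h
  fin_cases i <;> fin_cases j <;> first | exact absurd rfl h | decide

lemma ya_supp (t : F) : ∀ i j : Fin 8, (ya t).1 i j ≠ 0 → i = j ∨ Sa j i := by
  intro i j h
  exact (xa_supp (-t) j i h).imp Eq.symm id

lemma yb_supp (t : F) : ∀ i j : Fin 8, (yb t).1 i j ≠ 0 → i = j ∨ Sb j i := by
  intro i j h
  exact (xb_supp (-t) j i h).imp Eq.symm id

lemma e1 : ∀ x : Fin 8, x < 3 → x < 4 ∧ x < Fin.rev x ∧ 3 < Fin.rev x ∧ 4 < Fin.rev x := by decide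

lemma e2 : ∀ x : Fin 8, 4 < x → 3 < x ∧ Fin.rev x < x ∧ Fin.rev x < 3 ∧ Fin.rev x < 4 := by decide

/-- a simple root stays positive or becomes negative -/
lemma Sa_dich {A : SLm 7 F} (hA : A ∈ G2 F) {ρ : Equiv.Perm (Fin 8)} (hρ : Mon A ρ) :
    (∀ i j, Sa i j → ρ i < ρ j) ∨ (∀ i j, Sa i j → ρ j < ρ i) := by
  obtain ⟨h3, h4, h7, h2, h1, h | h⟩ := perm_main hA hρ
  · left
    have h5 : ρ 5 = Fin.rev (ρ 2) := by rw [h2, Fin.rev_rev]
    have h6 : ρ 6 = Fin.rev (ρ 1) := by rw [h1, Fin.rev_rev]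
    have hx := e1 _ h.2
    rintro i j (⟨rfl, rfl⟩ | ⟨rfl, rfl | rfl | rfl⟩ | ⟨rfl | rfl, rfl⟩ | ⟨rfl, rfl⟩)
    · exact h.1
    · rcases h3 with h3 | h3 <;> rw [h3]
      exacts [h.2, hx.1]
    · rcases h4 with h4 | h4 <;> rw [h4]
      exacts [h.2, hx.1]
    · rw [h5]; exact hx.2.1
    · rw [h5]
      rcases h3 with h3 | h3 <;> rw [h3]
      exacts [hx.2.2.1, hx.2.2.2]
    · rw [h5]
      rcases h4 with h4 | h4 <;> rw [h4]
      exacts [hx.2.2.1, hx.2.2.2]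
    · rw [h6, h7, Fin.rev_lt_rev]; exact h.1
  · right
    have h5 : ρ 5 = Fin.rev (ρ 2) := by rw [h2, Fin.rev_rev]
    have h6 : ρ 6 = Fin.rev (ρ 1) := by rw [h1, Fin.rev_rev]
    have hx := e2 _ h.2
    rintro i j (⟨rfl, rfl⟩ | ⟨rfl, rfl | rfl | rfl⟩ | ⟨rfl | rfl, rfl⟩ | ⟨rfl, rfl⟩)
    · exact h.1
    · rcases h3 with h3 | h3 <;> rw [h3]
      exacts [hx.1, h.2]
    · rcases h4 with h4 | h4 <;> rw [h4]
      exacts [hx.1, h.2]
    · rw [h5]; exact hx.2.1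
    · rw [h5]
      rcases h3 with h3 | h3 <;> rw [h3]
      exacts [hx.2.2.1, hx.2.2.2]
    · rw [h5]
      rcases h4 with h4 | h4 <;> rw [h4]
      exacts [hx.2.2.1, hx.2.2.2]
    · rw [h6, h7, Fin.rev_lt_rev]; exact h.1

lemma Sb_dich {A : SLm 7 F} (hA : A ∈ G2 F) {ρ : Equiv.Perm (Fin 8)} (hρ : Mon A ρ) :
    (∀ i j, Sb i j → ρ i < ρ j) ∨ (∀ i j, Sb i j → ρ j < ρ i) := by
  obtain ⟨h3, h4, h7, h2, h1, -⟩ := perm_main hA hρ
  have h5 : ρ 5 = Fin.rev (ρ 2) := by rw [h2, Fin.rev_rev]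
  have h6 : ρ 6 = Fin.rev (ρ 1) := by rw [h1, Fin.rev_rev]
  have hne : ρ 1 ≠ ρ 2 := fun h => absurd (ρ.injective h) (by decide)
  rcases lt_or_gt_of_ne hne with h | h
  · left
    rintro i j (⟨rfl, rfl⟩ | ⟨rfl, rfl⟩)
    · exact h
    · rw [h5, h6, Fin.rev_lt_rev]; exact h
  · right
    rintro i j (⟨rfl, rfl⟩ | ⟨rfl, rfl⟩)
    · exact h
    · rw [h5, h6, Fin.rev_lt_rev]; exact h

/-- conjugates by monomial elements -/
lemma up_conj_of {n X : SLm 7 F} {ρ : Equiv.Perm (Fin 8)} (hn : Mon n ρ)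
    (hX : ∀ i j, X.1 i j ≠ 0 → i = j ∨ ρ i < ρ j) : IsUp (n * X * n⁻¹) := by
  intro a b hab
  by_contra hne
  obtain ⟨i, rfl⟩ := ρ.surjective a
  obtain ⟨j, rfl⟩ := ρ.surjective b
  rcases hX i j ((mon_conj_ne hn X i j).1 hne) with h | h
  · rw [h] at hab
    exact lt_irrefl _ hab
  · exact lt_asymm h hab

lemma ta_crit : ∀ i j : Fin 8, i < j → ta i < ta j ∨ Sa i j ∨ (i = 3 ∧ j = 4) := by decide

lemma tb_crit : ∀ i j : Fin 8, i < j → tb i < tb j ∨ Sb i j := by decide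

lemma ta_Sa : ∀ i j : Fin 8, Sa i j → ta j < ta i := by decide

lemma tb_Sb : ∀ i j : Fin 8, Sb i j → tb j < tb i := by decide

section
variable {u : SLm 7 F} (hu : u ∈ G2 F) (hU : IsUp u) (hd : ∀ i, u.1 i i = 1)
include hu hU hd

/-- unitriangular elements with vanishing first entry -/
lemma crit_a (h0 : u.1 0 1 = 0) {i j : Fin 8} (h : Sa i j ∨ (i = 3 ∧ j = 4)) : u.1 i j = 0 := by
  obtain ⟨e34, e23, e24, e45, e35, e25, e67, e56⟩ := uu_rel hu hU hd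
  rw [h0] at e23 e24 e45 e35 e25 e67
  rcases h with (⟨rfl, rfl⟩ | ⟨rfl, rfl | rfl | rfl⟩ | ⟨rfl | rfl, rfl⟩ | ⟨rfl, rfl⟩) | ⟨rfl, rfl⟩
  · exact h0
  · exact e23
  · rw [e24, neg_zero]
  · rw [e25]; ring
  · rw [e35, neg_zero]
  · exact e45
  · rw [e67, neg_zero]
  · exact e34

lemma crit_b (h0 : u.1 1 2 = 0) {i j : Fin 8} (h : Sb i j) : u.1 i j = 0 := by
  obtain ⟨e34, e23, e24, e45, e35, e25, e67, e56⟩ := uu_rel hu hU hd
  rw [h0] at e56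
  rcases h with ⟨rfl, rfl⟩ | ⟨rfl, rfl⟩
  · exact h0
  · rw [e56, neg_zero]

lemma conj_a {s : SLm 7 F} (hs : Mon s ta) (h0 : u.1 0 1 = 0) : IsUp (s * u * s⁻¹) := by
  refine up_conj_of hs fun i j hij => ?_
  rcases lt_trichotomy i j with h | h | h
  · rcases ta_crit i j h with h1 | h1
    · exact Or.inr h1
    · exact absurd (crit_a hu hU hd h0 h1) hij
  · exact Or.inl h
  · exact absurd (hU i j h) hij

lemma conj_b {s : SLm 7 F} (hs : Mon s tb) (h0 : u.1 1 2 = 0) : IsUp (s * u * s⁻¹) := by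
  refine up_conj_of hs fun i j hij => ?_
  rcases lt_trichotomy i j with h | h | h
  · rcases tb_crit i j h with h1 | h1
    · exact Or.inr h1
    · exact absurd (crit_b hu hU hd h0 h1) hij
  · exact Or.inl h
  · exact absurd (hU i j h) hij

end

lemma zero_of_a {s x : SLm 7 F} (hs : Mon s ta) (h : IsUp (s * x * s⁻¹)) : x.1 0 1 = 0 := by
  by_contra hne
  exact (mon_conj_ne hs x 0 1).2 hne (h _ _ (by decide))

lemma zero_of_b {s x : SLm 7 F} (hs : Mon s tb) (h : IsUp (s * x * s⁻¹)) : x.1 1 2 = 0 := by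
  by_contra hne
  exact (mon_conj_ne hs x 1 2).2 hne (h _ _ (by decide))

end

end Vale.Agent.P240.R2.H38.Oct
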