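import Vale.Agent.P240.R2.H38.G3

/-!
The groups `G_2(F)`, part 4: diagonal elements, double cosets.
-/

set_option autoImplicit false
set_option linter.all false

namespace Vale.Agent.P240.R2.H38.Oct

open Subgroup Matrix Vale.Agent.P240.H195

section
variable {F : Type*} [Field F]

/-- the diagonal of an element of the torus -/
def dv (p q : F) : Fin 8 → F := ![p * q, p, q, 1, 1, q⁻¹, p⁻¹, (p * q)⁻¹]

lemma dv_prod {p q : F} (hp : p ≠ 0) (hq : q ≠ 0) : ∏ i, dv p q i = 1 := by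
  simp [dv, Fin.prod_univ_succ]
  field_simp

/-- the elements of the torus -/
def dg {p q : F} (hp : p ≠ 0) (hq : q ≠ 0) : SLm 7 F :=
  ⟨Matrix.diagonal (dv p q), by rw [Matrix.det_diagonal]; exact dv_prod hp hq⟩

variable {p q : F} (hp : p ≠ 0) (hq : q ≠ 0)

lemma dg_apply (i j : Fin 8) : (dg hp hq).1 i j = if i = j then dv p q i else 0 :=
  Matrix.diagonal_apply ..

lemma dg_mv (v : Fin 8 → F) : (dg hp hq).1 *ᵥ v = fun i => dv p q i * v i := by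
  funext i
  exact Matrix.mulVec_diagonal _ _ _

lemma dg_mem : dg hp hq ∈ G2 F := by
  intro x y
  rw [dg_mv, dg_mv, dg_mv]
  funext i
  fin_cases i <;> simp [zmul, dv] <;> field_simp <;> ring

lemma dg_mon : Mon (dg hp hq) 1 := by
  intro i j hij
  rw [dg_apply] at hij
  by_contra hne
  exact hij (if_neg hne)

lemma dg_xa (t : F) : dg hp hq * xa t = xa (q * t) * dg hp hq := by
  refine ext_mv fun v => ?_
  rw [mul_mv, mul_mv, dg_mv, xa_mv, dg_mv, xa_mv]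
  funext i
  fin_cases i <;> simp [dv] <;> field_simp <;> ring

lemma dg_xb (t : F) : dg hp hq * xb t = xb (p / q * t) * dg hp hq := by
  refine ext_mv fun v => ?_
  rw [mul_mv, mul_mv, dg_mv, xb_mv, dg_mv, xb_mv]
  funext i
  fin_cases i <;> simp [dv] <;> field_simp <;> ring

end

section
variable {F : Type*} [Field F]

/-- the diagonal of upper triangular elements -/
lemma up_dv {b : SLm 7 F} (hb : b ∈ G2 F) (hU : IsUp b) (i : Fin 8) :
    b.1 i i = dv (b.1 1 1) (b.1 2 2) i := by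
  obtain ⟨h3, h4, -, h0, h7, h6, h5⟩ := up_diag hb hU
  have n1 : b.1 1 1 ≠ 0 := up_diag_ne hU 1
  have n2 : b.1 2 2 ≠ 0 := up_diag_ne hU 2
  fin_cases i
  · exact h0.symm
  · rfl
  · rfl
  · exact h3
  · exact h4
  · exact eq_inv_of_mul_eq_one_right h5
  · exact eq_inv_of_mul_eq_one_right h6
  · change b.1 7 7 = (b.1 1 1 * b.1 2 2)⁻¹
    rw [h0]
    exact eq_inv_of_mul_eq_one_right h7

lemma exists_diag [Finite F] {b : SLm 7 F} (hb : b ∈ G2 F) (hU : IsUp b) :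
    ∃ (p q : F) (hp : p ≠ 0) (hq : q ≠ 0), b * (dg hp hq)⁻¹ ∈ UU 7 F := by
  refine ⟨b.1 1 1, b.1 2 2, up_diag_ne hU 1, up_diag_ne hU 2, ?_⟩
  have htU := mem_T' (dg_mon (up_diag_ne hU 1) (up_diag_ne hU 2))
  have hti : IsUp (dg (up_diag_ne hU 1) (up_diag_ne hU 2))⁻¹ := inv_mem (mem_BU.2 htU)
  refine ⟨up_mul hU hti, fun i => ?_⟩
  rw [up_mul_diag hU hti, up_inv_diag htU, dg_apply, if_pos rfl, ← up_dv hb hU i,
    mul_inv_cancel₀ (up_diag_ne hU i)]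

/-- diagonal elements -/
lemma mon_dg [Finite F] {t : SLm 7 F} (ht : t ∈ G2 F) (hM : Mon t 1) :
    ∃ (p q : F) (hp : p ≠ 0) (hq : q ≠ 0), t = dg hp hq := by
  have hU := mem_T' hM
  refine ⟨t.1 1 1, t.1 2 2, up_diag_ne hU 1, up_diag_ne hU 2, sl_ext fun i j => ?_⟩
  rw [dg_apply]
  split_ifs with h
  · rw [← h, ← up_dv ht hU i]
  · exact mon_eq hM h

variable [Finite F]

lemma inv_up {A : SLm 7 F} (h : IsUp A) : IsUp A⁻¹ := inv_mem (mem_BU.2 h)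

omit [Finite F] in
lemma cj_mem {a b : SLm 7 F} (ha : a ∈ G2 F) (hb : b ∈ G2 F) : a * b * a⁻¹ ∈ G2 F :=
  mul_mem (mul_mem ha hb) (inv_mem ha)

omit [Finite F] in
lemma cj_mem' {a b : SLm 7 F} (ha : a ∈ G2 F) (hb : b ∈ G2 F) : a⁻¹ * b * a ∈ G2 F :=
  mul_mem (mul_mem (inv_mem ha) hb) ha

lemma mul_gen {s n u' X Y W : SLm 7 F} (hs : s ∈ G2 F) (hn : n ∈ G2 F) (hu' : u' ∈ G2 F)
    (hX : X ∈ G2 F) (hY : Y ∈ G2 F) (hW : W ∈ G2 F) (hsu : IsUp (s * u' * s⁻¹))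
    (hXY : X = Y * W * Y) (hsY : IsUp (s * Y * s⁻¹)) (hsW : IsUp (s * W))
    (h : IsUp (n⁻¹ * X * n) ∨ IsUp (n⁻¹ * Y * n)) :
    DC (BU 7 F ⊓ G2 F) n (s * (u' * X) * n) ∨ DC (BU 7 F ⊓ G2 F) (s * n) (s * (u' * X) * n) := by
  rcases h with h | h
  · right
    exact ⟨s * u' * s⁻¹, mem_inf.2 ⟨hsu, cj_mem hs hu'⟩, n⁻¹ * X * n,
      mem_inf.2 ⟨h, cj_mem' hn hX⟩, by group⟩
  · left
    exact ⟨s * u' * s⁻¹ * (s * Y * s⁻¹) * (s * W), mem_inf.2 ⟨up_mul (up_mul hsu hsY) hsW,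
      mul_mem (mul_mem (cj_mem hs hu') (cj_mem hs hY)) (mul_mem hs hW)⟩, n⁻¹ * Y * n,
      mem_inf.2 ⟨h, cj_mem' hn hY⟩, by rw [hXY]; group⟩

lemma ya_add (s t : F) : ya (s + t) = ya s * ya t := by
  refine ext_mv fun v => ?_
  rw [mul_mv, ya_mv, ya_mv, ya_mv]
  funext i
  fin_cases i <;> simp <;> ring

lemma yb_add (s t : F) : yb (s + t) = yb s * yb t := by
  refine ext_mv fun v => ?_
  rw [mul_mv, yb_mv, yb_mv, yb_mv]
  funext i
  fin_cases i <;> simp <;> ring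

lemma ya_zero : ya (0 : F) = 1 := by
  refine ext_mv fun v => ?_
  rw [ya_mv, SpecialLinearGroup.coe_one, one_mulVec]
  funext i
  fin_cases i <;> simp

lemma yb_zero : yb (0 : F) = 1 := by
  refine ext_mv fun v => ?_
  rw [yb_mv, SpecialLinearGroup.coe_one, one_mulVec]
  funext i
  fin_cases i <;> simp

lemma ya_neg (t : F) : (ya t)⁻¹ = ya (-t) := by
  rw [inv_eq_iff_mul_eq_one, ← ya_add, add_neg_cancel, ya_zero]

lemma yb_neg (t : F) : (yb t)⁻¹ = yb (-t) := by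
  rw [inv_eq_iff_mul_eq_one, ← yb_add, add_neg_cancel, yb_zero]

lemma xa_fac (t : F) : xa t = ya (-t⁻¹) * wa t * ya (-t⁻¹) := by
  rw [wa, ← ya_neg]
  group

lemma xb_fac (t : F) : xb t = yb (-t⁻¹) * wb t * yb (-t⁻¹) := by
  rw [wb, ← yb_neg]
  group

lemma xa_up (t : F) : IsUp (xa t) := fun i j h => xaM_low t i j h

lemma xb_up (t : F) : IsUp (xb t) := fun i j h => xbM_low t i j h

lemma xa_dg (t : F) (i : Fin 8) : (xa t).1 i i = 1 := xaM_diag t i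

lemma xb_dg (t : F) (i : Fin 8) : (xb t).1 i i = 1 := xbM_diag t i

lemma xa_UU (t : F) : xa t ∈ UU 7 F := ⟨xa_up t, xa_dg t⟩

lemma xb_UU (t : F) : xb t ∈ UU 7 F := ⟨xb_up t, xb_dg t⟩

/-- splitting off the root element -/
lemma split_a {u : SLm 7 F} (hu : u ∈ UU 7 F) :
    u * xa (-u.1 0 1) ∈ UU 7 F ∧ (u * xa (-u.1 0 1)).1 0 1 = 0 := by
  refine ⟨mul_mem hu (xa_UU _), ?_⟩
  have h := up_mul_super hu.1 (xa_up (-u.1 0 1)) (0 : Fin 7)
  have h1 : (xa (-u.1 0 1)).1 0 1 = -u.1 0 1 := rfl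
  have h2 : (xa (-u.1 0 1)).1 1 1 = 1 := rfl
  change (u * xa (-u.1 0 1)).1 0 1 = u.1 0 0 * (xa (-u.1 0 1)).1 0 1 +
    u.1 0 1 * (xa (-u.1 0 1)).1 1 1 at h
  rw [h, h1, h2, hu.2]
  ring

lemma split_b {u : SLm 7 F} (hu : u ∈ UU 7 F) :
    u * xb (u.1 1 2) ∈ UU 7 F ∧ (u * xb (u.1 1 2)).1 1 2 = 0 := by
  refine ⟨mul_mem hu (xb_UU _), ?_⟩
  have h := up_mul_super hu.1 (xb_up (u.1 1 2)) (1 : Fin 7)
  have h1 : (xb (u.1 1 2)).1 1 2 = -u.1 1 2 := rfl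
  have h2 : (xb (u.1 1 2)).1 2 2 = 1 := rfl
  change (u * xb (u.1 1 2)).1 1 2 = u.1 1 1 * (xb (u.1 1 2)).1 1 2 +
    u.1 1 2 * (xb (u.1 1 2)).1 2 2 at h
  rw [h, h1, h2, hu.2]
  ring

lemma mul_a {s n u : SLm 7 F} (hs : s ∈ G2 F) (hsM : Mon s ta) (hu : u ∈ G2 F)
    (huU : u ∈ UU 7 F) (hn : n ∈ G2 F) {σ : Equiv.Perm (Fin 8)} (hσ : Mon n σ) :
    DC (BU 7 F ⊓ G2 F) n (s * u * n) ∨ DC (BU 7 F ⊓ G2 F) (s * n) (s * u * n) := by
  obtain ⟨h1, h2⟩ := split_a huU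
  have h3 : u * xa (-u.1 0 1) ∈ G2 F := mul_mem hu (xa_mem _)
  have hsu := conj_a h3 h1.1 h1.2 hsM h2
  have e : u = u * xa (-u.1 0 1) * xa (u.1 0 1) := by
    rw [← xa_neg]
    group
  by_cases ht : u.1 0 1 = 0
  · right
    rw [ht, neg_zero, xa_zero, mul_one] at hsu
    exact ⟨s * u * s⁻¹, mem_inf.2 ⟨hsu, cj_mem hs hu⟩, 1,
      mem_inf.2 ⟨up_one, one_mem _⟩, by group⟩
  · rw [e]
    refine mul_gen hs hn h3 (xa_mem _) (ya_mem _) (wa_mem _) hsu (xa_fac _) ?_ ?_ ?_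
    · refine up_conj_of hsM fun i j hij => ?_
      exact (ya_supp _ i j hij).imp id fun h => ta_Sa _ _ h
    · have := mon_mul hsM (wa_mon ht)
      rw [ta_sq] at this
      exact mem_T' this
    · have hni := mon_inv hσ
      rcases Sa_dich (inv_mem hn) hni with h | h
      · left
        have := up_conj_of (X := xa (u.1 0 1)) hni fun i j hij =>
          (xa_supp _ i j hij).imp id fun h' => h _ _ h'
        rwa [inv_inv] at this
      · right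
        have := up_conj_of (X := ya (-(u.1 0 1)⁻¹)) hni fun i j hij =>
          (ya_supp _ i j hij).imp id fun h' => h _ _ h'
        rwa [inv_inv] at this

lemma mul_b {s n u : SLm 7 F} (hs : s ∈ G2 F) (hsM : Mon s tb) (hu : u ∈ G2 F)
    (huU : u ∈ UU 7 F) (hn : n ∈ G2 F) {σ : Equiv.Perm (Fin 8)} (hσ : Mon n σ) :
    DC (BU 7 F ⊓ G2 F) n (s * u * n) ∨ DC (BU 7 F ⊓ G2 F) (s * n) (s * u * n) := by
  obtain ⟨h1, h2⟩ := split_b huU
  have h3 : u * xb (u.1 1 2) ∈ G2 F := mul_mem hu (xb_mem _)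
  have hsu := conj_b h3 h1.1 h1.2 hsM h2
  have e : u = u * xb (u.1 1 2) * xb (-u.1 1 2) := by
    rw [← xb_neg]
    group
  by_cases ht : u.1 1 2 = 0
  · right
    rw [ht, xb_zero, mul_one] at hsu
    exact ⟨s * u * s⁻¹, mem_inf.2 ⟨hsu, cj_mem hs hu⟩, 1,
      mem_inf.2 ⟨up_one, one_mem _⟩, by group⟩
  · rw [e]
    refine mul_gen hs hn h3 (xb_mem _) (yb_mem _) (wb_mem _) hsu (xb_fac _) ?_ ?_ ?_
    · refine up_conj_of hsM fun i j hij => ?_
      exact (yb_supp _ i j hij).imp id fun h => tb_Sb _ _ h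
    · have := mon_mul hsM (wb_mon (neg_ne_zero.2 ht))
      rw [tb_sq] at this
      exact mem_T' this
    · have hni := mon_inv hσ
      rcases Sb_dich (inv_mem hn) hni with h | h
      · left
        have := up_conj_of (X := xb (-u.1 1 2)) hni fun i j hij =>
          (xb_supp _ i j hij).imp id fun h' => h _ _ h'
        rwa [inv_inv] at this
      · right
        have := up_conj_of (X := yb (-(-u.1 1 2)⁻¹)) hni fun i j hij =>
          (yb_supp _ i j hij).imp id fun h' => h _ _ h'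
        rwa [inv_inv] at this

/-- simple reflections -/
def Sim (s : SLm 7 F) : Prop := Mon s ta ∨ Mon s tb

lemma mul_main {s n b : SLm 7 F} (hs : s ∈ G2 F) (hsM : Sim s) (hb : b ∈ G2 F) (hbU : IsUp b)
    (hn : n ∈ G2 F) {σ : Equiv.Perm (Fin 8)} (hσ : Mon n σ) :
    DC (BU 7 F ⊓ G2 F) n (s * b * n) ∨ DC (BU 7 F ⊓ G2 F) (s * n) (s * b * n) := by
  obtain ⟨p, q, hp, hq, hu⟩ := exists_diag hb hbU
  have ht := dg_mon hp hq
  have htG := dg_mem hp hq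
  generalize dg hp hq = t at *
  have huG : b * t⁻¹ ∈ G2 F := mul_mem hb (inv_mem htG)
  have hn' : t * n ∈ G2 F := mul_mem htG hn
  have hσ' : Mon (t * n) (1 * σ) := mon_mul ht hσ
  have key : DC (BU 7 F ⊓ G2 F) (t * n) (s * (b * t⁻¹) * (t * n)) ∨
      DC (BU 7 F ⊓ G2 F) (s * (t * n)) (s * (b * t⁻¹) * (t * n)) := by
    rcases hsM with h | h
    · exact mul_a hs h huG hu hn' hσ'
    · exact mul_b hs h huG hu hn' hσ'
  have e : s * (b * t⁻¹) * (t * n) = s * b * n := by group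
  rw [e] at key
  rcases key with ⟨a, ha, c, hc, h⟩ | ⟨a, ha, c, hc, h⟩
  · exact Or.inl ⟨a * t, mul_mem ha (mem_inf.2 ⟨mem_T' ht, htG⟩), c, hc, by rw [h]; group⟩
  · refine Or.inr ⟨a * (s * t * s⁻¹), mul_mem ha (mem_inf.2 ⟨?_, cj_mem hs htG⟩), c,
      hc, by rw [h]; group⟩
    obtain ⟨τ, hτ⟩ : ∃ τ, Mon s τ := hsM.elim (fun h => ⟨_, h⟩) fun h => ⟨_, h⟩
    have h1 := mon_mul (mon_mul hτ ht) (mon_inv hτ)
    rw [mul_one, mul_inv_cancel] at h1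
    exact mem_T' h1

end

end Vale.Agent.P240.R2.H38.Oct
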