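import Vale.Agent.P240.R2.H38.G4

/-!
The groups `G_2(F)`, part 5: generation.
-/

set_option autoImplicit false
set_option linter.all false

namespace Vale.Agent.P240.R2.H38.Oct

open Subgroup Matrix Vale.Agent.P240.H195

section
variable {F : Type*} [Field F] {K : Subgroup (SLm 7 F)}

/-- some element of `K` maps `v` to a multiple of the first unit vector -/
def Rd (K : Subgroup (SLm 7 F)) (v : Fin 8 → F) : Prop := ∃ k ∈ K, ∀ i, i ≠ 0 → (k.1 *ᵥ v) i = 0

lemma Rd.step {k : SLm 7 F} (hk : k ∈ K) {v w : Fin 8 → F} (hw : k.1 *ᵥ v = w) (h : Rd K w) :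
    Rd K v := by
  obtain ⟨k', hk', h'⟩ := h
  refine ⟨k' * k, mul_mem hk' hk, fun i hi => ?_⟩
  rw [mul_mv, hw]
  exact h' i hi

/-- isotropic vectors -/
def Nl (v : Fin 8 → F) : Prop := zmul v v = 0

lemma Nl.mv {A : SLm 7 F} (hA : A ∈ G2 F) {v w : Fin 8 → F} (hw : A.1 *ᵥ v = w) (h : Nl v) :
    Nl w := by
  unfold Nl at h ⊢
  rw [← hw, ← hA, h, mulVec_zero]

variable (hK : K ≤ G2 F) (h1 : ∀ t, xa t ∈ K) (h2 : ∀ t, xb t ∈ K) (h3 : wa 1 ∈ K)
  (h4 : wb 1 ∈ K)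

include h3 in
lemma L1' {v : Fin 8 → F} (h : ∀ i, i ≠ 1 → v i = 0) : Rd K v := by
  refine ⟨wa 1, h3, fun i hi => ?_⟩
  rw [wa_mv one_ne_zero]
  fin_cases i
  · exact absurd rfl hi
  all_goals simp [h]

include h2 h3 h4 in
lemma L12 {v : Fin 8 → F} (h : ∀ i, i ≠ 1 → i ≠ 2 → v i = 0) : Rd K v := by
  by_cases hv : v 2 = 0
  · refine L1' h3 fun i hi => ?_
    by_cases h5 : i = 2
    · rw [h5, hv]
    · exact h i hi h5
  · refine Rd.step (h2 (v 1 / v 2)) (xb_mv _ _) (Rd.step h4 (wb_mv one_ne_zero _) (L1' h3 ?_))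
    intro i hi
    fin_cases i
    · simp [h]
    · exact absurd rfl hi
    · simp; field_simp; ring
    all_goals simp [h]

include h2 h3 h4 in
lemma L5b {v : Fin 8 → F} (h : ∀ i, i ≠ 0 → i ≠ 5 → v i = 0) : Rd K v := by
  refine Rd.step h3 (wa_mv one_ne_zero _) (L12 h2 h3 h4 fun i hi hi' => ?_)
  fin_cases i
  · simp [h]
  · exact absurd rfl hi
  · exact absurd rfl hi'
  all_goals simp [h]

include h2 h3 h4 in
lemma L5a {v : Fin 8 → F} (h : ∀ i, i ≠ 0 → i ≠ 5 → i ≠ 6 → v i = 0) : Rd K v := by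
  by_cases hv : v 6 = 0
  · refine L5b h2 h3 h4 fun i hi hi' => ?_
    by_cases h5 : i = 6
    · rw [h5, hv]
    · exact h i hi hi' h5
  · refine Rd.step (h2 (-v 5 / v 6)) (xb_mv _ _) (Rd.step h4 (wb_mv one_ne_zero _)
      (L5b h2 h3 h4 ?_))
    intro i hi hi'
    fin_cases i
    · exact absurd rfl hi
    · simp [h]
    · simp [h]
    · simp [h]
    · simp [h]
    · exact absurd rfl hi'
    · simp; field_simp; ring
    · simp [h]

include hK h1 h2 h3 h4 in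
lemma L5 {v : Fin 8 → F} (hN : Nl v) (h5 : v 5 ≠ 0) (hv1 : v 1 = 0) (hv7 : v 7 = 0) :
    Rd K v := by
  have hN' := hN.mv (hK (h1 (v 3 / v 5))) (xa_mv _ _)
  refine Rd.step (h1 (v 3 / v 5)) (xa_mv _ _) ?_
  generalize hw : (![v 0 + v 3 / v 5 * v 1, v 1, v 2 + v 3 / v 5 * v 3 - v 3 / v 5 * v 4 -
    (v 3 / v 5) ^ 2 * v 5, v 3 - v 3 / v 5 * v 5, v 4 + v 3 / v 5 * v 5, v 5,
    v 6 - v 3 / v 5 * v 7, v 7] : Fin 8 → F) = w at *
  have w1 : w 1 = 0 := by rw [← hw]; exact hv1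
  have w7 : w 7 = 0 := by rw [← hw]; exact hv7
  have w5 : w 5 ≠ 0 := by rw [← hw]; exact h5
  have w3 : w 3 = 0 := by
    rw [← hw]
    change v 3 - v 3 / v 5 * v 5 = 0
    field_simp
    ring
  have w4 : w 4 = 0 := by
    have := congrFun hN' 5
    simp [zmul, w1, w7, w3] at this
    exact this.resolve_left w5
  have w2 : w 2 = 0 := by
    have := congrFun hN' 3
    simp [zmul, w1, w7, w3] at this
    exact this.resolve_left w5
  refine L5a h2 h3 h4 fun i hi hi' hi'' => ?_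
  fin_cases i
  · exact absurd rfl hi
  · exact w1
  · exact w2
  · exact w3
  · exact w4
  · exact absurd rfl hi'
  · exact absurd rfl hi''
  · exact w7

include hK h1 h2 h3 h4 in
lemma L7b {v : Fin 8 → F} (hN : Nl v) (h7 : v 7 ≠ 0) (h6 : v 6 = 0) (h5 : v 5 = 0) :
    Rd K v := by
  have hN1 := hN.mv (hK h3) (wa_mv one_ne_zero _)
  have hN2 := hN1.mv (hK h4) (wb_mv one_ne_zero _)
  refine Rd.step h3 (wa_mv one_ne_zero _) (Rd.step h4 (wb_mv one_ne_zero _)
    (L5 hK h1 h2 h3 h4 hN2 ?_ ?_ ?_))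
  · simpa using h7
  · simpa using h5
  · simpa using h6

include hK h1 h2 h3 h4 in
lemma L7a {v : Fin 8 → F} (hN : Nl v) (h7 : v 7 ≠ 0) (h6 : v 6 = 0) : Rd K v := by
  have hN1 := hN.mv (hK h4) (wb_mv one_ne_zero _)
  have hN2 := hN1.mv (hK (h1 (-v 5 / v 7))) (xa_mv _ _)
  refine Rd.step h4 (wb_mv one_ne_zero _) (Rd.step (h1 (-v 5 / v 7)) (xa_mv _ _)
    (L7b hK h1 h2 h3 h4 hN2 ?_ ?_ ?_))
  · simpa using h7
  · simp; field_simp; ring
  · simpa using h6

include hK h1 h2 h3 h4 in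
lemma L7 {v : Fin 8 → F} (hN : Nl v) (h7 : v 7 ≠ 0) : Rd K v := by
  have hN2 := hN.mv (hK (h1 (v 6 / v 7))) (xa_mv _ _)
  refine Rd.step (h1 (v 6 / v 7)) (xa_mv _ _) (L7a hK h1 h2 h3 h4 hN2 ?_ ?_)
  · simpa using h7
  · simp; field_simp; ring

include hK h1 h2 h3 h4 in
lemma L6 {v : Fin 8 → F} (hN : Nl v) (h6 : v 6 ≠ 0) : Rd K v :=
  Rd.step h3 (wa_mv one_ne_zero _)
    (L7 hK h1 h2 h3 h4 (hN.mv (hK h3) (wa_mv one_ne_zero _)) (by simpa using h6))

include hK h1 h2 h3 h4 in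
lemma L5' {v : Fin 8 → F} (hN : Nl v) (h5 : v 5 ≠ 0) : Rd K v :=
  Rd.step h4 (wb_mv one_ne_zero _)
    (L6 hK h1 h2 h3 h4 (hN.mv (hK h4) (wb_mv one_ne_zero _)) (by simpa using h5))

include hK h1 h2 h3 h4 in
lemma L2 {v : Fin 8 → F} (hN : Nl v) (hv : v 2 ≠ 0) : Rd K v :=
  Rd.step h3 (wa_mv one_ne_zero _)
    (L5' hK h1 h2 h3 h4 (hN.mv (hK h3) (wa_mv one_ne_zero _)) (by simpa using hv))

include hK h1 h2 h3 h4 in
lemma L1 {v : Fin 8 → F} (hN : Nl v) (hv : v 1 ≠ 0) : Rd K v :=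
  Rd.step h4 (wb_mv one_ne_zero _)
    (L2 hK h1 h2 h3 h4 (hN.mv (hK h4) (wb_mv one_ne_zero _)) (by simpa using hv))

include hK h1 h2 h3 h4 in
lemma L0 {v : Fin 8 → F} (hN : Nl v) (hv : v 0 ≠ 0) : Rd K v :=
  Rd.step h3 (wa_mv one_ne_zero _)
    (L1 hK h1 h2 h3 h4 (hN.mv (hK h3) (wa_mv one_ne_zero _)) (by simpa using hv))

include hK h1 h2 h3 h4 in
lemma Lall {v : Fin 8 → F} (hN : Nl v) (hv : v ≠ 0) : Rd K v := by
  by_contra hcon
  have v0 : v 0 = 0 := by_contra fun h => hcon (L0 hK h1 h2 h3 h4 hN h)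
  have v1 : v 1 = 0 := by_contra fun h => hcon (L1 hK h1 h2 h3 h4 hN h)
  have v2 : v 2 = 0 := by_contra fun h => hcon (L2 hK h1 h2 h3 h4 hN h)
  have v5 : v 5 = 0 := by_contra fun h => hcon (L5' hK h1 h2 h3 h4 hN h)
  have v6 : v 6 = 0 := by_contra fun h => hcon (L6 hK h1 h2 h3 h4 hN h)
  have v7 : v 7 = 0 := by_contra fun h => hcon (L7 hK h1 h2 h3 h4 hN h)
  have v3 : v 3 = 0 := by
    have := congrFun hN 3
    simpa [zmul, v0, v5, v6] using this
  have v4 : v 4 = 0 := by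
    have := congrFun hN 4
    simpa [zmul, v7, v1, v2] using this
  apply hv
  funext i
  fin_cases i
  exacts [v0, v1, v2, v3, v4, v5, v6, v7]

lemma cl_ne (g : SLm 7 F) (j : Fin 8) : cl g j ≠ 0 := by
  intro h
  have h5 : (g⁻¹).1 *ᵥ (g.1 *ᵥ bs j) = bs j := by
    rw [← mul_mv, inv_mul_cancel, SpecialLinearGroup.coe_one, one_mulVec]
  rw [mv_bs, h, mulVec_zero] at h5
  have h6 := congrFun h5 j
  simp [bs] at h6

lemma cl_mul (k g : SLm 7 F) (j : Fin 8) : cl (k * g) j = k.1 *ᵥ cl g j := by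
  rw [← mv_bs, mul_mv, mv_bs]

/-- elements fixing the first line -/
lemma par_rel {g : SLm 7 F} (hg : g ∈ G2 F) (h0 : ∀ i, i ≠ 0 → g.1 i 0 = 0) : g.1 0 0 ≠ 0 ∧
    (∀ j, (j = 1 ∨ j = 2) → g.1 3 j = 0 ∧ g.1 4 j = 0 ∧ g.1 5 j = 0 ∧ g.1 6 j = 0 ∧
      g.1 7 j = 0) ∧ (g.1 4 3 = 0 ∧ g.1 5 3 = 0 ∧ g.1 6 3 = 0 ∧ g.1 7 3 = 0) ∧
    (g.1 5 4 = 0 ∧ g.1 6 4 = 0 ∧ g.1 7 4 = 0) ∧ (g.1 2 1 = 0 → g.1 6 5 = 0) ∧ g.1 7 5 = 0 ∧
    g.1 7 6 = 0 := by
  have hc : g.1 0 0 ≠ 0 := by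
    intro h
    apply cl_ne g 0
    funext i
    by_cases hi : i = 0
    · rw [hi]; exact h
    · exact h0 i hi
  have e0 : ∀ i : Fin 8, i ≠ 0 → (cl g 0) i = 0 := h0
  have hL : ∀ j, zmul (cl g 0) (cl g j) = ![g.1 0 0 * g.1 4 j, g.1 0 0 * g.1 5 j,
      -(g.1 0 0 * g.1 6 j), g.1 0 0 * g.1 7 j, 0, 0, 0, 0] := by
    intro j
    funext i
    fin_cases i <;> simp [zmul, e0] <;> simp [cl]
  have hR : ∀ j, zmul (cl g j) (cl g 0) = ![g.1 0 0 * g.1 3 j, -(g.1 0 0 * g.1 5 j),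
      g.1 0 0 * g.1 6 j, 0, g.1 0 0 * g.1 7 j, 0, 0, 0] := by
    intro j
    funext i
    fin_cases i <;> simp [zmul, e0] <;> simp [cl] <;> ring
  have hL0 : ∀ j, zmul (bs 0) (bs j) = (0 : Fin 8 → F) →
      g.1 4 j = 0 ∧ g.1 5 j = 0 ∧ g.1 6 j = 0 ∧ g.1 7 j = 0 := by
    intro j hj
    have h := zc hg 0 j
    rw [hj, mulVec_zero, hL] at h
    have a0 := congrFun h 0
    have a1 := congrFun h 1
    have a2 := congrFun h 2
    have a3 := congrFun h 3
    simp [hc] at a0 a1 a2 a3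
    exact ⟨a0, a1, a2, a3⟩
  have hR0 : ∀ j, zmul (bs j) (bs 0) = (0 : Fin 8 → F) → g.1 3 j = 0 := by
    intro j hj
    have h := zc hg j 0
    rw [hj, mulVec_zero, hR] at h
    have a0 := congrFun h 0
    simp [hc] at a0
    exact a0
  have c1 := hL0 1 z01
  have c2 := hL0 2 z02
  have c3 := hL0 3 z03
  have h34 := cl34 hg
  refine ⟨hc, ?_, c3, ?_, ?_, ?_, ?_⟩
  · rintro j (rfl | rfl)
    · exact ⟨hR0 1 z10, c1⟩
    · exact ⟨hR0 2 z20, c2⟩
  · have a5 := congrFun h34 5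
    have a6 := congrFun h34 6
    have a7 := congrFun h34 7
    simp [cl, un, c3] at a5 a6 a7
    exact ⟨a5, a6, a7⟩
  · intro h21
    have h := zc hg 0 5
    rw [z05, mv_bs, hL] at h
    have a2 := congrFun h 2
    simp [cl, h21, hc] at a2
    exact a2
  · have h := zc hg 0 5
    rw [z05, mv_bs, hL] at h
    have a3 := congrFun h 3
    simp [cl, hc, hR0 1 z10] at a3
    exact a3
  · have h := zc hg 0 6
    rw [z06, mv_neg_bs, hL] at h
    have a3 := congrFun h 3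
    simp [cl, hc, hR0 2 z20] at a3
    exact a3

include hK h1 h2 h3 h4 in
/-- generation -/
theorem gen_main (h5 : ∀ b ∈ G2 F, IsUp b → b ∈ K) : G2 F ≤ K := by
  intro g hg
  have hN : Nl (cl g 0) := by
    unfold Nl
    rw [zc hg, z00, mulVec_zero]
  obtain ⟨k, hk, hk'⟩ := Lall hK h1 h2 h3 h4 hN (cl_ne g 0)
  suffices hsuff : ∀ g ∈ G2 F, (∀ i, i ≠ 0 → g.1 i 0 = 0) → g ∈ K by
    have h6 : k * g ∈ K := hsuff _ (mul_mem (hK hk) hg) fun i hi => by
      have := hk' i hi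
      rwa [← cl_mul] at this
    have : g = k⁻¹ * (k * g) := by group
    rw [this]
    exact mul_mem (inv_mem hk) h6
  clear hN hk' hk k hg g
  suffices hsuff : ∀ g ∈ G2 F, (∀ i, i ≠ 0 → g.1 i 0 = 0) → g.1 2 1 = 0 → g ∈ K by
    intro g hg h0
    by_cases h21 : g.1 2 1 = 0
    · exact hsuff g hg h0 h21
    · have hx := h2 (g.1 1 1 / g.1 2 1)
      have e0 : ∀ i : Fin 8, i ≠ 0 → (cl g 0) i = 0 := h0
      have h6 : wb 1 * (xb (g.1 1 1 / g.1 2 1) * g) ∈ K := by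
        refine hsuff _ (mul_mem (hK h4) (mul_mem (hK hx) hg)) ?_ ?_
        · intro i hi
          change (cl (wb 1 * (xb (g.1 1 1 / g.1 2 1) * g)) 0) i = 0
          rw [cl_mul, cl_mul, xb_mv, wb_mv one_ne_zero]
          fin_cases i
          · exact absurd rfl hi
          all_goals simp [e0]
        · change (cl (wb 1 * (xb (g.1 1 1 / g.1 2 1) * g)) 1) 2 = 0
          rw [cl_mul, cl_mul, xb_mv, wb_mv one_ne_zero]
          simp [cl]
          field_simp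
          ring
      have : g = (xb (g.1 1 1 / g.1 2 1))⁻¹ * ((wb 1)⁻¹ *
          (wb 1 * (xb (g.1 1 1 / g.1 2 1) * g))) := by group
      rw [this]
      exact mul_mem (inv_mem hx) (mul_mem (inv_mem h4) h6)
  intro g hg h0 h21
  refine h5 g hg ?_
  obtain ⟨-, a12, a3, a4, a65, a75, a76⟩ := par_rel hg h0
  have a1 := a12 1 (Or.inl rfl)
  have a2 := a12 2 (Or.inr rfl)
  intro i j hij
  fin_cases j
  · exact h0 i (by rintro rfl; exact absurd hij (by decide))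
  · fin_cases i
    · exact absurd hij (by decide)
    · exact absurd hij (by decide)
    · exact h21
    · exact a1.1
    · exact a1.2.1
    · exact a1.2.2.1
    · exact a1.2.2.2.1
    · exact a1.2.2.2.2
  · fin_cases i
    · exact absurd hij (by decide)
    · exact absurd hij (by decide)
    · exact absurd hij (by decide)
    · exact a2.1
    · exact a2.2.1
    · exact a2.2.2.1
    · exact a2.2.2.2.1
    · exact a2.2.2.2.2
  · fin_cases i
    · exact absurd hij (by decide)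
    · exact absurd hij (by decide)
    · exact absurd hij (by decide)
    · exact absurd hij (by decide)
    · exact a3.1
    · exact a3.2.1
    · exact a3.2.2.1
    · exact a3.2.2.2
  · fin_cases i
    · exact absurd hij (by decide)
    · exact absurd hij (by decide)
    · exact absurd hij (by decide)
    · exact absurd hij (by decide)
    · exact absurd hij (by decide)
    · exact a4.1
    · exact a4.2.1
    · exact a4.2.2
  · fin_cases i
    · exact absurd hij (by decide)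
    · exact absurd hij (by decide)
    · exact absurd hij (by decide)
    · exact absurd hij (by decide)
    · exact absurd hij (by decide)
    · exact absurd hij (by decide)
    · exact a65 h21
    · exact a75
  · fin_cases i
    · exact absurd hij (by decide)
    · exact absurd hij (by decide)
    · exact absurd hij (by decide)
    · exact absurd hij (by decide)
    · exact absurd hij (by decide)
    · exact absurd hij (by decide)
    · exact absurd hij (by decide)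
    · exact a76
  · fin_cases i
    all_goals exact absurd hij (by decide)

end

end Vale.Agent.P240.R2.H38.Oct
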