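import Vale.Agent.P240.R2.H38.G5
import Vale.Agent.P240.R2.H487.CG.A8

/-!
The groups `G_2(F)`, part 6: the split BN-pair.
-/

set_option autoImplicit false
set_option linter.all false

namespace Vale.Agent.P240.R2.H38.Oct

open Subgroup Matrix Vale.Agent.P240.H195

section
variable {F : Type*} [Field F] [Finite F]

variable (F) in
/-- the upper triangular elements -/
abbrev BH : Subgroup ↥(G2 F) := (BU 7 F).subgroupOf (G2 F)

variable (F) in
/-- the unipotent upper triangular elements -/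
abbrev UH : Subgroup ↥(G2 F) := (UU 7 F).subgroupOf (G2 F)

variable (F) in
/-- the diagonal elements -/
abbrev TH : Subgroup ↥(G2 F) := (BU 7 F ⊓ NM 7 F).subgroupOf (G2 F)

variable (F) in
/-- the representatives of the simple reflections -/
def SH : Set ↥(G2 F) := {s | Sim s.1}

variable (F) in
/-- the monomial subgroup -/
def NH : Subgroup ↥(G2 F) := closure (SH F) ⊔ TH F

lemma mem_BH' {x : ↥(G2 F)} : x ∈ BH F ↔ IsUp x.1 := Iff.rfl

lemma mem_UH' {x : ↥(G2 F)} : x ∈ UH F ↔ x.1 ∈ UU 7 F := Iff.rfl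

lemma mem_TH' {x : ↥(G2 F)} : x ∈ TH F ↔ Mon x.1 1 := mem_T

omit [Finite F] in
lemma Sim.mon {s : SLm 7 F} (h : Sim s) : ∃ τ : Equiv.Perm (Fin 8), Mon s τ ∧ τ * τ = 1 :=
  h.elim (fun h => ⟨_, h, ta_sq⟩) fun h => ⟨_, h, tb_sq⟩

lemma NH_le : NH F ≤ (NM 7 F).subgroupOf (G2 F) := by
  unfold NH
  rw [sup_le_iff, closure_le]
  refine ⟨fun s hs => ?_, fun t ht => ?_⟩
  · obtain ⟨τ, hτ, -⟩ := Sim.mon (show Sim s.1 from hs)
    exact ⟨τ, hτ⟩
  · exact (mem_inf.1 ht).2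

lemma NH_mon {n : ↥(G2 F)} (hn : n ∈ NH F) : ∃ σ, Mon n.1 σ := NH_le hn

lemma BH_inf : BH F ⊓ NH F = TH F := by
  apply le_antisymm
  · rintro x ⟨hx, hxN⟩
    obtain ⟨σ, hσ⟩ := NH_mon hxN
    have h1 := mon_up hσ hx
    rw [h1] at hσ
    exact mem_TH'.2 hσ
  · intro x hx
    exact ⟨(mem_inf.1 hx).1, mem_sup_right hx⟩

lemma DC_sub {n x : ↥(G2 F)} (h : DC (BU 7 F ⊓ G2 F) n.1 x.1) : DC (BH F) n x := by
  obtain ⟨a, ha, b, hb, e⟩ := h
  exact ⟨⟨a, ha.2⟩, ha.1, ⟨b, hb.2⟩, hb.1, Subtype.ext e⟩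

theorem gBN0 : BN0 (BH F) (NH F) (SH F) where
  norm := by
    intro n hn t ht htN
    obtain ⟨σ, hσ⟩ := NH_mon hn
    have ht1 : Mon t.1 1 := by
      have : t ∈ BH F ⊓ NH F := ⟨ht, htN⟩
      rw [BH_inf] at this
      exact mem_TH'.1 this
    have h1 : Mon (n.1 * t.1 * n.1⁻¹) (σ * 1 * σ⁻¹) := mon_mul (mon_mul hσ ht1) (mon_inv hσ)
    rw [mul_one, mul_inv_cancel] at h1
    exact mem_T' h1
  sub := fun s hs => mem_sup_left (subset_closure hs)
  span := by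
    rw [BH_inf]
    rfl
  sq := by
    intro s hs
    obtain ⟨τ, hτ, h2⟩ := Sim.mon (show Sim s.1 from hs)
    have h1 := mon_mul hτ hτ
    rw [h2] at h1
    exact mem_T' h1
  mul := by
    intro s hs x hx n hn
    obtain ⟨σ, hσ⟩ := NH_mon hn
    exact (mul_main s.2 hs x.2 hx n.2 hσ).imp (fun h => DC_sub (n := n) (x := s * x * n) h)
      fun h => DC_sub (n := s * n) (x := s * x * n) h
  thick := by
    intro s hs
    have key : ∀ {X : SLm 7 F} {i j : Fin 8} {τ : Equiv.Perm (Fin 8)}, Mon s.1 τ →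
        X.1 i j ≠ 0 → τ⁻¹ j < τ⁻¹ i → ¬ IsUp (s.1⁻¹ * X * s.1) := by
      intro X i j τ hτ hX hlt hU
      have h1 := (mon_conj_ne (mon_inv hτ) X i j).2 hX
      rw [inv_inv] at h1
      exact h1 (hU _ _ hlt)
    rcases (show Sim s.1 from hs) with h | h
    · refine ⟨⟨xa 1, xa_mem 1⟩, xa_up 1, fun hcon => ?_⟩
      refine key h (X := xa 1) (i := 0) (j := 1) ?_ (by decide) hcon
      change (1 : F) ≠ 0
      exact one_ne_zero
    · refine ⟨⟨xb 1, xb_mem 1⟩, xb_up 1, fun hcon => ?_⟩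
      refine key h (X := xb 1) (i := 1) (j := 2) ?_ (by decide) hcon
      change (-1 : F) ≠ 0
      exact neg_ne_zero.2 one_ne_zero

variable (F) in
/-- the representatives -/
def sa : ↥(G2 F) := ⟨wa 1, wa_mem 1⟩

variable (F) in
/-- the representatives -/
def sb : ↥(G2 F) := ⟨wb 1, wb_mem 1⟩

omit [Finite F] in
lemma sa_mem : sa F ∈ SH F := Or.inl (wa_mon one_ne_zero)

omit [Finite F] in
lemma sb_mem : sb F ∈ SH F := Or.inr (wb_mon one_ne_zero)

theorem gBN : BN (BH F) (NH F) (SH F) where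
  toBN0 := gBN0
  gen := by
    rw [eq_top_iff]
    have hK : (BH F ⊔ NH F).map (G2 F).subtype ≤ G2 F := by
      rintro _ ⟨x, -, rfl⟩
      exact x.2
    have h1 : ∀ t : F, xa t ∈ (BH F ⊔ NH F).map (G2 F).subtype := fun t =>
      ⟨⟨xa t, xa_mem t⟩, mem_sup_left (xa_up t), rfl⟩
    have h2 : ∀ t : F, xb t ∈ (BH F ⊔ NH F).map (G2 F).subtype := fun t =>
      ⟨⟨xb t, xb_mem t⟩, mem_sup_left (xb_up t), rfl⟩
    have h3 : wa 1 ∈ (BH F ⊔ NH F).map (G2 F).subtype :=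
      ⟨sa F, mem_sup_right (mem_sup_left (subset_closure sa_mem)), rfl⟩
    have h4 : wb 1 ∈ (BH F ⊔ NH F).map (G2 F).subtype :=
      ⟨sb F, mem_sup_right (mem_sup_left (subset_closure sb_mem)), rfl⟩
    have h := gen_main hK h1 h2 h3 h4 fun b hb hU => ⟨⟨b, hb⟩, mem_sup_left hU, rfl⟩
    intro x _
    obtain ⟨y, hy, hyx⟩ := h x.2
    have : y = x := Subtype.ext hyx
    rw [← this]
    exact hy

omit [Finite F] in
/-- the longest element -/
lemma ta_tb_pow : (ta * tb) * (ta * tb) * (ta * tb) = Fin.revPerm := by decide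

lemma exists_long : ∃ n ∈ NH F, Mon n.1 Fin.revPerm := by
  refine ⟨(sa F * sb F) * (sa F * sb F) * (sa F * sb F), ?_, ?_⟩
  · have h1 : sa F * sb F ∈ NH F := mul_mem (mem_sup_left (subset_closure sa_mem))
      (mem_sup_left (subset_closure sb_mem))
    exact mul_mem (mul_mem h1 h1) h1
  · have h1 : Mon (sa F * sb F).1 (ta * tb) := mon_mul (wa_mon one_ne_zero) (wb_mon one_ne_zero)
    have h2 := mon_mul (mon_mul h1 h1) h1
    rw [ta_tb_pow] at h2
    exact h2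

omit [Finite F] in
lemma opp_main [Finite F] {n x : SLm 7 F} (hn : Mon n Fin.revPerm) (hx : x ∈ UU 7 F)
    (hnx : n * x * n⁻¹ ∈ UU 7 F) : x = 1 := by
  refine sl_ext fun i j => ?_
  rw [sl_one]
  rcases lt_trichotomy i j with h | h | h
  · rw [if_neg h.ne]
    by_contra hne
    exact (mon_conj_ne hn x i j).2 hne (hnx.1 _ _ (by
      rw [Fin.revPerm_apply, Fin.revPerm_apply, Fin.rev_lt_rev]
      exact h))
  · rw [if_pos h, h, hx.2]
  · rw [if_neg h.ne', hx.1 i j h]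

theorem gSB {p : ℕ} [hp : Fact p.Prime] [CharP F p] : SB p (BH F) (NH F) (UH F) (SH F) where
  toBN := gBN
  le := fun x hx => hx.1
  pgroup := by
    have h1 := (sl_SB (F := F) (m := 7) (p := p) (by omega)).pgroup
    exact h1.comap_of_injective (G2 F).subtype Subtype.val_injective
  normal := by
    intro b hb u hu
    exact (sl_SB (F := F) (m := 7) (p := p) (by omega)).normal b.1 hb u.1 hu
  split := by
    intro b hb
    obtain ⟨x, y, hx, hy, hu⟩ := exists_diag b.2 hb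
    have huG : b.1 * (dg hx hy)⁻¹ ∈ G2 F := mul_mem b.2 (inv_mem (dg_mem hx hy))
    refine ⟨⟨b.1 * (dg hx hy)⁻¹, huG⟩, hu, ⟨dg hx hy, dg_mem hx hy⟩, mem_T' (dg_mon hx hy),
      mem_sup_right (mem_TH'.2 (dg_mon hx hy)), Subtype.ext ?_⟩
    change b.1 = b.1 * (dg hx hy)⁻¹ * dg hx hy
    group
  coprime := by
    intro hdvd
    apply (sl_SB (F := F) (m := 7) (p := p) (by omega)).coprime
    refine hdvd.trans ?_
    rw [BH_inf]
    exact Subgroup.card_comap_dvd_of_injective _ _ Subtype.val_injective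
  strong := by
    intro s hs x hx hsx u hu
    have hU : u.1 * x.1 * u.1⁻¹ ∈ UU 7 F := mul_mem (mul_mem hu hx) (inv_mem hu)
    have hG : u.1 * x.1 * u.1⁻¹ ∈ G2 F := cj_mem u.2 x.2
    rcases (show Sim s.1 from hs) with h | h
    · have h0 := zero_of_a h hsx.1
      have h1 : (u.1 * x.1 * u.1⁻¹).1 0 1 = 0 :=
        Vale.Agent.P240.R2.H487.CG.conj_super (m := 7) hu hx (i := 0) h0
      exact ⟨conj_a hG hU.1 hU.2 h h1, Vale.Agent.P240.R2.H487.CG.diag_conj h hU⟩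
    · have h0 := zero_of_b h hsx.1
      have h1 : (u.1 * x.1 * u.1⁻¹).1 1 2 = 0 :=
        Vale.Agent.P240.R2.H487.CG.conj_super (m := 7) hu hx (i := 1) h0
      exact ⟨conj_b hG hU.1 hU.2 h h1, Vale.Agent.P240.R2.H487.CG.diag_conj h hU⟩
  opp := by
    obtain ⟨n, hn, hσ⟩ := exists_long (F := F)
    exact ⟨n, hn, fun x hx hnx => Subtype.ext (opp_main hσ hx hnx)⟩
  nonempty := ⟨sa F, sa_mem⟩

lemma ta_tb_nc : (tb * ta)⁻¹ * (ta * tb) ≠ 1 := by decide

lemma tb_ta_nc : (ta * tb)⁻¹ * (tb * ta) ≠ 1 := by decide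

theorem gSplit {p : ℕ} [hp : Fact p.Prime] [CharP F p] :
    SplitBN p (BH F) (NH F) (UH F) (SH F) where
  toSB := gSB
  irr := by
    intro J hJ hne hne' hJB
    have hrep : ∀ {τ : Equiv.Perm (Fin 8)} {s s' : ↥(G2 F)}, Mon s.1 τ → Mon s'.1 τ → s ∈ J →
        s' ∈ SH F → s' ∈ J := by
      intro τ s s' hs hs' hsJ hS
      by_contra hcon
      apply hJB _ hsJ _ ⟨hS, hcon⟩
      have : Mon (s⁻¹ * s').1 (τ⁻¹ * τ) := mon_mul (mon_inv hs) hs'
      rw [inv_mul_cancel] at this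
      exact mem_T' this
    have hnc : ∀ {σ τ : Equiv.Perm (Fin 8)} {a b : ↥(G2 F)}, Mon a.1 σ → Mon b.1 τ →
        (τ * σ)⁻¹ * (σ * τ) ≠ 1 → (b * a)⁻¹ * (a * b) ∉ BH F := by
      intro σ τ a b ha hb hne h
      have h1 : Mon ((b * a)⁻¹ * (a * b)).1 ((τ * σ)⁻¹ * (σ * τ)) :=
        mon_mul (mon_inv (mon_mul hb ha)) (mon_mul ha hb)
      exact hne (mon_up h1 h)
    obtain ⟨x, hx⟩ := hne
    obtain ⟨y, hy, hyJ⟩ := hne'
    rcases (show Sim x.1 from hJ hx) with h1 | h1 <;> rcases (show Sim y.1 from hy) with h2 | h2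
    · exact absurd (hrep h1 h2 hx hy) hyJ
    · exact ⟨x, hx, y, ⟨hy, hyJ⟩, hnc h1 h2 ta_tb_nc⟩
    · exact ⟨x, hx, y, ⟨hy, hyJ⟩, hnc h1 h2 tb_ta_nc⟩
    · exact absurd (hrep h1 h2 hx hy) hyJ

/-- **`G_2(F)` is of Lie type** -/
theorem g2_lie {p : ℕ} [hp : Fact p.Prime] [CharP F p] (hs : IsSimpleGroup ↥(G2 F))
    (hZ : ∀ x : ↥(G2 F), (∀ y, x * y = y * x) → x = 1) : LieType p ↥(G2 F) :=
  ⟨hs, hZ, _, _, _, _, gSplit⟩

end

end Vale.Agent.P240.R2.H38.Oct
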