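import Vale.Agent.P240.H195.RIso
import Vale.Agent.P240.R2.H195.RigB
import Vale.Agent.P240.R2.H775.RG2
import Vale.Agent.P240.R2.H38.G6

/-!
The groups `G_2(F)`, part 7: the opposite root groups, rigidity.
-/

set_option autoImplicit false
set_option linter.all false

namespace Vale.Agent.P240.R2.H38.Oct

open Subgroup Matrix Vale.Agent.P240.H195

/-- the blocks of the parabolic subgroups -/
def ka (i : Fin 8) : ℕ := ![0, 0, 1, 1, 1, 1, 2, 2] i

/-- the blocks of the parabolic subgroups -/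
def kb (i : Fin 8) : ℕ := ![0, 1, 1, 2, 2, 3, 3, 4] i

lemma ka_mono : ∀ i j : Fin 8, i ≤ j → ka i ≤ ka j := by decide

lemma kb_mono : ∀ i j : Fin 8, i ≤ j → kb i ≤ kb j := by decide

lemma ka_ta : ∀ i : Fin 8, ka (ta i) = ka i := by decide

lemma kb_tb : ∀ i : Fin 8, kb (tb i) = kb i := by decide

lemma ka_eq : ∀ i j : Fin 8, i < j → ka i = ka j → Sa i j ∨ (i = 3 ∧ j = 4) := by decide

lemma kb_eq : ∀ i j : Fin 8, i < j → kb i = kb j → Sb i j ∨ (i = 3 ∧ j = 4) := by decide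

lemma Sa_ka : ∀ i j : Fin 8, Sa i j → ka i = ka j := by decide

lemma Sb_kb : ∀ i j : Fin 8, Sb i j → kb i = kb j := by decide

/-- permutations that reverse the order up to the two middle indices -/
def Rv (σ : Equiv.Perm (Fin 8)) : Prop := σ 0 = 7 ∧ σ 1 = 6 ∧ σ 2 = 5 ∧ (σ 3 = 3 ∨ σ 3 = 4) ∧
  (σ 4 = 3 ∨ σ 4 = 4) ∧ σ 5 = 2 ∧ σ 6 = 1 ∧ σ 7 = 0

section
variable {σ : Equiv.Perm (Fin 8)}

lemma Rv.ka (h : Rv σ) : ∀ i, ka (σ i) + ka i = 2 := by
  obtain ⟨h0, h1, h2, h3, h4, h5, h6, h7⟩ := h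
  intro i
  fin_cases i
  · change Oct.ka (σ 0) + Oct.ka 0 = 2
    rw [h0]; rfl
  · change Oct.ka (σ 1) + Oct.ka 1 = 2
    rw [h1]; rfl
  · change Oct.ka (σ 2) + Oct.ka 2 = 2
    rw [h2]; rfl
  · change Oct.ka (σ 3) + Oct.ka 3 = 2
    rcases h3 with h | h <;> rw [h] <;> rfl
  · change Oct.ka (σ 4) + Oct.ka 4 = 2
    rcases h4 with h | h <;> rw [h] <;> rfl
  · change Oct.ka (σ 5) + Oct.ka 5 = 2
    rw [h5]; rfl
  · change Oct.ka (σ 6) + Oct.ka 6 = 2
    rw [h6]; rfl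
  · change Oct.ka (σ 7) + Oct.ka 7 = 2
    rw [h7]; rfl

lemma Rv.kb (h : Rv σ) : ∀ i, kb (σ i) + kb i = 4 := by
  obtain ⟨h0, h1, h2, h3, h4, h5, h6, h7⟩ := h
  intro i
  fin_cases i
  · change Oct.kb (σ 0) + Oct.kb 0 = 4
    rw [h0]; rfl
  · change Oct.kb (σ 1) + Oct.kb 1 = 4
    rw [h1]; rfl
  · change Oct.kb (σ 2) + Oct.kb 2 = 4
    rw [h2]; rfl
  · change Oct.kb (σ 3) + Oct.kb 3 = 4
    rcases h3 with h | h <;> rw [h] <;> rfl
  · change Oct.kb (σ 4) + Oct.kb 4 = 4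
    rcases h4 with h | h <;> rw [h] <;> rfl
  · change Oct.kb (σ 5) + Oct.kb 5 = 4
    rw [h5]; rfl
  · change Oct.kb (σ 6) + Oct.kb 6 = 4
    rw [h6]; rfl
  · change Oct.kb (σ 7) + Oct.kb 7 = 4
    rw [h7]; rfl

lemma Rv.Sa (h : Rv σ) : ∀ i j, Sa i j → Sa (σ j) (σ i) := by
  obtain ⟨h0, h1, h2, h3, h4, h5, h6, h7⟩ := h
  rintro i j (⟨rfl, rfl⟩ | ⟨rfl, rfl | rfl | rfl⟩ | ⟨rfl | rfl, rfl⟩ | ⟨rfl, rfl⟩)
  · rw [h0, h1]; decide
  · rw [h2]; rcases h3 with h | h <;> rw [h] <;> decide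
  · rw [h2]; rcases h4 with h | h <;> rw [h] <;> decide
  · rw [h2, h5]; decide
  · rw [h5]; rcases h3 with h | h <;> rw [h] <;> decide
  · rw [h5]; rcases h4 with h | h <;> rw [h] <;> decide
  · rw [h6, h7]; decide

lemma Rv.Sb (h : Rv σ) : ∀ i j, Sb i j → Sb (σ j) (σ i) := by
  obtain ⟨h0, h1, h2, h3, h4, h5, h6, h7⟩ := h
  rintro i j (⟨rfl, rfl⟩ | ⟨rfl, rfl⟩)
  · rw [h1, h2]; decide
  · rw [h5, h6]; decide

end

section
variable {F : Type*} [Field F] [Finite F]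

/-- block upper triangular matrices -/
def PB (κ : Fin 8 → ℕ) (A : SLm 7 F) : Prop := ∀ i j, κ j < κ i → A.1 i j = 0

omit [Finite F] in
lemma pb_mul {κ : Fin 8 → ℕ} {A B : SLm 7 F} (hA : PB κ A) (hB : PB κ B) : PB κ (A * B) := by
  intro i j h
  rw [sl_mul]
  refine Finset.sum_eq_zero fun l _ => ?_
  rcases lt_or_ge (κ l) (κ i) with h1 | h1
  · rw [hA i l h1, zero_mul]
  · rw [hB l j (h.trans_le h1), mul_zero]

omit [Finite F] in
lemma pb_up {κ : Fin 8 → ℕ} (hκ : ∀ i j, i ≤ j → κ i ≤ κ j) {A : SLm 7 F} (hA : IsUp A) :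
    PB κ A := by
  intro i j h
  refine hA i j ?_
  by_contra hcon
  exact absurd (hκ i j (not_lt.1 hcon)) (not_le.2 h)

omit [Finite F] in
lemma pb_mon {κ : Fin 8 → ℕ} {τ : Equiv.Perm (Fin 8)} (hκ : ∀ i, κ (τ i) = κ i) {A : SLm 7 F}
    (hA : Mon A τ) : PB κ A := by
  intro i j h
  refine mon_eq hA ?_
  rintro rfl
  rw [hκ] at h
  exact lt_irrefl _ h

lemma pb_par {κ : Fin 8 → ℕ} {τ : Equiv.Perm (Fin 8)} (hm : ∀ i j, i ≤ j → κ i ≤ κ j)
    (hκ : ∀ i, κ (τ i) = κ i) {s y : ↥(G2 F)} (hs : Mon s.1 τ) (hsS : s ∈ SH F)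
    (hy : y ∈ Par (BH F) s) : PB κ y.1 := by
  rcases (gBN.mem_Par hsS).1 hy with h | ⟨a, ha, b, hb, rfl⟩
  · exact pb_up hm h
  · exact pb_mul (pb_mul (pb_up hm ha) (pb_mon hκ hs)) (pb_up hm hb)

/-- opposite elements -/
lemma rv_of_opp {n : ↥(G2 F)} {σ : Equiv.Perm (Fin 8)} (hσ : Mon n.1 σ)
    (hopp : ∀ x ∈ UH F, n * x * n⁻¹ ∈ UH F → x = 1) : Rv σ := by
  have hA : ∀ i j, Oct.Sa i j → σ j < σ i := by
    rcases Sa_dich n.2 hσ with h | h
    · exfalso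
      have h1 := hopp ⟨xa 1, xa_mem 1⟩ (xa_UU 1) (mem_UH'.2 ⟨up_conj_of hσ fun i j hij =>
        (xa_supp _ i j hij).imp id (h i j), Vale.Agent.P240.R2.H487.CG.diag_conj hσ (xa_UU 1)⟩)
      have h2 := congrArg (fun x : ↥(G2 F) => x.1.1 0 1) h1
      have h3 : (1 : F) = 0 := h2
      exact one_ne_zero h3
    · exact h
  have hB : ∀ i j, Oct.Sb i j → σ j < σ i := by
    rcases Sb_dich n.2 hσ with h | h
    · exfalso
      have h1 := hopp ⟨xb 1, xb_mem 1⟩ (xb_UU 1) (mem_UH'.2 ⟨up_conj_of hσ fun i j hij =>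
        (xb_supp _ i j hij).imp id (h i j), Vale.Agent.P240.R2.H487.CG.diag_conj hσ (xb_UU 1)⟩)
      have h2 := congrArg (fun x : ↥(G2 F) => x.1.1 1 2) h1
      have h3 : (-1 : F) = 0 := h2
      exact neg_ne_zero.2 one_ne_zero h3
    · exact h
  have a01 := hA 0 1 (by decide)
  have a23 := hA 2 3 (by decide)
  have a24 := hA 2 4 (by decide)
  have a35 := hA 3 5 (by decide)
  have a45 := hA 4 5 (by decide)
  have a67 := hA 6 7 (by decide)
  have b12 := hB 1 2 (by decide)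
  have b56 := hB 5 6 (by decide)
  have n34 : (σ 3).val ≠ (σ 4).val := fun h => absurd (σ.injective (Fin.ext h)) (by decide)
  rw [Fin.lt_def] at a01 a23 a24 a35 a45 a67 b12 b56
  have l0 := (σ 0).2
  unfold Rv
  simp only [Fin.ext_iff]
  refine ⟨?_, ?_, ?_, ?_, ?_, ?_, ?_, ?_⟩
  · change (σ 0).val = 7; omega
  · change (σ 1).val = 6; omega
  · change (σ 2).val = 5; omega
  · change (σ 3).val = 3 ∨ (σ 3).val = 4; omega
  · change (σ 4).val = 3 ∨ (σ 4).val = 4; omega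
  · change (σ 5).val = 2; omega
  · change (σ 6).val = 1; omega
  · change (σ 7).val = 0; omega

/-- the elements of the short simple root group -/
lemma eq_xa {u : SLm 7 F} (hu : u ∈ G2 F) (hU : u ∈ UU 7 F)
    (h : ∀ i j, i < j → Oct.ka i ≠ Oct.ka j → u.1 i j = 0) : u = xa (u.1 0 1) := by
  obtain ⟨e34, e23, e24, e45, e35, e25, e67, -⟩ := uu_rel hu hU.1 hU.2
  refine sl_ext fun i j => ?_
  rcases lt_trichotomy i j with h1 | h1 | h1
  · by_cases h2 : Oct.ka i = Oct.ka j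
    · rcases ka_eq i j h1 h2 with (⟨rfl, rfl⟩ | ⟨rfl, rfl | rfl | rfl⟩ | ⟨rfl | rfl, rfl⟩ |
        ⟨rfl, rfl⟩) | ⟨rfl, rfl⟩
      · rfl
      · exact e23
      · exact e24
      · rw [e25]
        change _ = -u.1 0 1 ^ 2
        ring
      · exact e35
      · exact e45
      · exact e67
      · exact e34
    · rw [h i j h1 h2]
      by_contra hne
      rcases xa_supp _ i j (Ne.symm hne) with h3 | h3
      · exact h1.ne h3
      · exact h2 (Sa_ka i j h3)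
  · rw [h1, hU.2, xa_dg]
  · rw [hU.1 i j h1, xa_up _ i j h1]

/-- the elements of the long simple root group -/
lemma eq_xb {u : SLm 7 F} (hu : u ∈ G2 F) (hU : u ∈ UU 7 F)
    (h : ∀ i j, i < j → Oct.kb i ≠ Oct.kb j → u.1 i j = 0) : u = xb (-u.1 1 2) := by
  obtain ⟨e34, e23, e24, e45, e35, e25, e67, e56⟩ := uu_rel hu hU.1 hU.2
  refine sl_ext fun i j => ?_
  rcases lt_trichotomy i j with h1 | h1 | h1
  · by_cases h2 : Oct.kb i = Oct.kb j
    · rcases kb_eq i j h1 h2 with (⟨rfl, rfl⟩ | ⟨rfl, rfl⟩) | ⟨rfl, rfl⟩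
      · change _ = -(-u.1 1 2)
        rw [neg_neg]
      · exact e56
      · exact e34
    · rw [h i j h1 h2]
      by_contra hne
      rcases xb_supp _ i j (Ne.symm hne) with h3 | h3
      · exact h1.ne h3
      · exact h2 (Sb_kb i j h3)
  · rw [h1, hU.2, xb_dg]
  · rw [hU.1 i j h1, xb_up _ i j h1]

/-- block structure of `n⁻¹ y n` -/
lemma blk_zero {κ : Fin 8 → ℕ} {C : ℕ} (hm : ∀ i j, i ≤ j → κ i ≤ κ j) {σ : Equiv.Perm (Fin 8)}
    (hκσ : ∀ i, κ (σ i) + κ i = C) {n y : SLm 7 F} (hσ : Mon n σ) (hy : PB κ y) (i j : Fin 8)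
    (hij : i < j) (hne : κ i ≠ κ j) : (n⁻¹ * y * n).1 i j = 0 := by
  by_contra hcon
  have e : y = n * (n⁻¹ * y * n) * n⁻¹ := by group
  have h1 := (mon_conj_ne hσ (n⁻¹ * y * n) i j).2 hcon
  rw [← e] at h1
  apply h1
  apply hy
  have h2 := hκσ i
  have h3 := hκσ j
  have h4 := hm i j hij.le
  omega

lemma xa_inj {c d : F} (h : xa c = xa d) : c = d := by
  have h2 := congrArg (fun x : SLm 7 F => x.1 0 1) h
  exact h2

lemma xb_inj {c d : F} (h : xb c = xb d) : c = d := by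
  have h2 := congrArg (fun x : SLm 7 F => x.1 1 2) h
  have h3 : -c = -d := h2
  exact neg_injective h3

/-- root elements in the group -/
def XA (c : F) : ↥(G2 F) := ⟨xa c, xa_mem c⟩

/-- root elements in the group -/
def XB (c : F) : ↥(G2 F) := ⟨xb c, xb_mem c⟩

/-- torus elements in the group -/
def DG {p q : F} (hp : p ≠ 0) (hq : q ≠ 0) : ↥(G2 F) := ⟨dg hp hq, dg_mem hp hq⟩

/-- the opposite short root group -/
lemma X_form_a {s n y : ↥(G2 F)} (hs : Mon s.1 ta) {σ : Equiv.Perm (Fin 8)} (hσ : Mon n.1 σ)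
    (hR : Rv σ) (hy : y ∈ Par (BH F) s) (hyU : n⁻¹ * y * n ∈ UH F) :
    ∃ c : F, y = n * XA c * n⁻¹ := by
  have h1 := pb_par ka_mono ka_ta hs (Or.inl hs) hy
  have h2 : (n⁻¹ * y * n).1 = xa _ := eq_xa (n⁻¹ * y * n).2 hyU
    (fun i j hij hne => blk_zero ka_mono hR.ka hσ h1 i j hij hne)
  have h3 : n⁻¹ * y * n = XA _ := Subtype.ext h2
  exact ⟨_, by rw [← h3]; group⟩

lemma X_form_b {s n y : ↥(G2 F)} (hs : Mon s.1 tb) {σ : Equiv.Perm (Fin 8)} (hσ : Mon n.1 σ)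
    (hR : Rv σ) (hy : y ∈ Par (BH F) s) (hyU : n⁻¹ * y * n ∈ UH F) :
    ∃ c : F, y = n * XB c * n⁻¹ := by
  have h1 := pb_par kb_mono kb_tb hs (Or.inr hs) hy
  have h2 : (n⁻¹ * y * n).1 = xb _ := eq_xb (n⁻¹ * y * n).2 hyU
    (fun i j hij hne => blk_zero kb_mono hR.kb hσ h1 i j hij hne)
  have h3 : n⁻¹ * y * n = XB _ := Subtype.ext h2
  exact ⟨_, by rw [← h3]; group⟩

lemma ta_inv : ta⁻¹ = ta := by decide

lemma tb_inv : tb⁻¹ = tb := by decide

lemma X_mem_a {s n : ↥(G2 F)} (hs : Mon s.1 ta) {σ : Equiv.Perm (Fin 8)} (hσ : Mon n.1 σ)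
    (hR : Rv σ) (c : F) : n * XA c * n⁻¹ ∈ Par (BH F) s ∧ n⁻¹ * (n * XA c * n⁻¹) * n ∈ UH F := by
  constructor
  · have h1 : s⁻¹ * (n * XA c * n⁻¹) * s ∈ BH F := by
      have h2 : Mon (s⁻¹ * n).1 (ta⁻¹ * σ) := mon_mul (mon_inv hs) hσ
      have h3 := up_conj_of (X := xa c) h2 fun i j hij => (xa_supp _ i j hij).imp id fun h => by
        rw [Equiv.Perm.mul_apply, Equiv.Perm.mul_apply, ta_inv]
        exact ta_Sa _ _ (hR.Sa i j h)
      have e : (s⁻¹ * (n * XA c * n⁻¹) * s : ↥(G2 F)) = (s⁻¹ * n) * XA c * (s⁻¹ * n)⁻¹ := by group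
      rw [e]
      exact h3
    have e : n * XA c * n⁻¹ = s * (s⁻¹ * (n * XA c * n⁻¹) * s) * s⁻¹ := by group
    rw [e]
    exact mul_mem (mul_mem self_mem_Par (le_Par h1)) (inv_mem self_mem_Par)
  · have e : n⁻¹ * (n * XA c * n⁻¹) * n = XA c := by group
    rw [e]
    exact xa_UU c

lemma X_mem_b {s n : ↥(G2 F)} (hs : Mon s.1 tb) {σ : Equiv.Perm (Fin 8)} (hσ : Mon n.1 σ)
    (hR : Rv σ) (c : F) : n * XB c * n⁻¹ ∈ Par (BH F) s ∧ n⁻¹ * (n * XB c * n⁻¹) * n ∈ UH F := by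
  constructor
  · have h1 : s⁻¹ * (n * XB c * n⁻¹) * s ∈ BH F := by
      have h2 : Mon (s⁻¹ * n).1 (tb⁻¹ * σ) := mon_mul (mon_inv hs) hσ
      have h3 := up_conj_of (X := xb c) h2 fun i j hij => (xb_supp _ i j hij).imp id fun h => by
        rw [Equiv.Perm.mul_apply, Equiv.Perm.mul_apply, tb_inv]
        exact tb_Sb _ _ (hR.Sb i j h)
      have e : (s⁻¹ * (n * XB c * n⁻¹) * s : ↥(G2 F)) = (s⁻¹ * n) * XB c * (s⁻¹ * n)⁻¹ := by group
      rw [e]
      exact h3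
    have e : n * XB c * n⁻¹ = s * (s⁻¹ * (n * XB c * n⁻¹) * s) * s⁻¹ := by group
    rw [e]
    exact mul_mem (mul_mem self_mem_Par (le_Par h1)) (inv_mem self_mem_Par)
  · have e : n⁻¹ * (n * XB c * n⁻¹) * n = XB c := by group
    rw [e]
    exact xb_UU c

omit [Finite F] in
lemma DG_XA {p q : F} (hp : p ≠ 0) (hq : q ≠ 0) (c : F) :
    DG hp hq * XA c * (DG hp hq)⁻¹ = XA (q * c) := by
  have h : DG hp hq * XA c = XA (q * c) * DG hp hq := Subtype.ext (dg_xa hp hq c)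
  rw [h]
  group

omit [Finite F] in
lemma DG_XB {p q : F} (hp : p ≠ 0) (hq : q ≠ 0) (c : F) :
    DG hp hq * XB c * (DG hp hq)⁻¹ = XB (p / q * c) := by
  have h : DG hp hq * XB c = XB (p / q * c) * DG hp hq := Subtype.ext (dg_xb hp hq c)
  rw [h]
  group

/-- **rigidity** -/
theorem g2_rigidBN {p : ℕ} [hp : Fact p.Prime] [CharP F p] (hsimple : IsSimpleGroup ↥(G2 F)) :
    RigidBN p (BH F) (NH F) (UH F) (SH F) := by
  refine (gSB (F := F) (p := p)).rigid_of_roots hsimple hp.out ?_ ?_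
  · intro x hx hxN y hy hyN
    have hM : ∀ {z : ↥(G2 F)}, z ∈ BH F → z ∈ NH F → Mon z.1 1 := by
      intro z hz hzN
      obtain ⟨τ, hτ⟩ := NH_mon hzN
      have := mon_up hτ hz
      rwa [this] at hτ
    exact Subtype.ext (Vale.Agent.P240.R2.H775.RG.diag_comm (hM hx hxN) (hM hy hyN))
  · intro n hn hopp f hfp hfT s hs hfX y hyP hyU
    obtain ⟨σ, hσ⟩ := NH_mon hn
    have hR := rv_of_opp hσ hopp
    have hT : ∀ {a b : F} (ha : a ≠ 0) (hb : b ≠ 0), f (n * DG ha hb * n⁻¹) =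
        n * DG ha hb * n⁻¹ := by
      intro a b ha hb
      have hM : Mon (n * DG ha hb * n⁻¹).1 1 := by
        have h1 : Mon (n * DG ha hb * n⁻¹).1 (σ * 1 * σ⁻¹) :=
          mon_mul (mon_mul hσ (dg_mon ha hb)) (mon_inv hσ)
        rwa [mul_one, mul_inv_cancel] at h1
      exact hfT _ (mem_T' hM) (mem_sup_right (mem_TH'.2 hM))
    rcases (show Sim s.1 from hs) with h | h
    · have key := Vale.Agent.P240.R2.H775.RG.lin_fix (K := F) (p := p)
        (fun c => n * XA c * n⁻¹) ?_ ?_ hfp ?_ ?_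
      · obtain ⟨c, rfl⟩ := X_form_a h hσ hR hyP hyU
        exact key c
      · intro c d hcd
        have h1 : XA c = XA d := mul_left_cancel (mul_right_cancel hcd)
        exact xa_inj (congrArg Subtype.val h1)
      · intro c d
        have h1 : XA (c + d) = XA c * XA d := Subtype.ext (xa_add c d)
        change n * XA (c + d) * n⁻¹ = n * XA c * n⁻¹ * (n * XA d * n⁻¹)
        rw [h1]
        group
      · intro c
        have h1 := X_mem_a h hσ hR c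
        have h2 := hfX _ h1.1 h1.2
        exact X_form_a h hσ hR h2.1 h2.2
      · intro a ha
        have ha2 : a ^ 2 ≠ 0 := pow_ne_zero 2 ha
        refine ⟨_, hT (one_ne_zero : (1 : F) ≠ 0) ha2, fun c => ?_⟩
        have h1 := DG_XA (one_ne_zero : (1 : F) ≠ 0) ha2 c
        change _ = n * XA (a ^ 2 * c) * n⁻¹
        rw [← h1]
        group
    · have key := Vale.Agent.P240.R2.H775.RG.lin_fix (K := F) (p := p)
        (fun c => n * XB c * n⁻¹) ?_ ?_ hfp ?_ ?_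
      · obtain ⟨c, rfl⟩ := X_form_b h hσ hR hyP hyU
        exact key c
      · intro c d hcd
        have h1 : XB c = XB d := mul_left_cancel (mul_right_cancel hcd)
        exact xb_inj (congrArg Subtype.val h1)
      · intro c d
        have h1 : XB (c + d) = XB c * XB d := Subtype.ext (xb_add c d)
        change n * XB (c + d) * n⁻¹ = n * XB c * n⁻¹ * (n * XB d * n⁻¹)
        rw [h1]
        group
      · intro c
        have h1 := X_mem_b h hσ hR c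
        have h2 := hfX _ h1.1 h1.2
        exact X_form_b h hσ hR h2.1 h2.2
      · intro a ha
        have ha2 : a ^ 2 ≠ 0 := pow_ne_zero 2 ha
        refine ⟨_, hT ha2 (one_ne_zero : (1 : F) ≠ 0), fun c => ?_⟩
        have h1 := DG_XB ha2 (one_ne_zero : (1 : F) ≠ 0) c
        rw [div_one] at h1
        change _ = n * XB (a ^ 2 * c) * n⁻¹
        rw [← h1]
        group

/-- **`G_2(F)` has a rigid BN-pair in the characteristic of `F`** -/
theorem g2_rigid {p : ℕ} [hp : Fact p.Prime] [CharP F p] (hs : IsSimpleGroup ↥(G2 F))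
    (hZ : ∀ x : ↥(G2 F), (∀ y, x * y = y * x) → x = 1) : RigidLie p ↥(G2 F) :=
  ⟨hs, hZ, _, _, _, _, g2_rigidBN hs⟩

end

end Vale.Agent.P240.R2.H38.Oct
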