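import Vale.Agent.P240.H195.BNFree
import Vale.Agent.P240.R2.H38.G7

/-!
The groups `G_2(F)`, part 8: the results for groups isomorphic to `G_2(F)`.
-/

set_option autoImplicit false
set_option linter.all false

namespace Vale.Agent.P240.R2.H38.Oct

open Subgroup Matrix Vale.Agent.P240.H195

section
variable {F : Type*} [Field F]

/-- the group is not abelian -/
lemma g2_nonab : ∃ x y : ↥(G2 F), x * y ≠ y * x := by
  refine ⟨XA 1, XB 1, fun h => ?_⟩
  have h1 : xa (1 : F) * xb 1 = xb 1 * xa 1 := congrArg Subtype.val h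
  have h2 := congrArg (fun A : SLm 7 F => (A.1 *ᵥ bs 2) 0) h1
  simp only [mul_mv, xa_mv, xb_mv] at h2
  simp [bs] at h2

/-- the centre is trivial if the group is simple -/
lemma g2_centre (hs : IsSimpleGroup ↥(G2 F)) : ∀ x : ↥(G2 F), (∀ y, x * y = y * x) → x = 1 := by
  intro x hx
  have h1 : x ∈ center ↥(G2 F) := mem_center_iff.2 fun y => (hx y).symm
  rcases hs.eq_bot_or_eq_top_of_normal (center ↥(G2 F)) inferInstance with h | h
  · rw [h] at h1
    exact mem_bot.1 h1
  · exfalso
    obtain ⟨a, b, hab⟩ := g2_nonab (F := F)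
    have h2 : b ∈ center ↥(G2 F) := by rw [h]; exact mem_top b
    exact hab (mem_center_iff.1 h2 a)

variable {L : Type*} [Group L]

/-- groups as in `IsG2` are isomorphic to `G2 F` -/
theorem IsG2.iso (h : IsG2 F L) : Nonempty (↥(G2 F) ≃* L) := by
  obtain ⟨e⟩ := h
  exact ⟨(e.trans (MulEquiv.subgroupCongr (closure_eq_G2 F))).symm⟩

variable [Finite F]

/-- **Lie type**: `G_2(F)`, every finite field `F` of characteristic `p` -/
theorem IsG2.lie {p : ℕ} [hp : Fact p.Prime] [CharP F p] (h : IsG2 F L) (hs : IsSimpleGroup L) :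
    LieType p L := by
  obtain ⟨e⟩ := h.iso
  have h1 : IsSimpleGroup ↥(G2 F) := e.isSimpleGroup
  exact LieType.tr e (g2_lie (p := p) h1 (g2_centre h1))

/-- **Rigidity**: `G_2(F)`, every finite field `F` of characteristic `p` -/
theorem IsG2.rigid {p : ℕ} [hp : Fact p.Prime] [CharP F p] (h : IsG2 F L) (hs : IsSimpleGroup L) :
    RigidLie p L := by
  obtain ⟨e⟩ := h.iso
  have h1 : IsSimpleGroup ↥(G2 F) := e.isSimpleGroup
  exact RigidLie.tr e (g2_rigid (p := p) h1 (g2_centre h1))

/-- `AutFree` in the other characteristics -/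
theorem IsG2.autFree {r p : ℕ} (hr : r.Prime) [CharP F r] (hp : p.Prime) (hpr : p ≠ r)
    (h : IsG2 F L) (hs : IsSimpleGroup L) : AutFree p r L := by
  have : Fact r.Prime := ⟨hr⟩
  obtain ⟨e⟩ := h.iso
  have : Finite ↥(G2 F) := inferInstance
  have : Finite L := Finite.of_equiv _ e.toEquiv
  exact (h.lie (p := r) hs).autFree hr hp hpr

end

end Vale.Agent.P240.R2.H38.Oct
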