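import Vale.Agent.P240.R2.H38.G2Defs
import Mathlib.Tactic.FinCases
import Mathlib.Tactic.Ring

/-!
The groups `G_2(F)`: automorphisms of the split octonions, written as Zorn's vector matrices.
-/

set_option autoImplicit false

namespace Vale.Agent.P240.R2.H38.Oct

open Matrix

/-- `G_2(F)`: the matrices of determinant `1` that preserve the product of the split octonions. -/
def G2 (F : Type*) [Field F] : Subgroup (Matrix.SpecialLinearGroup (Fin 8) F) where
  carrier := {A | ∀ x y : Fin 8 → F, A.1 *ᵥ zmul x y = zmul (A.1 *ᵥ x) (A.1 *ᵥ y)}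
  one_mem' := by
    intro x y
    rw [SpecialLinearGroup.coe_one, one_mulVec, one_mulVec, one_mulVec]
  mul_mem' := by
    intro A B hA hB x y
    rw [SpecialLinearGroup.coe_mul, ← mulVec_mulVec, ← mulVec_mulVec, ← mulVec_mulVec, hB, hA]
  inv_mem' := by
    intro A hA x y
    have h1 : ∀ z : Fin 8 → F, A.1 *ᵥ ((A⁻¹).1 *ᵥ z) = z := by
      intro z
      rw [mulVec_mulVec, ← SpecialLinearGroup.coe_mul, mul_inv_cancel, SpecialLinearGroup.coe_one,
        one_mulVec]
    have h2 : ∀ z : Fin 8 → F, (A⁻¹).1 *ᵥ (A.1 *ᵥ z) = z := by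
      intro z
      rw [mulVec_mulVec, ← SpecialLinearGroup.coe_mul, inv_mul_cancel, SpecialLinearGroup.coe_one,
        one_mulVec]
    have h3 := hA ((A⁻¹).1 *ᵥ x) ((A⁻¹).1 *ᵥ y)
    rw [h1, h1] at h3
    rw [← h3, h2]

/-- `G_2(F)` is the group named in `IsG2` -/
lemma closure_eq_G2 (F : Type*) [Field F] :
    Subgroup.closure {A : SpecialLinearGroup (Fin 8) F |
      ∀ x y : Fin 8 → F, A.1 *ᵥ zmul x y = zmul (A.1 *ᵥ x) (A.1 *ᵥ y)} = G2 F :=
  Subgroup.closure_eq (G2 F)

end Vale.Agent.P240.R2.H38.Oct
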