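import Vale.Agent.P240.R2.H38.D10
import Vale.Agent.P240.R2.H727.O5

/-!
Orthogonal groups of minus type in the coordinates of the quadratic extension: elimination.
-/

set_option autoImplicit false
set_option linter.all false

namespace Vale.Agent.P240.R2.H38.TT

open Subgroup Matrix Vale.Agent.P240.H195 Vale.Agent.P240.R2.H38.DD Vale.Agent.P240.R2.H727

section
variable {K : Type*} [Field K] {r : ℕ} {σ : K ≃+* K}

/-- the group generated by the root elements -/
def ER (r : ℕ) {K : Type*} [Field K] (σ : K ≃+* K) : Subgroup (SLm (2 * r + 1) K) :=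
  closure ({x | ∃ (a b : Fin (2 * r + 1 + 1)) (h : O.Lg a b) (c : K), σ c = c ∧ x = O.xe h c} ∪
    {x | ∃ (p : Fin (2 * r + 1 + 1)) (h : O.Sh p) (a : K), x = O.ye σ h a})

lemma xe_ER {a b : VI r} (h : O.Lg a b) {c : K} (hc : σ c = c) : O.xe h c ∈ ER r σ :=
  subset_closure (Or.inl ⟨a, b, h, c, hc, rfl⟩)

lemma ye_ER {p : VI r} (h : O.Sh p) (a : K) : O.ye σ h a ∈ ER r σ :=
  subset_closure (Or.inr ⟨p, h, a, rfl⟩)

variable [Finite K]

lemma gm_sod {A : SLm (2 * r + 1) K} (hA : A ∈ O.GM r σ) : A ∈ SOD r K := hA.1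

lemma ER_le (hσ : ∀ x, σ (σ x) = x) : ER r σ ≤ O.GM r σ := by
  unfold ER
  rw [closure_le]
  rintro x (⟨a, b, h, c, hc, rfl⟩ | ⟨p, h, a, rfl⟩)
  · exact O.xe_gm h hc
  · exact O.ye_gm hσ h a

lemma xe_eq {a b : VI r} (h : O.Lg a b) (c : K) : O.xe h c = xr a b c := by
  rw [xr_def h.ne]
  rfl

lemma lg_ne' {a b : VI r} (h : O.Lg a b) : a ≠ Fin.rev b :=
  fun h1 => h.ne' (by rw [h1, Fin.rev_rev])

lemma ye_mul_apply {p : VI r} (h : O.Sh p) (a : K) (M : SLm (2 * r + 1) K) (i j : VI r) :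
    (O.ye σ h a * M).1 i j = M.1 i j + (if i = O.ma r then -σ a * M.1 (Fin.rev p) j else 0) +
      (if i = O.mb r then -a * M.1 (Fin.rev p) j else 0) +
      (if i = p then a * M.1 (O.ma r) j + σ a * M.1 (O.mb r) j -
        a * σ a * M.1 (Fin.rev p) j else 0) := by
  have h1 := congrFun (O.ye_vec σ h a (fun l => M.1 l j)) i
  have h2 : (O.ye σ h a * M).1 i j = ((O.ye σ h a).1 *ᵥ (fun l => M.1 l j)) i := by
    rw [sl_mul]
    rfl
  rw [h2, h1, O.ad_apply, O.ad_apply, O.ad_apply]

/-- entries of the columns that are not in the middle -/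
lemma col_fix {M : SLm (2 * r + 1) K} (hM : M ∈ O.GM r σ) {i c : VI r} (hi : O.Sh i)
    (hc : O.Sh c) : σ (M.1 i c) = M.1 i c := by
  have := hM.2 i c
  rw [O.PP_ne hi.a hi.b, O.PP_ne hc.a hc.b] at this
  exact this.symm

lemma col_mid {M : SLm (2 * r + 1) K} (hM : M ∈ O.GM r σ) {c : VI r}
    (hc : O.Sh c) : M.1 (O.mb r) c = σ (M.1 (O.ma r) c) := by
  have := hM.2 (O.ma r) c
  rwa [O.PP_ma, O.PP_ne hc.a hc.b] at this

/-- clearing the middle entries of a column -/
lemma clear_mid (hσ : ∀ x, σ (σ x) = x) {P : Set (VI r)} (hPs : ∀ j ∈ P, O.Sh j) {c : VI r}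
    (hc : O.Sh c) (hcP : c ∉ P) {M : SLm (2 * r + 1) K} (hM : M ∈ O.GM r σ)
    (hP : ∀ j ∈ P, Dg M j) (h0 : M.1 c c ≠ 0) :
    ∃ e ∈ ER r σ, (∀ j ∈ P, Dg (e * M) j) ∧ (e * M).1 c c ≠ 0 ∧ (e * M).1 (O.ma r) c = 0 ∧
      (e * M).1 (O.mb r) c = 0 := by
  have hcc := col_fix hM hc hc
  have hent := ye_mul_apply (σ := σ) hc.rev (σ (M.1 (O.ma r) c / M.1 c c)) M
  rw [Fin.rev_rev] at hent
  have hrc := rv_ne c
  refine ⟨O.ye σ hc.rev (σ (M.1 (O.ma r) c / M.1 c c)), ye_ER _ _, ?_, ?_, ?_, ?_⟩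
  · intro j hj i hi
    have hjc : c ≠ j := by rintro rfl; exact hcP hj
    rw [hent, hP j hj i hi, hP j hj c hjc, hP j hj _ (hPs j hj).a.symm,
      hP j hj _ (hPs j hj).b.symm]
    simp
  · rw [hent, if_neg hc.a, if_neg hc.b, if_neg hrc.symm, add_zero, add_zero, add_zero]
    exact h0
  · rw [hent, if_pos rfl, if_neg O.mab, if_neg hc.rev.a.symm, hσ, add_zero, add_zero]
    field_simp
    ring
  · rw [hent, if_pos rfl, if_neg O.mab.symm, if_neg hc.rev.b.symm, map_div₀, hcc,
      ← col_mid hM hc, add_zero, add_zero]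
    field_simp
    ring

/-- clearing a column -/
lemma clearT (hσ : ∀ x, σ (σ x) = x) {P : Set (VI r)} (hPs : ∀ j ∈ P, O.Sh j) {c : VI r}
    (hc : O.Sh c) : ∀ t : ℕ, ∀ M : SLm (2 * r + 1) K, M ∈ O.GM r σ →
    (∀ j ∈ P, Dg M j) → M.1 c c ≠ 0 → M.1 (O.ma r) c = 0 → M.1 (O.mb r) c = 0 →
    (∀ i, i ≠ c → i ≠ Fin.rev c → t ≤ i.val → M.1 i c = 0) →
    ∃ e ∈ ER r σ, (∀ j ∈ P, Dg (e * M) j) ∧ Dg (e * M) c := by
  intro t
  induction t with
  | zero =>
    intro M hM hP h0 hma hmb h
    refine ⟨1, one_mem _, by rwa [one_mul], ?_⟩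
    rw [one_mul]
    intro i hi
    by_cases hi' : i = Fin.rev c
    · have h8 := C2 (gm_sod hM) c
      rw [HS_single c] at h8
      · rw [hi']
        exact (mul_eq_zero.1 h8).resolve_left h0
      · intro l hl hl'
        rw [h l hl hl' (Nat.zero_le _), zero_mul]
      · rw [Fin.rev_rev, mul_comm]
    · exact h i hi hi' (Nat.zero_le _)
  | succ t ih =>
    intro M hM hP h0 hma hmb h
    by_cases ht : ∃ a : VI r, a.val = t ∧ a ≠ c ∧ a ≠ Fin.rev c ∧ M.1 a c ≠ 0
    · obtain ⟨a, hat, hac, hac', hM0⟩ := ht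
      have haS : O.Sh a := ⟨by rintro rfl; exact hM0 hma, by rintro rfl; exact hM0 hmb⟩
      have hlg : O.Lg a c := ⟨hac, fun h1 => hac' (by rw [h1, Fin.rev_rev]), haS.a, haS.b, hc.a, hc.b⟩
      have hfix : σ (-(M.1 a c / M.1 c c)) = -(M.1 a c / M.1 c c) := by
        rw [map_neg, map_div₀, col_fix hM haS hc, col_fix hM hc hc]
      have hent := xr_mul_apply hac hac' M (-(M.1 a c / M.1 c c))
      rw [← xe_eq hlg] at hent
      have hcc : c ≠ Fin.rev c := (rv_ne c).symm
      obtain ⟨e, he, h1, h2⟩ := ih (O.xe hlg (-(M.1 a c / M.1 c c)) * M)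
        (mul_mem (O.xe_gm hlg hfix) hM) (by
          intro j hj i hij
          have hjc : j ≠ c := by
            rintro rfl
            exact hM0 (hP j hj a hac)
          rw [hent, hP j hj i hij, hP j hj c (Ne.symm hjc), mul_zero]
          have h3 : Fin.rev a ≠ j := by
            intro h4
            apply hM0
            have h5 := Dg_row (gm_sod hM) (hP j hj) (c := c) (by rw [← h4, Fin.rev_rev]; exact hac)
            rwa [← h4, Fin.rev_rev] at h5
          rw [hP j hj _ h3, mul_zero]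
          simp) (by
          rw [hent, if_neg hac.symm, if_neg hcc, add_zero, add_zero]
          exact h0) (by
          rw [hent, if_neg haS.a.symm, if_neg hc.rev.a.symm, add_zero, add_zero]
          exact hma) (by
          rw [hent, if_neg haS.b.symm, if_neg hc.rev.b.symm, add_zero, add_zero]
          exact hmb) (by
          intro i hi hi' hti
          rw [hent, if_neg hi', add_zero]
          rcases Nat.eq_or_lt_of_le hti with h4 | h4
          · have : i = a := Fin.ext (by omega)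
            rw [this, if_pos rfl]
            field_simp
            ring
          · have : i ≠ a := by
              rintro rfl
              omega
            rw [if_neg this, add_zero, h i hi hi' h4])
      exact ⟨e * O.xe hlg (-(M.1 a c / M.1 c c)), mul_mem he (xe_ER hlg hfix),
        by rw [mul_assoc]; exact h1, by rw [mul_assoc]; exact h2⟩
    · refine ih M hM hP h0 hma hmb fun i hi hi' hti => ?_
      rcases Nat.eq_or_lt_of_le hti with h4 | h4
      · by_contra hne
        exact ht ⟨i, h4.symm, hi, hi', hne⟩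
      · exact h i hi hi' h4

lemma pivotT (hσ : ∀ x, σ (σ x) = x) {P : Set (VI r)} (hPs : ∀ j ∈ P, O.Sh j)
    (hPr : ∀ j ∈ P, Fin.rev j ∈ P) {c : VI r} (hc : O.Sh c) (hcP : c ∉ P)
    {M : SLm (2 * r + 1) K} (hM : M ∈ O.GM r σ) (hP : ∀ j ∈ P, Dg M j) :
    ∃ e ∈ ER r σ, (∀ j ∈ P, Dg (e * M) j) ∧ (e * M).1 c c ≠ 0 := by
  have hrP : Fin.rev c ∉ P := by
    intro h1
    have h2 := hPr _ h1
    rw [Fin.rev_rev] at h2
    exact hcP h2
  by_cases h0 : M.1 c c = 0
  · by_cases h1 : ∃ i, i ≠ c ∧ i ≠ Fin.rev c ∧ O.Sh i ∧ M.1 i c ≠ 0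
    · obtain ⟨i, hic, hic', hiS, hi⟩ := h1
      have hci' : c ≠ Fin.rev i := fun h => hic' (by rw [h, Fin.rev_rev])
      have hlg : O.Lg c i := ⟨hic.symm, hic', hc.a, hc.b, hiS.a, hiS.b⟩
      have hiP : i ∉ P := by
        intro h1
        have h2 := Dg_row (gm_sod hM) (hP _ (hPr i h1)) (c := c) (by rw [Fin.rev_rev]; exact hic)
        rw [Fin.rev_rev] at h2
        exact hi h2
      have hent := xr_mul_apply hic.symm hci' M 1
      rw [← xe_eq hlg] at hent
      refine ⟨O.xe hlg 1, xe_ER hlg (map_one σ), ?_, ?_⟩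
      · intro j hj l hl
        have h1 : i ≠ j := by rintro rfl; exact hiP hj
        have h2 : Fin.rev c ≠ j := by rintro rfl; exact hrP hj
        rw [hent, hP j hj l hl, hP j hj i h1, hP j hj _ h2]
        simp
      · rw [hent, h0, if_pos rfl, if_neg hci', zero_add, add_zero, one_mul]
        exact hi
    · push Not at h1
      -- the middle entries vanish
      have hq : M.1 (O.ma r) c * M.1 (O.mb r) c = 0 := by
        have h8 := C2 (gm_sod hM) c
        rw [HS_single (O.ma r), O.rev_ma] at h8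
        · exact h8
        · intro l hl hl'
          rw [O.rev_ma] at hl'
          by_cases hlc : l = c
          · rw [hlc, h0, zero_mul]
          · by_cases hlc' : l = Fin.rev c
            · rw [hlc', Fin.rev_rev, h0, mul_zero]
            · rw [h1 l hlc hlc' ⟨hl, hl'⟩, zero_mul]
        · rw [Fin.rev_rev, mul_comm]
      have hmid := col_mid hM hc
      have hma : M.1 (O.ma r) c = 0 := by
        rcases mul_eq_zero.1 hq with h2 | h2
        · exact h2
        · rw [hmid] at h2
          exact (map_eq_zero_iff σ σ.injective).1 h2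
      have hmb : M.1 (O.mb r) c = 0 := by rw [hmid, hma, map_zero]
      have hr0 : M.1 (Fin.rev c) c ≠ 0 := by
        intro h2
        have hcol : ∀ i, M.1 i c = 0 := by
          intro i
          by_cases hi : i = c
          · rw [hi, h0]
          · by_cases hi' : i = Fin.rev c
            · rw [hi', h2]
            · by_cases hia : i = O.ma r
              · rw [hia, hma]
              · by_cases hib : i = O.mb r
                · rw [hib, hmb]
                · exact h1 i hi hi' ⟨hia, hib⟩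
        have hdet := M.2
        rw [Matrix.det_eq_zero_of_column_eq_zero c hcol] at hdet
        exact zero_ne_one hdet
      have hent := ye_mul_apply (σ := σ) hc 1 M
      refine ⟨O.ye σ hc 1, ye_ER hc 1, ?_, ?_⟩
      · intro j hj l hl
        have h3 : Fin.rev c ≠ j := by rintro rfl; exact hrP hj
        rw [hent, hP j hj l hl, hP j hj _ h3, hP j hj _ (hPs j hj).a.symm,
          hP j hj _ (hPs j hj).b.symm]
        simp
      · rw [hent, if_neg hc.a, if_neg hc.b, if_pos rfl, h0, hma, hmb, map_one]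
        simpa using hr0
  · exact ⟨1, one_mem _, by rwa [one_mul], by rwa [one_mul]⟩

lemma elim_stepT (hσ : ∀ x, σ (σ x) = x) : ∀ j : ℕ, j ≤ r → ∀ M ∈ O.GM r σ, ∃ e ∈ ER r σ,
    ∀ c : VI r, (c.val < j ∨ (Fin.rev c).val < j) → Dg (e * M) c := by
  intro j
  induction j with
  | zero =>
    intro _ M _
    refine ⟨1, one_mem _, fun c hc => ?_⟩
    omega
  | succ j ih =>
    intro hj M hM
    obtain ⟨e0, he0, h0⟩ := ih (by omega) M hM
    set P : Set (VI r) := {c | c.val < j ∨ (Fin.rev c).val < j} with hPdef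
    have hPr : ∀ c ∈ P, Fin.rev c ∈ P := by
      rintro c (hc | hc)
      · right
        rw [Fin.rev_rev]
        exact hc
      · exact Or.inl hc
    have hsh : ∀ c : VI r, (c.val < r ∨ (Fin.rev c).val < r) → O.Sh c := by
      intro c hc
      have hrc := rv_val c
      constructor
      · rintro rfl
        rw [O.ma_val] at hc hrc
        omega
      · rintro rfl
        rw [O.mb_val] at hc hrc
        omega
    have hPs : ∀ c ∈ P, O.Sh c := by
      rintro c (hc | hc)
      · exact hsh c (Or.inl (by omega))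
      · exact hsh c (Or.inr (by omega))
    obtain ⟨c, hc⟩ : ∃ c : VI r, c.val = j := ⟨⟨j, by omega⟩, rfl⟩
    have hrc := rv_val c
    have hcS : O.Sh c := hsh c (Or.inl (by omega))
    have hcP : c ∉ P := by
      rintro (h1 | h1) <;> omega
    have hrcP : Fin.rev c ∉ P := fun h => hcP (by have := hPr _ h; rwa [Fin.rev_rev] at this)
    have hle := ER_le (r := r) hσ
    have hM0 : e0 * M ∈ O.GM r σ := mul_mem (hle he0) hM
    obtain ⟨e1, he1, h1, h2⟩ := pivotT hσ hPs hPr hcS hcP hM0 h0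
    have hM1 : e1 * (e0 * M) ∈ O.GM r σ := mul_mem (hle he1) hM0
    obtain ⟨e1', he1', h1', h2', hma, hmb⟩ := clear_mid hσ hPs hcS hcP hM1 h1 h2
    have hM1' : e1' * (e1 * (e0 * M)) ∈ O.GM r σ := mul_mem (hle he1') hM1
    obtain ⟨e2, he2, h3, h4⟩ := clearT hσ hPs hcS (2 * r + 1 + 1) _ hM1' h1' h2' hma hmb
      (fun i _ _ hi => absurd i.2 (by omega))
    have hM2 : e2 * (e1' * (e1 * (e0 * M))) ∈ O.GM r σ := mul_mem (hle he2) hM1'
    have h5 : (e2 * (e1' * (e1 * (e0 * M)))).1 (Fin.rev c) (Fin.rev c) ≠ 0 := by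
      have h6 := C1 (gm_sod hM2) c (Fin.rev c)
      rw [if_pos rfl, Finset.sum_eq_single c] at h6
      · exact right_ne_zero_of_mul (h6 ▸ one_ne_zero)
      · intro l _ hl
        rw [h4 l hl, zero_mul]
      · exact fun h => absurd (Finset.mem_univ _) h
    have hPs' : ∀ j ∈ P ∪ {c}, O.Sh j := by
      rintro j (hj | hj)
      · exact hPs j hj
      · rw [Set.mem_singleton_iff] at hj
        rw [hj]
        exact hcS
    have hrc' : Fin.rev c ∉ P ∪ {c} := by
      rintro (h | h)
      · exact hrcP h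
      · exact rv_ne c h
    obtain ⟨e3', he3', h6', h7', hma', hmb'⟩ := clear_mid hσ (P := P ∪ {c}) hPs' hcS.rev hrc' hM2 (by
      rintro j (hj | hj)
      · exact h3 j hj
      · rw [Set.mem_singleton_iff] at hj
        rw [hj]
        exact h4) h5
    have hM3 : e3' * (e2 * (e1' * (e1 * (e0 * M)))) ∈ O.GM r σ := mul_mem (hle he3') hM2
    obtain ⟨e3, he3, h6, h7⟩ := clearT hσ (P := P ∪ {c}) hPs' hcS.rev (2 * r + 1 + 1) _ hM3 h6' h7'
      hma' hmb' (fun i _ _ hi => absurd i.2 (by omega))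
    refine ⟨e3 * (e3' * (e2 * (e1' * (e1 * e0)))),
      mul_mem he3 (mul_mem he3' (mul_mem he2 (mul_mem he1' (mul_mem he1 he0)))), fun d hd => ?_⟩
    have e : e3 * (e3' * (e2 * (e1' * (e1 * e0)))) * M =
      e3 * (e3' * (e2 * (e1' * (e1 * (e0 * M))))) := by group
    rw [e]
    by_cases hdP : d ∈ P
    · exact h6 d (Or.inl hdP)
    · have hdP' : ¬ (d.val < j ∨ (Fin.rev d).val < j) := hdP
      have hrd := rv_val d
      by_cases hdc : d = c
      · exact h6 d (Or.inr hdc)
      · have : d = Fin.rev c := by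
          apply Fin.ext
          have h8 : d.val ≠ c.val := fun h => hdc (Fin.ext h)
          omega
        rw [this]
        exact h7

end

end Vale.Agent.P240.R2.H38.TT
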