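import Vale.Agent.P240.R2.H38.T1

/-!
Orthogonal groups of minus type in the coordinates of the quadratic extension: elimination, the last
step.
-/

set_option autoImplicit false
set_option linter.all false

namespace Vale.Agent.P240.R2.H38.TT

open Subgroup Matrix Vale.Agent.P240.H195 Vale.Agent.P240.R2.H38.DD Vale.Agent.P240.R2.H727

section
variable {F : Type*} [Field F] {k : ℕ}

/-- an isometry all of whose columns outside the middle are diagonal is monomial -/
theorem mid_mon {M : SLm (2 * k + 1) F} (hM : M ∈ SOD k F)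
    (hne : ∀ c : VI k, c ≠ c0 k → c ≠ c1 k → Dg M c) : Mon M 1 ∨ Mon M (pp k) := by
  have hrow : ∀ c i : VI k, i ≠ c0 k → i ≠ c1 k → i ≠ c → M.1 i c = 0 := by
    intro c i h0 h1 hic
    have h2 : Fin.rev i ≠ c0 k := fun h => h1 (by rw [← Fin.rev_rev i, h, rev_c0])
    have h3 : Fin.rev i ≠ c1 k := fun h => h0 (by rw [← Fin.rev_rev i, h, rev_c1])
    have h4 := Dg_row hM (hne _ h2 h3) (c := c) (by rw [Fin.rev_rev]; exact hic)
    rwa [Fin.rev_rev] at h4
  have hq0 : M.1 (c0 k) (c0 k) * M.1 (c1 k) (c0 k) = 0 := by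
    have h8 := C2 hM (c0 k)
    rw [HS_single (c0 k), rev_c0] at h8
    · exact h8
    · intro l hl hl'
      rw [rev_c0] at hl'
      rw [hrow _ l hl hl' hl, zero_mul]
    · rw [Fin.rev_rev, mul_comm]
  have hq1 : M.1 (c1 k) (c1 k) * M.1 (c0 k) (c1 k) = 0 := by
    have h8 := C2 hM (c1 k)
    rw [HS_single (c1 k), rev_c1] at h8
    · exact h8
    · intro l hl hl'
      rw [rev_c1] at hl'
      rw [hrow _ l hl' hl hl, zero_mul]
    · rw [Fin.rev_rev, mul_comm]
  have hb : M.1 (c0 k) (c0 k) * M.1 (c1 k) (c1 k) + M.1 (c1 k) (c0 k) * M.1 (c0 k) (c1 k) = 1 := by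
    have h8 := C1 hM (c0 k) (c1 k)
    rw [rev_c0, if_pos rfl, Finset.sum_eq_add (c0 k) (c1 k) c0_ne, rev_c0, rev_c1] at h8
    · exact h8
    · intro l _ hl
      rw [hrow _ l hl.1 hl.2 hl.1, zero_mul]
    · exact fun h => absurd (Finset.mem_univ _) h
    · exact fun h => absurd (Finset.mem_univ _) h
  by_cases h0 : M.1 (c0 k) (c0 k) = 0
  · right
    rw [h0, zero_mul, zero_add] at hb
    have h1 : M.1 (c0 k) (c1 k) ≠ 0 := right_ne_zero_of_mul (hb ▸ one_ne_zero)
    have h2 : M.1 (c1 k) (c1 k) = 0 := (mul_eq_zero.1 hq1).resolve_right h1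
    intro i j hij
    unfold pp
    by_cases hj0 : j = c0 k
    · rw [hj0] at hij ⊢
      rw [Equiv.swap_apply_left]
      by_contra hne'
      apply hij
      by_cases hi0 : i = c0 k
      · rw [hi0, h0]
      · exact hrow _ i hi0 hne' hi0
    · by_cases hj1 : j = c1 k
      · rw [hj1] at hij ⊢
        rw [Equiv.swap_apply_right]
        by_contra hne'
        apply hij
        by_cases hi1 : i = c1 k
        · rw [hi1, h2]
        · exact hrow _ i hne' hi1 hi1
      · rw [Equiv.swap_apply_of_ne_of_ne hj0 hj1]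
        by_contra hne'
        exact hij (hne j hj0 hj1 i hne')
  · left
    have h1 : M.1 (c1 k) (c0 k) = 0 := (mul_eq_zero.1 hq0).resolve_left h0
    rw [h1, zero_mul, add_zero] at hb
    have h2 : M.1 (c1 k) (c1 k) ≠ 0 := right_ne_zero_of_mul (hb ▸ one_ne_zero)
    have h3 : M.1 (c0 k) (c1 k) = 0 := (mul_eq_zero.1 hq1).resolve_left h2
    intro i j hij
    rw [Equiv.Perm.one_apply]
    by_contra hne'
    apply hij
    by_cases hj0 : j = c0 k
    · rw [hj0] at hne' ⊢
      by_cases hi1 : i = c1 k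
      · rw [hi1, h1]
      · exact hrow _ i hne' hi1 hne'
    · by_cases hj1 : j = c1 k
      · rw [hj1] at hne' ⊢
        by_cases hi0 : i = c0 k
        · rw [hi0, h3]
        · exact hrow _ i hi0 hne' hne'
      · exact hne j hj0 hj1 i hne'

end

section
variable {K : Type*} [Field K] [Finite K] {r : ℕ} {σ : K ≃+* K}

/-- **Elimination**: every element of `GM` is a product of root elements and a monomial element whose
permutation is `1` or the middle transposition -/
theorem elimT (hσ : ∀ x, σ (σ x) = x) {A : SLm (2 * r + 1) K} (hA : A ∈ O.GM r σ) :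
    ∃ e ∈ ER r σ, ∃ n ∈ O.GM r σ, (Mon n 1 ∨ Mon n (O.PP r)) ∧ A = e * n := by
  obtain ⟨e, he, h⟩ := elim_stepT hσ r le_rfl A hA
  have hM : e * A ∈ O.GM r σ := mul_mem (ER_le hσ he) hA
  refine ⟨e⁻¹, inv_mem he, e * A, hM, ?_, by group⟩
  refine mid_mon (gm_sod hM) fun c hc0 hc1 => ?_
  apply h
  have h1 : c.val ≠ r := fun h => hc0 (Fin.ext h)
  have h2 : c.val ≠ r + 1 := fun h => hc1 (Fin.ext h)
  have h3 := rv_val c
  omega

end

end Vale.Agent.P240.R2.H38.TT
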