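import Vale.Agent.P240.R2.H727.O6

/-!
Orthogonal groups of minus type in the coordinates of the quadratic extension: the diagram is
connected.
-/

set_option autoImplicit false
set_option linter.all false

namespace Vale.Agent.P240.R2.H38.TT

open Subgroup Matrix Vale.Agent.P240.H195 Vale.Agent.P240.R2.H727.O

section
variable {r : ℕ}

lemma ts_fix {i : ℕ} (h : i < r) (h' : i + 1 < r) :
    ts (i + 1) h' (ix i h : Fin (2 * r + 1 + 1)) = ix i h := by
  apply Fin.ext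
  by_cases h2 : i + 1 + 1 < r
  · rw [ts_val1 h' h2, ix_val]
    split_ifs <;> omega
  · rw [ts_val2 h' (by omega), ix_val]
    split_ifs <;> omega

lemma ts_mv {i : ℕ} (h : i < r) (h' : i + 1 < r) :
    ts i h (ix i h : Fin (2 * r + 1 + 1)) = iy i h := by
  apply Fin.ext
  rw [ts_val1 h h', ix_val, if_pos rfl, iy_val]

lemma ts_mv' {i : ℕ} (h : i < r) (h' : i + 1 < r) :
    (ts (i + 1) h' (iy i h : Fin (2 * r + 1 + 1))).val ≠ i + 1 := by
  by_cases h2 : i + 1 + 1 < r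
  · rw [ts_val1 h' h2, iy_val]
    split_ifs <;> omega
  · rw [ts_val2 h' (by omega), iy_val]
    split_ifs <;> omega

lemma ts_nc {i : ℕ} (h : i < r) (h' : i + 1 < r) :
    ts i h * ts (i + 1) h' ≠ ts (i + 1) h' * ts i h := by
  intro heq
  have h1 := congrArg (fun v : Equiv.Perm (Fin (2 * r + 1 + 1)) => (v (ix i h)).val) heq
  simp only [Equiv.Perm.mul_apply] at h1
  rw [ts_fix h h', ts_mv h h', iy_val] at h1
  exact ts_mv' h h' h1.symm

end

section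
variable {K : Type*} [Field K] [Finite K] {r : ℕ} {σ : K ≃+* K}

lemma exists_ts (hσ : ∀ x, σ (σ x) = x) {i : ℕ} (h : i < r) :
    ∃ s : ↥(EO r σ), s.1 ∈ SS' r σ ∧ Mon s.1 (ts i h) := by
  obtain ⟨A, hA, hm⟩ := ts_mon hσ h
  exact ⟨⟨A, mem_sup_right ((mem_NO σ).2 ⟨hA, _, ts_gp h, hm⟩)⟩, ⟨hA, i, h, hm⟩, hm⟩

/-- the split BN-pair with its connected diagram -/
theorem eo_Split {p : ℕ} [hp : Fact p.Prime] [CharP K p] (hr : 0 < r) (hσ : ∀ x, σ (σ x) = x) :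
    SplitBN p ((BO r σ).subgroupOf (EO r σ)) ((NO r σ).subgroupOf (EO r σ))
      ((UO r σ).subgroupOf (EO r σ)) {s : ↥(EO r σ) | (s : SLm (2 * r + 1) K) ∈ SS' r σ} where
  toSB := eo_SB hr hσ
  irr := by
    intro J hJ hne hne' hJB
    have hrep : ∀ {i : ℕ} {h : i < r} {s s' : ↥(EO r σ)}, s.1 ∈ SS' r σ → s'.1 ∈ SS' r σ →
        Mon s.1 (ts i h) → Mon s'.1 (ts i h) → s ∈ J → s' ∈ J := by
      intro i h s s' hsS hsS' hs hs' hsJ
      by_contra hcon
      apply hJB _ hsJ _ ⟨hsS', hcon⟩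
      have h1 : Mon (s.1⁻¹ * s'.1) ((ts i h)⁻¹ * ts i h) := mon_mul (mon_inv hs) hs'
      rw [inv_mul_cancel] at h1
      exact mem_inf.2 ⟨mem_BU.2 (mem_T' h1), mul_mem (inv_mem hsS.1) hsS'.1⟩
    let J' : ℕ → Prop := fun k => ∃ (hk : k < r) (s : ↥(EO r σ)), s.1 ∈ SS' r σ ∧
      Mon s.1 (ts k hk) ∧ s ∈ J
    obtain ⟨k, hk, hk'⟩ : ∃ k, k + 1 < r ∧ ¬ (J' k ↔ J' (k + 1)) := by
      by_contra hcon
      push Not at hcon
      have hall : ∀ k, k < r → (J' k ↔ J' 0) := by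
        intro k
        induction k with
        | zero => exact fun _ => Iff.rfl
        | succ k ih => exact fun hk => (hcon k hk).symm.trans (ih (by omega))
      obtain ⟨s, hs⟩ := hne
      have hsS := hJ hs
      obtain ⟨s', hs', hsJ'⟩ := hne'
      obtain ⟨i, hi, hm⟩ := (show s.1 ∈ SS' r σ from hsS).2
      obtain ⟨i', hi', hm'⟩ := (show s'.1 ∈ SS' r σ from hs').2
      have h1 : J' 0 := (hall i hi).1 ⟨hi, s, hsS, hm, hs⟩
      obtain ⟨hk, t, htS, ht, htJ⟩ := (hall i' hi').2 h1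
      exact hsJ' (hrep htS hs' ht hm' htJ)
    have hk1 : k < r := by omega
    obtain ⟨a, haS, ha⟩ := exists_ts hσ hk1
    obtain ⟨b, hbS, hb⟩ := exists_ts hσ hk
    have hcomm : ∀ {x y : ↥(EO r σ)} {w v : Equiv.Perm (Fin (2 * r + 1 + 1))}, Mon x.1 w →
        Mon y.1 v → w * v ≠ v * w → (y * x)⁻¹ * (x * y) ∉ (BO r σ).subgroupOf (EO r σ) := by
      intro x y w v hx hy hwv hcon
      have h1 : Mon ((y * x)⁻¹ * (x * y)).1 ((v * w)⁻¹ * (w * v)) :=
        mon_mul (mon_inv (mon_mul hy hx)) (mon_mul hx hy)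
      have h2 := mon_up h1 hcon.1
      rw [inv_mul_eq_one] at h2
      exact hwv h2.symm
    by_cases h1 : J' k
    · have h2 : ¬ J' (k + 1) := fun h2 => hk' (iff_of_true h1 h2)
      obtain ⟨hk3, s, hsS, hs, hsJ⟩ := h1
      exact ⟨a, hrep hsS haS hs ha hsJ, b, ⟨hbS, fun h3 => h2 ⟨hk, b, hbS, hb, h3⟩⟩,
        hcomm ha hb (ts_nc hk1 hk)⟩
    · have h2 : J' (k + 1) := by
        by_contra h2
        exact hk' (iff_of_false h1 h2)
      obtain ⟨hk3, s, hsS, hs, hsJ⟩ := h2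
      exact ⟨b, hrep hsS hbS hs hb hsJ, a, ⟨haS, fun h3 => h1 ⟨hk1, a, haS, ha, h3⟩⟩,
        hcomm hb ha (ts_nc hk1 hk).symm⟩

end

end Vale.Agent.P240.R2.H38.TT
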