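import Vale.Agent.P240.R2.H296.BNres
import Vale.Agent.P240.R2.H487.SubBN
import Vale.Agent.P240.R2.H38.D12

/-!
Quotients by the centre of normal subgroups of groups with a split BN-pair are of Lie type.
-/

set_option autoImplicit false
set_option linter.all false

namespace Vale.Agent.P240.R2.H38.TT

open Subgroup Vale.Agent.P240.H195 Vale.Agent.P240.R2.H38.DD

section
universe u
variable {L L' : Type u} [Group L] [Group L'] {B N U : Subgroup L} {S : Set L} {p : ℕ}

/-- the quotient by the centre -/
theorem split_centre [Finite L] (h : SplitBN p B N U S) (hp : p.Prime) :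
    SplitBN p (B.map (QuotientGroup.mk' (center L))) (N.map (QuotientGroup.mk' (center L)))
      (U.map (QuotientGroup.mk' (center L))) (QuotientGroup.mk' (center L) '' S) := by
  have hk : ∀ z ∈ (QuotientGroup.mk' (center L)).ker, z ∈ B ∧ z ∈ N := by
    intro z hz
    rw [QuotientGroup.ker_mk'] at hz
    exact Vale.Agent.P240.R2.H487.CG.center_le_T h.toSB hp
      fun g => (mem_center_iff.1 hz g).symm
  exact Vale.Agent.P240.R2.H296.BNres.split_map hp h (QuotientGroup.mk'_surjective _)
    (fun z hz => (hk z hz).1) (fun z hz => (hk z hz).2)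

/-- a group that is isomorphic to a normal subgroup containing `U`, modulo its centre -/
theorem lie_of_sub [Finite L] (h : SplitBN p B N U S) (hp : p.Prime) {H : Subgroup L}
    [hH : H.Normal] (hU : U ≤ H) (e : ↥H ≃* L') (hs : IsSimpleGroup (L' ⧸ center L'))
    (hZ : ∀ x : L' ⧸ center L', (∀ y, x * y = y * x) → x = 1) : LieType p (L' ⧸ center L') := by
  have h1 := Vale.Agent.P240.R2.H487.CG.SplitBN.subgroup h hU
  have h2 := split_centre h1 hp
  have e' := centreIso e
  have h3 : IsSimpleGroup (↥H ⧸ center ↥H) := e'.isSimpleGroup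
  exact LieType.tr e' ⟨h3, centreless_tr e'.symm hZ, _, _, _, _, h2⟩

end

end Vale.Agent.P240.R2.H38.TT
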