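import Vale.Agent.P240.R2.H38.T3
import Vale.Agent.P240.R2.H38.T4
import Vale.Agent.P240.R2.H775.RT3

/-!
Orthogonal groups of minus type in the coordinates of the quadratic extension: Lie type and rigidity
for normal subgroups that contain the root elements.
-/

set_option autoImplicit false
set_option linter.all false

namespace Vale.Agent.P240.R2.H38.TT

open Subgroup Matrix Vale.Agent.P240.H195 Vale.Agent.P240.R2.H38.DD Vale.Agent.P240.R2.H727

section
variable {r : ℕ}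

lemma ts_tau1 {i : ℕ} (h : i < r) (h1 : i + 1 < r) : O.ts i h = tau (⟨i, h⟩ : Fin r) := by
  ext u
  rw [O.ts_val1 h h1, tau_val]
  have := u.2
  dsimp only
  split_ifs <;> omega

lemma ts_tau2 {i : ℕ} (h : i < r) (h1 : i + 1 = r) :
    O.ts i h = tau (⟨i, h⟩ : Fin r) * (pp r * tau (⟨i, h⟩ : Fin r) * pp r) := by
  ext u
  rw [O.ts_val2 h h1, Vale.Agent.P240.R2.H775.RT.last_apply h1 u]
  have := u.2
  split_ifs <;> omega

end

section
universe u
variable {K : Type u} [Field K] [Finite K] {r : ℕ} {σ : K ≃+* K}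

/-- normal subgroups that contain the root elements and `U` -/
structure Ad (σ : K ≃+* K) (H : Subgroup (SLm (2 * r + 1) K)) : Prop where
  le : H ≤ O.GM r σ
  leE : H ≤ O.EO r σ
  U : O.UO r σ ≤ H
  conj : ∀ g ∈ O.EO r σ, ∀ x ∈ H, g * x * g⁻¹ ∈ H
  lr : ∀ (a b : VI r) (h : O.Lg a b) (c : K), σ c = c → O.xe h c ∈ H
  sr : ∀ (p : VI r) (h : O.Sh p) (a : K), O.ye σ h a ∈ H

variable {H : Subgroup (SLm (2 * r + 1) K)}

lemma Ad.normal (hA : Ad σ H) : (H.subgroupOf (O.EO r σ)).Normal :=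
  ⟨fun x hx g => hA.conj g.1 g.2 x.1 hx⟩

/-- **Lie type** -/
theorem Ad.lie (hA : Ad σ H) {p : ℕ} [hp : Fact p.Prime] [CharP K p] (hr : 0 < r)
    (hσ : ∀ x, σ (σ x) = x) {L' : Type u} [Group L'] (e : ↥H ≃* L')
    (hs : IsSimpleGroup (L' ⧸ center L'))
    (hZ : ∀ x : L' ⧸ center L', (∀ y, x * y = y * x) → x = 1) : LieType p (L' ⧸ center L') := by
  haveI := hA.normal
  exact lie_of_sub (eo_Split (p := p) hr hσ) hp.out (H := H.subgroupOf (O.EO r σ))
    (fun x hx => hA.U hx) ((subgroupOfEquivOfLe hA.leE).trans e) hs hZ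

/-- the split BN-pair -/
theorem Ad.sb (hA : Ad σ H) {p : ℕ} [hp : Fact p.Prime] [CharP K p] (hr : 0 < r)
    (hσ : ∀ x, σ (σ x) = x) :
    ∃ (N : Subgroup ↥H) (S : Set ↥H), (∀ s ∈ S, Vale.Agent.P240.R2.H775.RT.SimT s.1) ∧
      (∀ n ∈ N, ∃ τ, Mon n.1 τ) ∧ (∀ t : ↥H, Mon t.1 1 → t ∈ N) ∧
      SB p (BH H) N (UH H) S := by
  haveI := hA.normal
  have h1 := Vale.Agent.P240.R2.H487.CG.SB.subgroup (eo_Split (p := p) hr hσ).toSB
    (H := H.subgroupOf (O.EO r σ)) (fun x hx => hA.U hx)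
  have h2 := h1.tr (subgroupOfEquivOfLe hA.leE)
  refine ⟨tr (subgroupOfEquivOfLe hA.leE) (((O.NO r σ).subgroupOf (O.EO r σ)).subgroupOf
      (H.subgroupOf (O.EO r σ))), (subgroupOfEquivOfLe hA.leE).symm ⁻¹'
      (Vale.Agent.P240.R2.H487.CG.subS ((O.BO r σ).subgroupOf (O.EO r σ))
        ((O.NO r σ).subgroupOf (O.EO r σ)) {s : ↥(O.EO r σ) | s.1 ∈ O.SS' r σ}
        (H.subgroupOf (O.EO r σ))), ?_, ?_, ?_, ?_⟩
  rotate_left 3
  · have eB : tr (subgroupOfEquivOfLe hA.leE) (((O.BO r σ).subgroupOf (O.EO r σ)).subgroupOf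
        (H.subgroupOf (O.EO r σ))) = BH H := by
      ext x
      exact ⟨fun hx => hx.1, fun hx => mem_inf.2 ⟨hx, hA.le x.2⟩⟩
    have eU : tr (subgroupOfEquivOfLe hA.leE) (((O.UO r σ).subgroupOf (O.EO r σ)).subgroupOf
        (H.subgroupOf (O.EO r σ))) = UH H := by
      ext x
      exact ⟨fun hx => hx.1, fun hx => mem_inf.2 ⟨hx, hA.le x.2⟩⟩
    rw [eB, eU] at h2
    exact h2
  · rintro s ⟨hsN, a, ⟨haG, i, hi, ham⟩, has⟩
    have hs' : s.1 ∈ O.NO r σ := hsN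
    have has' : a.1⁻¹ * s.1 ∈ O.BO r σ := has
    have haN : a.1 ∈ O.NO r σ := (O.mem_NO σ).2 ⟨haG, _, O.ts_gp hi, ham⟩
    have h3 : Mon (a.1⁻¹ * s.1) 1 := O.BO_T has' (mul_mem (inv_mem haN) hs')
    have h4 : Mon (a.1 * (a.1⁻¹ * s.1)) (O.ts i hi * 1) := mon_mul ham h3
    rw [mul_inv_cancel_left, mul_one] at h4
    by_cases h5 : i + 1 < r
    · exact ⟨⟨i, hi⟩, Or.inl ⟨h5, by rw [← ts_tau1 hi h5]; exact h4⟩⟩
    · have h6 : i + 1 = r := by omega
      exact ⟨⟨i, hi⟩, Or.inr ⟨h6, by rw [← ts_tau2 hi h6]; exact h4⟩⟩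
  · rintro n hn
    have hn' : n.1 ∈ O.NO r σ := hn
    obtain ⟨-, w, -, hm⟩ := (O.mem_NO σ).1 hn'
    exact ⟨w, hm⟩
  · intro t ht
    change t.1 ∈ O.NO r σ
    exact (O.mem_NO σ).2 ⟨hA.le t.2, 1, O.Gp.one, ht⟩

lemma Ad.good (hA : Ad σ H) : Vale.Agent.P240.R2.H775.RT.GoodT r σ H where
  le := fun x hx => (hA.le hx).1
  fix := fun A hx i j => (hA.le hx).2 i j
  lr := by
    intro a b hab hab' ha hb t ht
    have hlg : O.Lg a b := ⟨hab, fun h1 => hab' (by rw [h1, Fin.rev_rev]), fun h => ha (Or.inl h),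
      fun h => ha (Or.inr h), fun h => hb (Or.inl h), fun h => hb (Or.inr h)⟩
    have := hA.lr a b hlg t ht
    have e : O.xe hlg t = xr a b t := by
      rw [xr_def hab]
      rfl
    rwa [e] at this
  sr := by
    intro a ha t
    have hsh : O.Sh a := ⟨fun h => ha (Or.inl h), fun h => ha (Or.inr h)⟩
    have h1 := hA.sr a hsh t
    have e : O.ye σ hsh t = xr a (c0 r) t * xr a (c1 r) (σ t) := by
      have ha0 : a ≠ c0 r := hsh.a
      have ha1 : a ≠ Fin.rev (c0 r) := by rw [rev_c0]; exact hsh.b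
      refine sl_ext fun i j => ?_
      rw [← rev_c0, Vale.Agent.P240.R2.H775.RT.ys_apply ha0 ha1, O.ye_apply, rev_c0]
      have e0 : O.ma r = c0 r := rfl
      have e1 : O.mb r = c1 r := rfl
      rw [e0, e1]
      by_cases hi : i = a
      · subst hi
        have e2 : i ≠ c0 r := hsh.a
        have e3 : i ≠ c1 r := hsh.b
        by_cases hj : j = c0 r
        · simp [e2, e3, hj]
          split_ifs <;> ring
        · by_cases hj1 : j = c1 r
          · simp [e2, e3, hj, hj1]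
            split_ifs <;> ring
          · simp [e2, e3, hj, hj1]
            split_ifs <;> ring
      · simp only [hi, false_and, if_false, add_zero]
        ring
    rwa [e] at h1

/-- **rigidity** -/
theorem Ad.rigid (hA : Ad σ H) {p : ℕ} [hp : Fact p.Prime] [CharP K p] (hr : 0 < r)
    (hσ : ∀ x, σ (σ x) = x) {L' : Type u} [Group L'] (e : ↥H ≃* L')
    (hs : IsSimpleGroup (L' ⧸ center L'))
    (hZ : ∀ x : L' ⧸ center L', (∀ y, x * y = y * x) → x = 1) : RigidLie p (L' ⧸ center L') := by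
  have e' := centreIso e
  have h3 : IsSimpleGroup (↥H ⧸ center ↥H) := e'.isSimpleGroup
  obtain ⟨N, S, hS, hN, hT, hSB⟩ := hA.sb (p := p) hr hσ
  exact RigidLie.tr e' ⟨h3, centreless_tr e'.symm hZ, _, _, _, _,
    Vale.Agent.P240.R2.H775.RT.dt_rigid hA.good hσ hS hN hT hSB h3⟩

end

end Vale.Agent.P240.R2.H38.TT
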