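import Vale.Agent.P240.R2.H38.T5

/-!
Orthogonal groups of minus type: the final names.
-/

set_option autoImplicit false
set_option linter.all false

namespace Vale.Agent.P240.R2.H38.TT

open Subgroup Matrix Vale.Agent.P240.H195 Vale.Agent.P240.R2.H38.DD Vale.Agent.P240.R2.H727
open scoped commutatorElement

section
universe u
variable {K : Type u} [Field K] [Finite K] {r : ℕ} {σ : K ≃+* K}

/-- The commutator subgroup of the group `GM r σ` of the isometries of determinant `1` of the form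
`x_0 x_(2r+1) + … + x_r x_(r+1)` over `K` that commute with the semilinear involution, modulo its
centre. -/
abbrev P2 (r : ℕ) {K : Type u} [Field K] [Finite K] (σ : K ≃+* K) : Type u :=
  ↥(commutator ↥(O.GM r σ)) ⧸ center ↥(commutator ↥(O.GM r σ))

/-- the commutator subgroup -/
noncomputable def comm2 : ↥⁅O.GM r σ, O.GM r σ⁆ ≃* ↥(commutator ↥(O.GM r σ)) :=
  (((commutator ↥(O.GM r σ)).equivMapOfInjective (O.GM r σ).subtype Subtype.val_injective).trans
    (MulEquiv.subgroupCongr (map_subtype_commutator (O.GM r σ)))).symm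

theorem p2_lie_of (hA : Ad σ ⁅O.GM r σ, O.GM r σ⁆) {p : ℕ} [hp : Fact p.Prime] [CharP K p]
    (hr : 0 < r) (hσ : ∀ x, σ (σ x) = x) (hs : IsSimpleGroup (P2 r σ))
    (hZ : ∀ x : P2 r σ, (∀ y, x * y = y * x) → x = 1) : LieType p (P2 r σ) :=
  hA.lie hr hσ comm2 hs hZ

theorem p2_rigid_of (hA : Ad σ ⁅O.GM r σ, O.GM r σ⁆) {p : ℕ} [hp : Fact p.Prime] [CharP K p]
    (hr : 0 < r) (hσ : ∀ x, σ (σ x) = x) (hs : IsSimpleGroup (P2 r σ))
    (hZ : ∀ x : P2 r σ, (∀ y, x * y = y * x) → x = 1) : RigidLie p (P2 r σ) :=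
  hA.rigid hr hσ comm2 hs hZ

end

end Vale.Agent.P240.R2.H38.TT
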