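import Vale.Agent.P240.R2.H727.O8
import Vale.Agent.P240.R2.H38.T6

/-!
Orthogonal groups of minus type: Lie type and rigidity.
-/

set_option autoImplicit false
set_option linter.all false

namespace Vale.Agent.P240.R2.H38.TT

open Subgroup Matrix Vale.Agent.P240.H195 Vale.Agent.P240.R2.H38.DD Vale.Agent.P240.R2.H727
open scoped commutatorElement

section
universe u
variable {K : Type u} [Field K] [Finite K] {r : ℕ} {σ : K ≃+* K}

theorem ad_comm (hσ : ∀ x, σ (σ x) = x) (hne : ∃ x, σ x ≠ x) : Ad σ ⁅O.GM r σ, O.GM r σ⁆ where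
  le := commutator_le_self _
  leE := O.comm_le hσ
  U := O.UO_le_comm hσ hne
  conj := by
    intro g hg x hx
    have h1 : g ∈ O.GM r σ := O.EO_le hg
    exact O.comm_conj h1 hx
  lr := fun a b h c hc => O.xe_comm_mem hσ hne h hc
  sr := fun p h a => O.ye_comm_mem hσ hne h a

/-- **Lie type**: the groups `PΩ⁻` in even dimension -/
theorem p2_lie {p : ℕ} [hp : Fact p.Prime] [CharP K p]
    (hr : 0 < r) (hσ : ∀ x, σ (σ x) = x) (hne : ∃ x, σ x ≠ x) (hs : IsSimpleGroup (P2 r σ))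
    (hZ : ∀ x : P2 r σ, (∀ y, x * y = y * x) → x = 1) : LieType p (P2 r σ) :=
  p2_lie_of (ad_comm hσ hne) hr hσ hs hZ

/-- **Rigidity**: the groups `PΩ⁻` in even dimension -/
theorem p2_rigid {p : ℕ} [hp : Fact p.Prime] [CharP K p]
    (hr : 0 < r) (hσ : ∀ x, σ (σ x) = x) (hne : ∃ x, σ x ≠ x) (hs : IsSimpleGroup (P2 r σ))
    (hZ : ∀ x : P2 r σ, (∀ y, x * y = y * x) → x = 1) : RigidLie p (P2 r σ) :=
  p2_rigid_of (ad_comm hσ hne) hr hσ hs hZ

end

end Vale.Agent.P240.R2.H38.TT
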