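import Vale.Agent.P240.R2.H38.UDefs

/-!
Basic facts on the elements `sW ζ c w` of `SU_n(q)`.
-/

set_option autoImplicit false
set_option linter.all false

namespace Vale.Agent.P240.R2.H38

open Matrix Vale.Agent.P240.R2.AS
open scoped Classical

universe u v

noncomputable section

/-- the numbers -/
structure Nums (K : Type u) [Field K] [Fintype K] [StarRing K] (p n : ℕ) (ζ c : K) : Prop where
  hn : 3 ≤ n
  pow : ζ ^ p = 1
  ne : ζ ≠ 1
  st : ζ * star ζ = 1
  cst : c * star c = 1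
  cn : c ^ n * ζ = 1

section
variable {K : Type u} [Field K] [Fintype K] [StarRing K] {n : ℕ}

omit [Fintype K] in
lemma ln_star (P : Ln K n) : star P.1 = P.1 := by
  obtain ⟨x, hx, h⟩ := P.2
  rw [h, star_eq_conjTranspose, conjTranspose_vecMulVec, star_star]

omit [Fintype K] in
lemma ln_mul (P : Ln K n) : P.1 * P.1 = P.1 := by
  obtain ⟨x, hx, h⟩ := P.2
  rw [h, vecMulVec_mul_vecMulVec, hx, one_smul]

omit [Fintype K] in
lemma ln_det (P : Ln K n) (ζ : K) : (1 + (ζ - 1) • P.1).det = ζ := by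
  obtain ⟨x, hx, h⟩ := P.2
  have h1 : (ζ - 1) • P.1 = replicateCol Unit ((ζ - 1) • x) * replicateRow Unit (star x) := by
    rw [h]
    ext i j
    simp [vecMulVec_apply, mul_apply, mul_assoc]
  rw [h1, det_one_add_replicateCol_mul_replicateRow]
  rw [dotProduct_smul, hx]
  simp

lemma sm_nil : sm ([] : List (Ln K n)) = 0 := rfl

lemma sm_cons (P : Ln K n) (w : List (Ln K n)) : sm (P :: w) = P.1 + sm w := by
  simp [sm]

lemma sm_append (v w : List (Ln K n)) : sm (v ++ w) = sm v + sm w := by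
  simp [sm]

omit [Fintype K] in
lemma orth_symm {P Q : Ln K n} (h : P.1 * Q.1 = 0) : Q.1 * P.1 = 0 := by
  have := congrArg star h
  rwa [star_mul, ln_star, ln_star, star_zero] at this

lemma mul_sm {P : Ln K n} {w : List (Ln K n)} (h : ∀ Q ∈ w, P.1 * Q.1 = 0) : P.1 * sm w = 0 := by
  induction w with
  | nil => simp [sm]
  | cons Q w ih =>
    rw [sm_cons, mul_add, h Q (by simp), ih fun R hR => h R (by simp [hR]), add_zero]

lemma sm_mul {P : Ln K n} {w : List (Ln K n)} (h : ∀ Q ∈ w, P.1 * Q.1 = 0) : sm w * P.1 = 0 := by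
  induction w with
  | nil => simp [sm]
  | cons Q w ih =>
    rw [sm_cons, add_mul, orth_symm (h Q (by simp)), ih fun R hR => h R (by simp [hR]), add_zero]

lemma star_sm (w : List (Ln K n)) : star (sm w) = sm w := by
  induction w with
  | nil => simp [sm]
  | cons Q w ih => rw [sm_cons, star_add, ih, ln_star]

lemma sm_mul_sm {v w : List (Ln K n)} (h : ∀ P ∈ v, ∀ Q ∈ w, P.1 * Q.1 = 0) : sm v * sm w = 0 := by
  induction v with
  | nil => simp [sm]
  | cons P v ih =>
    rw [sm_cons, add_mul, mul_sm (h P (by simp)), ih fun R hR => h R (by simp [hR]), add_zero]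

lemma sm_idem {w : List (Ln K n)} (h : Orth w) : sm w * sm w = sm w := by
  induction w with
  | nil => simp [sm]
  | cons P w ih =>
    have h1 := List.pairwise_cons.1 h
    rw [sm_cons, add_mul, mul_add, mul_add, mul_sm h1.1, sm_mul h1.1, ih h1.2, ln_mul, add_zero,
      zero_add]

omit [Fintype K] in
lemma one_add_mul {ζ : K} {P Q : Matrix (Fin n) (Fin n) K} (h : P * Q = 0) :
    (1 + (ζ - 1) • P) * (1 + (ζ - 1) • Q) = 1 + (ζ - 1) • (P + Q) := by
  rw [mul_add, add_mul, add_mul, one_mul, mul_one, one_mul, smul_mul_smul_comm, h, smul_zero,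
    smul_add]
  abel

lemma sM_append {ζ c : K} {v w : List (Ln K n)} (h : Orth (v ++ w)) :
    sM ζ c (v ++ w) = sM ζ c v * sM ζ c w := by
  have h1 := (List.pairwise_append.1 h).2.2
  rw [sM, sM, sM, smul_mul_smul_comm, one_add_mul (sm_mul_sm h1), sm_append, List.length_append,
    pow_add]

lemma sM_nil {ζ c : K} : sM ζ c ([] : List (Ln K n)) = 1 := by
  simp [sM, sm]

lemma sM_det {p : ℕ} {ζ c : K} (hN : Nums K p n ζ c) {w : List (Ln K n)} (h : Orth w) :
    (sM ζ c w).det = 1 := by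
  induction w with
  | nil => rw [sM_nil, det_one]
  | cons P w ih =>
    have h1 : P :: w = [P] ++ w := rfl
    rw [h1] at h ⊢
    rw [sM_append h, det_mul, ih (List.pairwise_append.1 h).2.1, mul_one, sM]
    have h2 : sm [P] = P.1 := by simp [sm]
    rw [h2, List.length_singleton, pow_one, det_smul, Fintype.card_fin, ln_det, hN.cn]

omit [Fintype K] in
lemma smul_unitary {c : K} (hc : c * star c = 1) {A : Matrix (Fin n) (Fin n) K}
    (hA : A ∈ Matrix.unitaryGroup (Fin n) K) : c • A ∈ Matrix.unitaryGroup (Fin n) K := by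
  rw [Matrix.mem_unitaryGroup_iff] at hA ⊢
  rw [star_smul, smul_mul_smul_comm, hA, hc, one_smul]

lemma sM_unitary {p : ℕ} {ζ c : K} (hN : Nums K p n ζ c) {w : List (Ln K n)} (h : Orth w) :
    sM ζ c w ∈ Matrix.unitaryGroup (Fin n) K := by
  refine smul_unitary ?_ (eU_aux ⟨star_sm w, sm_idem h, hN.st⟩)
  rw [star_pow, ← mul_pow, hN.cst, one_pow]

lemma mt_sW {p : ℕ} {ζ c : K} (hN : Nums K p n ζ c) {w : List (Ln K n)} (h : Orth w) :
    mt (sW ζ c w) = sM ζ c w := by
  have h1 : ∃ g : SU K n, mt g = sM ζ c w := ⟨⟨⟨_, sM_unitary hN h⟩, sM_det hN h⟩, rfl⟩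
  rw [sW, dif_pos h1]
  exact h1.choose_spec

omit [Fintype K] in
lemma mt_mul (g h : SU K n) : mt (g * h) = mt g * mt h := rfl

omit [Fintype K] in
lemma mt_one : mt (1 : SU K n) = 1 := rfl

omit [Fintype K] in
lemma mt_inv (g : SU K n) : mt g⁻¹ = star (mt g) := rfl

omit [Fintype K] in
lemma mt_star (g : SU K n) : mt g * star (mt g) = 1 := Matrix.mem_unitaryGroup_iff.1 g.1.2

omit [Fintype K] in
lemma star_mt (g : SU K n) : star (mt g) * mt g = 1 := Matrix.mem_unitaryGroup_iff'.1 g.1.2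

lemma sW_append {p : ℕ} {ζ c : K} (hN : Nums K p n ζ c) {v w : List (Ln K n)} (h : Orth (v ++ w)) :
    sW ζ c (v ++ w) = sW ζ c v * sW ζ c w := by
  have h1 := List.pairwise_append.1 h
  apply mt_inj
  rw [mt_mul, mt_sW hN h, mt_sW hN h1.1, mt_sW hN h1.2.1, sM_append h]

lemma orth_perm {v w : List (Ln K n)} (h : v.Perm w) (hv : Orth v) : Orth w :=
  hv.perm h (fun {P Q} hPQ => orth_symm hPQ)

lemma mem_Fr_orth {w : List (Ln K n)} (h : w ∈ Fr K n) : Orth w := (mem_Fr K).1 h |>.2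

lemma mem_Fr_len {w : List (Ln K n)} (h : w ∈ Fr K n) : w.length = n := (mem_Fr K).1 h |>.1

end

end

end Vale.Agent.P240.R2.H38
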