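import Vale.Agent.P240.R2.H38.V1

/-!
Coordinates: matrices that commute with the elements of a frame, uniqueness of the field automorphism.
-/

set_option autoImplicit false
set_option linter.all false

namespace Vale.Agent.P240.R2.H38

open Matrix Vale.Agent.P240.R2.AS
open scoped Classical

universe u v

noncomputable section

section
variable {K : Type u} [Field K] [Fintype K] [StarRing K] {n : ℕ}

omit [Fintype K] in
lemma vec_e1 (i : Fin n) : vecMulVec (Pi.single i (1 : K)) (star (Pi.single i (1 : K))) =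
    diagonal (fun k => if k = i then (1 : K) else 0) := by
  ext a b
  rw [vecMulVec_apply, Pi.star_apply, diagonal_apply, Pi.single_apply, Pi.single_apply]
  by_cases h1 : a = i
  · subst h1
    by_cases h2 : a = b
    · subst h2; simp
    · have h3 : b ≠ a := fun h => h2 h.symm
      simp [h2, h3]
  · by_cases h2 : a = b
    · subst h2; simp [h1]
    · simp [h1, h2]

/-- the standard letters -/
def E1 (i : Fin n) : Ln K n :=
  ⟨diagonal (fun k => if k = i then (1 : K) else 0), Pi.single i 1, by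
    simp, (vec_e1 i).symm⟩

omit [Fintype K] in
lemma E1_coe (i : Fin n) : (E1 i : Ln K n).1 = diagonal (fun k => if k = i then (1 : K) else 0) := rfl

variable (K n) in
/-- the standard frame -/
def w0 : List (Ln K n) := List.ofFn E1

lemma dot_zero {x y : Fin n → K} (hx : star x ⬝ᵥ x = 1) (hy : star y ⬝ᵥ y = 1)
    (h : vecMulVec x (star x) * vecMulVec y (star y) = 0) : star x ⬝ᵥ y = 0 := by
  have h1 : (vecMulVec x (star x) * vecMulVec y (star y)) *ᵥ y = (star x ⬝ᵥ y) • x := by
    rw [← mulVec_mulVec, vecMulVec_mulVec, vecMulVec_mulVec, hy]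
    simp
  rw [h, zero_mulVec] at h1
  have h2 : star x ⬝ᵥ ((star x ⬝ᵥ y) • x) = star x ⬝ᵥ y := by
    rw [dotProduct_smul, hx, smul_eq_mul, mul_one]
  rw [← h2, ← h1, dotProduct_zero]

/-- every frame is an image of the standard frame -/
lemma exists_lnU {w : List (Ln K n)} (hw : w ∈ Fr K n) : ∃ u : GU K n, w = (w0 K n).map (lnU u) := by
  obtain ⟨hl, ho⟩ := (mem_Fr K).1 hw
  obtain ⟨P, rfl⟩ : ∃ P : Fin n → Ln K n, w = List.ofFn P := by
    refine ⟨fun i => w.get ⟨i, by rw [hl]; exact i.2⟩, ?_⟩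
    apply List.ext_getElem
    · simp [hl]
    · intro i h1 h2
      simp
  have h0 : ∀ i : Fin n, ∃ x : Fin n → K, star x ⬝ᵥ x = 1 ∧
      (P i).1 = vecMulVec x (star x) := fun i => (P i).2
  choose x hx hP using h0
  have hor : ∀ i j, i ≠ j → star (x i) ⬝ᵥ x j = 0 := by
    have h1 : ∀ i j, i < j → star (x i) ⬝ᵥ x j = 0 := by
      intro i j hij
      refine dot_zero (hx i) (hx j) ?_
      rw [← hP, ← hP]
      exact (List.pairwise_ofFn.1 ho) hij
    intro i j hij
    rcases lt_or_gt_of_ne hij with h | h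
    · exact h1 i j h
    · have h2 := congrArg star (h1 j i h)
      rw [star_zero] at h2
      rw [dotProduct, star_sum] at h2
      rw [dotProduct, ← h2]
      refine Finset.sum_congr rfl fun k _ => ?_
      rw [star_mul', Pi.star_apply, Pi.star_apply, star_star, mul_comm]
  let M : Matrix (Fin n) (Fin n) K := Matrix.of fun a i => x i a
  have hM : M ∈ Matrix.unitaryGroup (Fin n) K := by
    rw [Matrix.mem_unitaryGroup_iff']
    ext i j
    rw [mul_apply]
    have h1 : ∑ k, (star M) i k * M k j = star (x i) ⬝ᵥ x j := by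
      rw [dotProduct]
      refine Finset.sum_congr rfl fun k _ => ?_
      rw [star_apply, Pi.star_apply]
      rfl
    rw [h1]
    by_cases hij : i = j
    · subst hij; rw [hx, one_apply_eq]
    · rw [hor i j hij, one_apply_ne hij]
  have hu : ∀ i, M *ᵥ (Pi.single i 1) = x i := by
    intro i
    ext a
    rw [mulVec_single_one]
    rfl
  refine ⟨⟨M, hM⟩, ?_⟩
  rw [w0, List.map_ofFn]
  congr 1
  funext i
  apply Subtype.ext
  rw [Function.comp_apply, lnU_coe, hP, E1_coe, ← vec_e1, mul_vecMulVec, vecMulVec_mul]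
  have e1 : M *ᵥ (Pi.single i 1) = x i := hu i
  have e2 : star (Pi.single i (1 : K)) ᵥ* star M = star (x i) := by
    rw [← hu i, star_mulVec]
    rfl
  show vecMulVec (x i) (star (x i)) = vecMulVec (M *ᵥ (Pi.single i 1)) (star (Pi.single i (1 : K)) ᵥ* star M)
  rw [e1, e2]

lemma w0_mem : w0 K n ∈ Fr K n := by
  rw [mem_Fr]
  refine ⟨by simp [w0], ?_⟩
  rw [Orth, w0, List.pairwise_ofFn]
  intro i j hij
  rw [E1_coe, E1_coe, diagonal_mul_diagonal, ← diagonal_zero]
  congr 1
  funext k
  by_cases h1 : k = i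
  · subst h1
    simp [hij.ne]
  · simp [h1]

lemma sM_E1 (ζ c : K) (i : Fin n) :
    sM ζ c [E1 i] = c • diagonal (fun k => if k = i then ζ else 1) := by
  rw [sM]
  simp only [List.length_singleton, pow_one]
  congr 1
  have h1 : sm [(E1 i : Ln K n)] = (E1 i : Ln K n).1 := by simp [sm]
  rw [h1, E1_coe]
  ext a b
  rw [Matrix.add_apply, Matrix.smul_apply, diagonal_apply, diagonal_apply, one_apply]
  by_cases h : a = b
  · subst h
    by_cases h2 : a = i
    · subst h2; simp
    · simp [h2]
  · simp [h]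

lemma diag_of (hn : 3 ≤ n) {ζ c : K} (hz : ζ ≠ 1) (hc : c ≠ 0) (u : GU K n) (σ : K ≃+* K)
    (h : ∀ i, ∃ a : K, u.1 * (sM ζ c [E1 i]).map σ * star u.1 = a • sM ζ c [E1 i]) :
    σ ζ = ζ ∧ ∃ d : Fin n → K, u.1 = diagonal d := by
  have key : ∀ i, σ ζ = ζ ∧ ∀ k, k ≠ i → u.1 i k = 0 := by
    intro i
    obtain ⟨a, ha⟩ := h i
    -- entries
    have hent : ∀ j k, σ c * (u.1 j k * (if k = i then σ ζ else 1)) =
        a * c * ((if j = i then ζ else 1) * u.1 j k) := by
      intro j k
      have h1 := congrArg (fun A => A * u.1) ha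
      rw [mul_assoc, star_gu, mul_one, sM_E1] at h1
      have h2 : (c • diagonal (fun k => if k = i then ζ else 1) : Matrix (Fin n) (Fin n) K).map σ =
          σ c • diagonal (fun k => if k = i then σ ζ else 1) := by
        rw [map_smul_mat]
        congr 1
        ext b d
        rw [map_apply, diagonal_apply, diagonal_apply]
        by_cases hbd : b = d
        · subst hbd
          by_cases hb : b = i
          · subst hb; simp
          · simp [hb]
        · simp [hbd]
      rw [h2] at h1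
      have h3 := congrFun (congrFun h1 j) k
      rw [mul_smul_comm, Matrix.smul_apply, mul_diagonal, smul_mul_assoc, Matrix.smul_apply, smul_mul_assoc, Matrix.smul_apply,
        diagonal_mul] at h3
      simp only [smul_eq_mul] at h3
      rw [h3, mul_assoc]
    have hrow : ∀ j, ∑ k, u.1 j k * star (u.1 j k) = 1 := by
      intro j
      have h1 := congrFun (congrFun (gu_star u) j) j
      rw [mul_apply, one_apply_eq] at h1
      simpa [star_apply] using h1
    have hort : ∀ j j', j ≠ j' → ∑ k, u.1 j k * star (u.1 j' k) = 0 := by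
      intro j j' hj
      have h1 := congrFun (congrFun (gu_star u) j) j'
      rw [mul_apply, one_apply_ne hj] at h1
      simpa [star_apply] using h1
    have hσc : σ c ≠ 0 := by simpa using hc
    obtain ⟨j, j', hji, hj'i, hjj⟩ : ∃ j j' : Fin n, j ≠ i ∧ j' ≠ i ∧ j ≠ j' := by
      have h1 : 1 < (Finset.univ.erase i).card := by
        rw [Finset.card_erase_of_mem (Finset.mem_univ _), Finset.card_univ, Fintype.card_fin]; omega
      obtain ⟨j, hj, j', hj', hne⟩ := Finset.one_lt_card.1 h1
      exact ⟨j, j', (Finset.mem_erase.1 hj).1, (Finset.mem_erase.1 hj').1, hne⟩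
    have hsc : σ c = a * c := by
      have h1 : ∃ l, l ≠ i ∧ ∃ k, k ≠ i ∧ u.1 l k ≠ 0 := by
        by_contra hcon
        push Not at hcon
        have h2 := hort j j' hjj
        rw [Finset.sum_eq_single i (fun k _ hk => by rw [hcon j hji k hk, zero_mul])
          (fun h => absurd (Finset.mem_univ _) h)] at h2
        have h3 := hrow j
        rw [Finset.sum_eq_single i (fun k _ hk => by rw [hcon j hji k hk, zero_mul])
          (fun h => absurd (Finset.mem_univ _) h)] at h3
        have h4 := hrow j'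
        rw [Finset.sum_eq_single i (fun k _ hk => by rw [hcon j' hj'i k hk, zero_mul])
          (fun h => absurd (Finset.mem_univ _) h)] at h4
        rcases mul_eq_zero.1 h2 with h5 | h5
        · rw [h5, zero_mul] at h3; exact zero_ne_one h3
        · rw [h5, mul_zero] at h4; exact zero_ne_one h4
      obtain ⟨l, hl, k, hk, hlk⟩ := h1
      have h2 := hent l k
      rw [if_neg hl, if_neg hk, mul_one, one_mul] at h2
      exact mul_right_cancel₀ hlk h2
    have hoff : ∀ k, k ≠ i → u.1 i k = 0 := by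
      intro k hk
      have h2 := hent i k
      rw [if_pos rfl, if_neg hk, mul_one, ← hsc] at h2
      have h3 := mul_left_cancel₀ hσc h2
      have h4 : u.1 i k * (1 - ζ) = 0 := by
        calc u.1 i k * (1 - ζ) = u.1 i k - ζ * u.1 i k := by ring
          _ = 0 := by rw [← h3, sub_self]
      rcases mul_eq_zero.1 h4 with h5 | h5
      · exact h5
      · exact absurd (sub_eq_zero.1 h5).symm hz
    refine ⟨?_, hoff⟩
    have h2 := hent i i
    rw [if_pos rfl, if_pos rfl, ← hsc] at h2
    have h3 := mul_left_cancel₀ hσc h2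
    have h4 : u.1 i i ≠ 0 := by
      intro h5
      have h6 := hrow i
      rw [Finset.sum_eq_single i (fun k _ hk => by rw [hoff k hk, zero_mul])
        (fun h => absurd (Finset.mem_univ _) h), h5, zero_mul] at h6
      exact zero_ne_one h6
    rw [mul_comm ζ] at h3
    exact mul_left_cancel₀ h4 h3
  refine ⟨(key ⟨0, by omega⟩).1, fun i => u.1 i i, ?_⟩
  ext i k
  rw [diagonal_apply]
  by_cases hik : i = k
  · subst hik; simp
  · rw [if_neg hik]
    exact (key i).2 k (fun h => hik h.symm)

variable {S : Subgroup (GU K n)} {p : ℕ} {ζ c : K} {G : Type v} [Group G]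

lemma SGood.c_ne (hS : SGood p ζ c S) : c ≠ 0 := by
  intro h
  have h1 := hS.full (w0 K n) w0_mem
  have hl : (w0 K n).length = n := by simp [w0]
  rw [sM, hl, h, zero_pow (by have := hS.hn; omega), zero_smul] at h1
  have h2 := congrFun (congrFun h1 ⟨0, by have := hS.hn; omega⟩) ⟨0, by have := hS.hn; omega⟩
  rw [one_apply_eq, Matrix.zero_apply] at h2
  exact zero_ne_one h2

omit [Fintype K] in
/-- two elements of `S` with the same image -/
lemma eps_eq {ε : S →* G} (hker : ∀ g : S, ε g = 1 ↔ ∃ a : K, mx g = a • (1 : Matrix (Fin n) (Fin n) K))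
    {g h : S} : ε g = ε h ↔ ∃ a : K, mx g = a • mx h := by
  have h1 : ε g = ε h ↔ ε (g * h⁻¹) = 1 := by rw [map_mul, map_inv, mul_inv_eq_one]
  rw [h1, hker, mx_mul, mx_inv]
  constructor
  · rintro ⟨a, ha⟩
    refine ⟨a, ?_⟩
    calc mx g = mx g * (star (mx h) * mx h) := by rw [star_mx, mul_one]
      _ = (mx g * star (mx h)) * mx h := by rw [mul_assoc]
      _ = _ := by rw [ha, smul_mul_assoc, one_mul]
  · rintro ⟨a, ha⟩
    exact ⟨a, by rw [ha, smul_mul_assoc, mx_star]⟩

omit [Fintype K] in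
lemma gu_scal {u : GU K n} (hn : 0 < n) {a : K} (h : u.1 = a • (1 : Matrix (Fin n) (Fin n) K)) : a ≠ 0 := by
  rintro rfl
  rw [zero_smul] at h
  have h1 := gu_star u
  rw [h, zero_mul] at h1
  have h2 := congrFun (congrFun h1 ⟨0, hn⟩) ⟨0, hn⟩
  rw [one_apply_eq, Matrix.zero_apply] at h2
  exact zero_ne_one h2

/-- uniqueness of the matrix and the field automorphism -/
lemma ActsS.uniq (hS : SGood p ζ c S) {ε : S →* G}
    (hker : ∀ g : S, ε g = 1 ↔ ∃ a : K, mx g = a • (1 : Matrix (Fin n) (Fin n) K))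
    {x : G} {g h : GU K n} {σ τ : K ≃+* K} (hx : ActsS ε x g σ) (hy : ActsS ε x h τ) :
    σ = τ ∧ ∃ a : K, g.1 = a • h.1 := by
  have h1 : ∀ k : S, ∃ a : K, g.1 * (mx k).map σ * star g.1 = a • (h.1 * (mx k).map τ * star h.1) := by
    intro k
    have e1 := hx.2 k (cjS hS g (frS hS σ hx.1 k)) (by rw [mx_cjS, mx_frS])
    have e2 := hy.2 k (cjS hS h (frS hS τ hy.1 k)) (by rw [mx_cjS, mx_frS])
    rw [e1] at e2
    obtain ⟨a, ha⟩ := (eps_eq hker).1 e2
    exact ⟨a, by rw [mx_cjS, mx_frS, mx_cjS, mx_frS] at ha; exact ha⟩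
  have hτs : ∀ a, τ.symm (star a) = star (τ.symm a) := by
    intro a
    apply τ.injective
    rw [hy.1, RingEquiv.apply_symm_apply, RingEquiv.apply_symm_apply]
  set ρ : K ≃+* K := τ.symm.trans σ with hρ
  have hρs : ∀ a, ρ (star a) = star (ρ a) := by
    intro a
    simp [hρ, hτs, hx.1]
  have h2 : ∀ m : S, ∃ a : K, (h⁻¹ * g).1 * (mx m).map ρ * star (h⁻¹ * g).1 = a • mx m := by
    intro m
    obtain ⟨a, ha⟩ := h1 (frS hS τ.symm hτs m)
    refine ⟨a, ?_⟩
    rw [mx_frS] at ha
    have e1 : ((mx m).map τ.symm).map σ = (mx m).map ρ := by ext i j; simp [hρ]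
    have e2 : ((mx m).map τ.symm).map τ = mx m := by ext i j; simp
    rw [e1, e2] at ha
    rw [gu_mul, gu_inv, star_mul, star_star]
    calc star h.1 * g.1 * (mx m).map ρ * (star g.1 * h.1)
        = star h.1 * (g.1 * (mx m).map ρ * star g.1) * h.1 := by simp only [mul_assoc]
      _ = a • ((star h.1 * h.1) * mx m * (star h.1 * h.1)) := by
          rw [ha, mul_smul_comm, smul_mul_assoc]
          simp only [mul_assoc]
      _ = _ := by rw [star_gu, one_mul, mul_one]
  have h3 : ∀ i, ∃ a : K, (h⁻¹ * g).1 * (sM ζ c [E1 i]).map ρ * star (h⁻¹ * g).1 = a • sM ζ c [E1 i] := by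
    intro i
    obtain ⟨a, ha⟩ := h2 (sS S ζ c [E1 i])
    rw [mx_sS hS (List.pairwise_singleton _ _)] at ha
    exact ⟨a, ha⟩
  obtain ⟨-, hd⟩ := diag_of hS.hn hS.ne hS.c_ne _ ρ h3
  obtain ⟨e1, a, ha⟩ := hS.uniq (h⁻¹ * g) ρ hρs hd h2
  constructor
  · ext y
    have := e1 (τ y)
    simpa [hρ] using this
  · refine ⟨a, ?_⟩
    have e2 : g = h * (h⁻¹ * g) := by group
    calc g.1 = (h * (h⁻¹ * g)).1 := by rw [← e2]
      _ = h.1 * (h⁻¹ * g).1 := rfl
      _ = _ := by rw [ha, mul_smul_comm, mul_one]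

omit [Fintype K] in
lemma norm_of_smul {g h : GU K n} (hn : 0 < n) {a : K} (e : g.1 = a • h.1) : a * star a = 1 := by
  have h1 := gu_star g
  rw [e, star_smul, smul_mul_smul_comm, gu_star] at h1
  have h2 := congrFun (congrFun h1 ⟨0, hn⟩) ⟨0, hn⟩
  rw [Matrix.smul_apply, one_apply_eq, smul_eq_mul, mul_one] at h2
  exact h2

omit [Fintype K] in
/-- a scalar does not matter -/
lemma ActsS.smul {ε : S →* G} (hn : 0 < n) {x : G} {g h : GU K n} {σ : K ≃+* K} (hx : ActsS ε x g σ) {a : K}
    (e : g.1 = a • h.1) : ActsS ε x h σ := by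
  refine ⟨hx.1, fun k k' hk => hx.2 k k' ?_⟩
  rw [hk, e, star_smul, smul_mul_assoc, smul_mul_smul_comm, norm_of_smul hn e, one_smul]

/-- two elements with the same action differ by an element of the centralizer -/
lemma ActsS.eq_conj {ε : S →* G} (hS : SGood p ζ c S) {x y : G} {g h : GU K n} {σ : K ≃+* K}
    (hx : ActsS ε x g σ) (hy : ActsS ε y h σ) {a : K} (e : g.1 = a • h.1) (k : S) :
    x * ε k * x⁻¹ = y * ε k * y⁻¹ := by
  have h1 := hx.smul (by have := hS.hn; omega) e
  rw [h1.2 k (cjS hS h (frS hS σ hx.1 k)) (by rw [mx_cjS, mx_frS]),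
    hy.2 k (cjS hS h (frS hS σ hx.1 k)) (by rw [mx_cjS, mx_frS])]

end

end

end Vale.Agent.P240.R2.H38
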