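import Vale.Agent.P240.R2.H38.V2
import Vale.Agent.P240.R2.H401.NL5

/-!
Elements of order `p` in the normalizer that commute with the elements of the standard frame.
-/

set_option autoImplicit false
set_option linter.all false

namespace Vale.Agent.P240.R2.H38

open Matrix Vale.Agent.P240.R2.AS
open scoped Classical

universe u v

noncomputable section

section
variable {K : Type u} [Field K] [Fintype K] [StarRing K] {n : ℕ}
variable {S : Subgroup (GU K n)} {p : ℕ} {ζ c : K} {G : Type v} [Group G]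

/-- the elements of the frames -/
def eS (S : Subgroup (GU K n)) (ζ c : K) (ε : S →* G) (w : List (Ln K n)) : G := ε (sS S ζ c w)

lemma eS_append (hS : SGood p ζ c S) (ε : S →* G) {v w : List (Ln K n)} (h : Orth (v ++ w)) :
    eS S ζ c ε (v ++ w) = eS S ζ c ε v * eS S ζ c ε w := by
  rw [eS, sS_append hS h, map_mul]; rfl

lemma letter_mem (hS : SGood p ζ c S) (ε : S →* G) {w : List (Ln K n)} (h : Orth w) {P : Ln K n}
    (hP : P ∈ w) : eS S ζ c ε [P] ∈ De (eS S ζ c ε) w := by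
  obtain ⟨u, v, rfl⟩ := List.append_of_mem hP
  have h1 : u ++ P :: v = (u ++ [P]) ++ v := by simp
  have h2 : Orth (u ++ [P]) := by
    rw [h1] at h
    exact (List.pairwise_append.1 h).1
  have h3 : eS S ζ c ε [P] = (eS S ζ c ε u)⁻¹ * eS S ζ c ε (u ++ [P]) := by
    rw [eS_append hS ε h2]; group
  rw [h3]
  refine Subgroup.mul_mem _ (Subgroup.inv_mem _ (Subgroup.subset_closure ⟨u, P :: v, rfl, rfl⟩))
    (Subgroup.subset_closure ⟨u ++ [P], v, h1, rfl⟩)

lemma E1_mem (i : Fin n) : (E1 i : Ln K n) ∈ w0 K n := by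
  rw [w0, List.mem_ofFn]
  exact ⟨i, rfl⟩

lemma De_map (hS : SGood p ζ c S) (ε : S →* G) (u : GU K n) {w : List (Ln K n)} (h : Orth w) :
    De (eS S ζ c (ε.comp (cjS hS u))) w = De (eS S ζ c ε) (w.map (lnU u)) := by
  rw [De, De]
  congr 1
  ext y
  constructor
  · rintro ⟨v, v', rfl, rfl⟩
    refine ⟨v.map (lnU u), v'.map (lnU u), by rw [List.map_append], ?_⟩
    rw [eS, eS, sS_map hS u (List.pairwise_append.1 h).1]
    rfl
  · rintro ⟨v, v', hv, rfl⟩
    obtain ⟨a, b, rfl, rfl, rfl⟩ := List.map_eq_append_iff.1 hv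
    refine ⟨a, b, rfl, ?_⟩
    rw [eS, eS, sS_map hS u (List.pairwise_append.1 h).1]
    rfl

lemma E1_orth : Orth (w0 K n) := ((mem_Fr K).1 w0_mem).2

/-- **D1.** -/
lemma exists_acts (hS : SGood p ζ c S) {L : Subgroup G} {ε : S →* G} (hε : PHom p ζ c L ε) {x : G}
    (hxn : x ∈ Subgroup.normalizer (L : Set G)) (hxp : x ^ p ∈ Subgroup.centralizer (L : Set G))
    (hxc : ∀ a ∈ De (eS S ζ c ε) (w0 K n), x * a = a * x) :
    ∃ (g : GU K n) (σ : K ≃+* K) (a : Fin n → K), ActsS ε x g σ ∧ g.1 = diagonal a ∧ σ ζ = ζ ∧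
      ∀ i, a i * star (a i) = 1 := by
  obtain ⟨g, σ, hg⟩ := hε.sem (w0 K n) w0_mem x hxn hxp
    (fun P hP => hxc _ (letter_mem hS ε E1_orth hP))
  have h1 : ∀ i, ∃ a : K, g.1 * (sM ζ c [E1 i]).map σ * star g.1 = a • sM ζ c [E1 i] := by
    intro i
    have ho : Orth [(E1 i : Ln K n)] := List.pairwise_singleton _ _
    have h2 := hg.2 (sS S ζ c [E1 i]) (cjS hS g (frS hS σ hg.1 (sS S ζ c [E1 i])))
      (by rw [mx_cjS, mx_frS])
    have h3 : x * ε (sS S ζ c [E1 i]) * x⁻¹ = ε (sS S ζ c [E1 i]) := by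
      have := hxc _ (letter_mem hS ε E1_orth (E1_mem i))
      rw [eS] at this
      rw [this]; group
    rw [h3] at h2
    obtain ⟨a, ha⟩ := (eps_eq hε.ker).1 h2.symm
    refine ⟨a, ?_⟩
    rw [mx_cjS, mx_frS, mx_sS hS ho] at ha
    exact ha
  obtain ⟨h2, d, hd⟩ := diag_of hS.hn hS.ne hS.c_ne g σ h1
  refine ⟨g, σ, d, hg, hd, h2, fun i => ?_⟩
  have h3 := gu_star g
  rw [hd, star_eq_conjTranspose, diagonal_conjTranspose, diagonal_mul_diagonal, ← diagonal_one] at h3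
  have h4 := congrFun (diagonal_injective h3) i
  exact h4

/-- powers -/
lemma ActsS.pow_diag (hS : SGood p ζ c S) {ε : S →* G} {x : G} {g : GU K n} {σ : K ≃+* K} {a : Fin n → K}
    (hx : ActsS ε x g σ) (hg : g.1 = diagonal a) (m : ℕ) :
    ∃ h : GU K n, h.1 = diagonal (fun i => ∏ k ∈ Finset.range m, (σ^[k]) (a i)) ∧
      ActsS ε (x ^ m) h ((σ : RingAut K) ^ m : RingAut K) := by
  induction m with
  | zero =>
    refine ⟨1, ?_, ?_⟩
    · have h2 : ((1 : GU K n) : Matrix (Fin n) (Fin n) K) = 1 := rfl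
      rw [h2, ← diagonal_one]
      congr 1
    · rw [pow_zero, pow_zero]
      exact ActsS.one ε
  | succ m ih =>
    obtain ⟨h, h1, h2⟩ := ih
    refine ⟨g * gmap σ hx.1 h, ?_, ?_⟩
    · rw [gu_mul, gmap_coe, h1, hg, diagonal_map (map_zero σ), diagonal_mul_diagonal]
      congr 1
      funext i
      rw [Finset.prod_range_succ', mul_comm]
      congr 1
      rw [map_prod]
      refine Finset.prod_congr rfl fun k _ => ?_
      rw [Function.iterate_succ_apply']
    · rw [pow_succ' x, pow_succ' (σ : RingAut K)]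
      exact hx.mul hS h2

/-- **D3.** -/
lemma ActsS.order (hS : SGood p ζ c S) {ε : S →* G}
    (hker : ∀ g : S, ε g = 1 ↔ ∃ a : K, mx g = a • (1 : Matrix (Fin n) (Fin n) K)) {x : G} {g : GU K n}
    {σ : K ≃+* K} {a : Fin n → K}
    (hx : ActsS ε x g σ) (hg : g.1 = diagonal a) (hxp : x ^ p = 1) :
    (σ : RingAut K) ^ p = 1 ∧
      ∀ i j, ∏ k ∈ Finset.range p, (σ^[k]) (a i) = ∏ k ∈ Finset.range p, (σ^[k]) (a j) := by
  obtain ⟨h, h1, h2⟩ := hx.pow_diag hS hg p
  rw [hxp] at h2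
  obtain ⟨e1, b, e2⟩ := h2.uniq hS hker (ActsS.one ε)
  refine ⟨e1, fun i j => ?_⟩
  have h3 : ((1 : GU K n) : Matrix (Fin n) (Fin n) K) = 1 := rfl
  rw [h1, h3] at e2
  have h4 := congrFun (congrFun e2 i) i
  have h5 := congrFun (congrFun e2 j) j
  rw [diagonal_apply_eq, Matrix.smul_apply, one_apply_eq] at h4 h5
  rw [h4, h5]

/-- diagonal elements of `S` -/
lemma exists_diag (hS : SGood p ζ c S) (k : Fin n → ℕ) (T : Finset (Fin n)) :
    ∃ s ∈ Subgroup.closure {y : S | ∃ i, y = sS S ζ c [E1 i]}, ∃ b : K,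
      mx s = b • diagonal (fun j => if j ∈ T then ζ ^ k j else 1) := by
  induction T using Finset.induction_on with
  | empty =>
    refine ⟨1, Subgroup.one_mem _, 1, ?_⟩
    rw [mx_one, one_smul, ← diagonal_one]
    congr 1
  | insert i T hi ih =>
    obtain ⟨s, hs, b, hb⟩ := ih
    have h0 : sS S ζ c [E1 i] ∈ Subgroup.closure {y : S | ∃ i, y = sS S ζ c [E1 i]} :=
      Subgroup.subset_closure ⟨i, rfl⟩
    refine ⟨sS S ζ c [E1 i] ^ k i * s, Subgroup.mul_mem _ (Subgroup.pow_mem _ h0 _) hs, c ^ k i * b, ?_⟩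
    have h1 : ∀ m : ℕ, mx (sS S ζ c [E1 i] ^ m) =
        c ^ m • diagonal (fun j => if j = i then ζ ^ m else 1) := by
      intro m
      induction m with
      | zero => simp [mx_one]
      | succ m ihm =>
        rw [pow_succ, mx_mul, ihm, mx_sS hS (List.pairwise_singleton _ _), sM_E1, smul_mul_smul_comm,
          diagonal_mul_diagonal, ← pow_succ]
        congr 2
        funext j
        by_cases hj : j = i
        · simp [hj, pow_succ]
        · simp [hj]
    rw [mx_mul, h1, hb, smul_mul_smul_comm, diagonal_mul_diagonal]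
    congr 2
    funext j
    by_cases hj : j = i
    · subst hj; simp [hi]
    · simp [hj]

/-- **D4.** -/
lemma lin_mem [Fact p.Prime] (hS : SGood p ζ c S) {L : Subgroup G} {ε : S →* G} (hε : PHom p ζ c L ε)
    {x : G} {g : GU K n} {a : Fin n → K} (hx : ActsS ε x g (RingEquiv.refl K)) (hg : g.1 = diagonal a)
    (hxp : x ^ p = 1) :
    ∃ d ∈ De (eS S ζ c ε) (w0 K n), x * d⁻¹ ∈ Subgroup.centralizer (L : Set G) := by
  obtain ⟨-, h1⟩ := hx.order hS hε.ker hg hxp
  have hn0 : 0 < n := by have := hS.hn; omega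
  have ha : ∀ i, a i * star (a i) = 1 := by
    intro i
    have h3 := gu_star g
    rw [hg, star_eq_conjTranspose, diagonal_conjTranspose, diagonal_mul_diagonal, ← diagonal_one] at h3
    exact congrFun (diagonal_injective h3) i
  have ha0 : ∀ i, a i ≠ 0 := fun i => left_ne_zero_of_mul_eq_one (ha i)
  have h2 : ∀ i j, a i ^ p = a j ^ p := by
    intro i j
    have h3 := h1 i j
    have h4 : ∀ k : ℕ, ∀ y : K, ((RingEquiv.refl K)^[k]) y = y := by
      intro k y
      induction k with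
      | zero => rfl
      | succ k ih => rw [Function.iterate_succ_apply', ih]; rfl
    simp only [h4, Finset.prod_const, Finset.card_range] at h3
    exact h3
  have hprim : IsPrimitiveRoot ζ p := by
    rw [← orderOf_eq_prime hS.pow hS.ne]
    exact IsPrimitiveRoot.orderOf ζ
  haveI : NeZero p := ⟨(Fact.out : p.Prime).ne_zero⟩
  have h3 : ∀ i, ∃ k : ℕ, a i = a ⟨0, hn0⟩ * ζ ^ k := by
    intro i
    obtain ⟨k, -, hk⟩ := hprim.eq_pow_of_pow_eq_one (ξ := a i / a ⟨0, hn0⟩) (by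
      rw [div_pow, h2 i ⟨0, hn0⟩, div_self (pow_ne_zero _ (ha0 _))])
    exact ⟨k, by rw [hk, mul_div_cancel₀ _ (ha0 _)]⟩
  choose k hk using h3
  obtain ⟨s, hs, b, hb⟩ := exists_diag hS k Finset.univ
  simp only [Finset.mem_univ, if_true] at hb
  have hb0 : b ≠ 0 := by
    rintro rfl
    rw [zero_smul] at hb
    have h4 := mx_star s
    rw [hb, zero_mul] at h4
    have h5 := congrFun (congrFun h4 ⟨0, hn0⟩) ⟨0, hn0⟩
    rw [one_apply_eq, Matrix.zero_apply] at h5
    exact zero_ne_one h5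
  refine ⟨ε s, ?_, ?_⟩
  · have h4 : Subgroup.closure {y : S | ∃ i, y = sS S ζ c [E1 i]} ≤ (De (eS S ζ c ε) (w0 K n)).comap ε := by
      rw [Subgroup.closure_le]
      rintro _ ⟨i, rfl⟩
      exact letter_mem hS ε E1_orth (E1_mem i)
    exact h4 hs
  · rw [Subgroup.mem_centralizer_iff]
    intro l hl
    rw [SetLike.mem_coe, ← hε.range] at hl
    obtain ⟨m, rfl⟩ := hl
    have e1 : g.1 = (a ⟨0, hn0⟩ * b⁻¹) • s.1.1 := by
      have h5 : s.1.1 = b • diagonal (fun j => ζ ^ k j) := hb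
      rw [h5, smul_smul, inv_mul_cancel_right₀ hb0, hg, ← diagonal_smul]
      congr 1
      funext j
      rw [hk j]
      rfl
    have h5 := hx.eq_conj hS (ActsS.of_mem ε s) e1
    have h6 : ∀ m' : S, x * (ε s)⁻¹ * ε m' * (x * (ε s)⁻¹)⁻¹ = ε m' := by
      intro m'
      have h7 := h5 (s⁻¹ * m' * s)
      rw [map_mul, map_mul, map_inv] at h7
      calc x * (ε s)⁻¹ * ε m' * (x * (ε s)⁻¹)⁻¹ = x * ((ε s)⁻¹ * ε m' * ε s) * x⁻¹ := by group
        _ = ε m' := by rw [h7]; group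
    have h8 := h6 m
    rw [mul_inv_eq_iff_eq_mul] at h8
    exact h8.symm

/-- **hZ.** -/
lemma inf_cen (hS : SGood p ζ c S) {L : Subgroup G} {ε : S →* G} (hε : PHom p ζ c L ε) :
    L ⊓ Subgroup.centralizer (L : Set G) = ⊥ := by
  rw [eq_bot_iff]
  rintro y ⟨h1, h2⟩
  rw [SetLike.mem_coe, ← hε.range] at h1
  obtain ⟨m, rfl⟩ := h1
  have h3 : ActsS ε (ε m) 1 (RingEquiv.refl K) := by
    refine ActsS.of_cen fun k => ?_
    have h4 := Subgroup.mem_centralizer_iff.1 h2 (ε k) (by rw [SetLike.mem_coe, ← hε.range]; exact ⟨k, rfl⟩)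
    rw [← h4]; group
  obtain ⟨-, a, ha⟩ := (ActsS.of_mem ε m).uniq hS hε.ker h3
  rw [Subgroup.mem_bot]
  exact (hε.ker m).2 ⟨a, ha⟩

lemma De_le (ε : S →* G) {L : Subgroup G} (h : ε.range = L) (w : List (Ln K n)) :
    De (eS S ζ c ε) w ≤ L := by
  rw [De, Subgroup.closure_le]
  rintro _ ⟨u, v, -, rfl⟩
  rw [← h]
  exact ⟨_, rfl⟩

/-- **hC** in coordinates. -/
lemma hC0 [Fact p.Prime] (hS : SGood p ζ c S) {L : Subgroup G} {ε : S →* G} (hε : PHom p ζ c L ε)
    {l : G} (hl : l ∈ L) (hlp : l ^ p = 1) (hlc : ∀ a ∈ De (eS S ζ c ε) (w0 K n), l * a = a * l) :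
    l ∈ De (eS S ζ c ε) (w0 K n) := by
  obtain ⟨g, σ, a, h1, h2, -, -⟩ := exists_acts hS hε (Subgroup.le_normalizer hl)
    (by rw [hlp]; exact Subgroup.one_mem _) hlc
  obtain ⟨m, rfl⟩ : ∃ m, ε m = l := by rw [← hε.range] at hl; exact hl
  have h3 : ActsS ε (ε m) m.1 (RingEquiv.refl K) := ActsS.of_mem ε m
  obtain ⟨e1, b, e2⟩ := h1.uniq hS hε.ker h3
  subst e1
  obtain ⟨d, hd, hdc⟩ := lin_mem hS hε h1 h2 hlp
  have h4 : ε m * d⁻¹ ∈ L ⊓ Subgroup.centralizer (L : Set G) :=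
    ⟨L.mul_mem hl (L.inv_mem (De_le ε hε.range _ hd)), hdc⟩
  rw [inf_cen hS hε, Subgroup.mem_bot, mul_inv_eq_one] at h4
  rw [h4]
  exact hd

/-- nonlinear elements -/
lemma not_lin [Fact p.Prime] (hS : SGood p ζ c S) {L : Subgroup G} {ε : S →* G} (hε : PHom p ζ c L ε)
    {t : G} {g : GU K n} {σ : K ≃+* K} {a : Fin n → K} (ht : ActsS ε t g σ) (hg : g.1 = diagonal a)
    (htp : t ^ p = 1) (hL : t ∉ L ⊔ Subgroup.centralizer (L : Set G)) : σ ≠ RingEquiv.refl K := by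
  rintro rfl
  obtain ⟨d, hd, hdc⟩ := lin_mem hS hε ht hg htp
  apply hL
  have h1 : t = (t * d⁻¹) * d := by group
  rw [h1]
  exact Subgroup.mul_mem _ (Subgroup.mem_sup_right hdc) (Subgroup.mem_sup_left (De_le ε hε.range _ hd))

/-- **hF** in coordinates. -/
lemma hF0 [Fact p.Prime] (hS : SGood p ζ c S) {L : Subgroup G} {ε : S →* G} (hε : PHom p ζ c L ε)
    {t x : G} (ht : t ∈ Subgroup.normalizer (L : Set G)) (hx : x ∈ Subgroup.normalizer (L : Set G))
    (htp : t ^ p = 1) (hxp : x ^ p = 1) (htx : t * x = x * t)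
    (htc : ∀ a ∈ De (eS S ζ c ε) (w0 K n), t * a = a * t)
    (hxc : ∀ a ∈ De (eS S ζ c ε) (w0 K n), x * a = a * x)
    (htL : t ∉ L ⊔ Subgroup.centralizer (L : Set G)) :
    ∃ k : ℕ, x * t ^ k ∈ L ⊔ Subgroup.centralizer (L : Set G) := by
  have hp : p.Prime := Fact.out
  obtain ⟨g, σ, a, h1, h2, -, -⟩ := exists_acts hS hε ht (by rw [htp]; exact Subgroup.one_mem _) htc
  obtain ⟨h, τ, b, k1, k2, -, -⟩ := exists_acts hS hε hx (by rw [hxp]; exact Subgroup.one_mem _) hxc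
  have hσ := not_lin hS hε h1 h2 htp htL
  have o1 := (h1.order hS hε.ker h2 htp).1
  have o2 := (k1.order hS hε.ker k2 hxp).1
  obtain ⟨k, hk, hk'⟩ := H401.aut_pow hp σ τ o1 o2 hσ
  refine ⟨p - k, ?_⟩
  set y := x * t ^ (p - k) with hy
  have hcomm : Commute x (t ^ (p - k)) := (Commute.pow_right (show Commute x t from htx.symm) _)
  have hyp : y ^ p = 1 := by
    rw [hy, hcomm.mul_pow, hxp, one_mul, ← pow_mul, mul_comm, pow_mul, htp, one_pow]
  have hyn : y ∈ Subgroup.normalizer (L : Set G) := Subgroup.mul_mem _ hx (Subgroup.pow_mem _ ht _)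
  have hyc : ∀ a ∈ De (eS S ζ c ε) (w0 K n), y * a = a * y := by
    intro a ha
    have c1 : Commute x a := hxc a ha
    have c2 : Commute t a := htc a ha
    exact (c1.mul_left (c2.pow_left _)).eq
  obtain ⟨g', σ', a', m1, m2, -, -⟩ := exists_acts hS hε hyn (by rw [hyp]; exact Subgroup.one_mem _) hyc
  obtain ⟨h', l1, l2⟩ := h1.pow_diag hS h2 (p - k)
  obtain ⟨e1, -⟩ := m1.uniq hS hε.ker (k1.mul hS l2)
  have e2 : σ' = RingEquiv.refl K := by
    rw [e1]
    show (τ : RingAut K) * (σ : RingAut K) ^ (p - k) = 1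
    rw [hk', ← pow_add, Nat.add_sub_cancel' hk.le, o1]
  subst e2
  obtain ⟨d, hd, hdc⟩ := lin_mem hS hε m1 m2 hyp
  have h5 : y = (y * d⁻¹) * d := by group
  rw [h5]
  exact Subgroup.mul_mem _ (Subgroup.mem_sup_right hdc) (Subgroup.mem_sup_left (De_le ε hε.range _ hd))

end

end

end Vale.Agent.P240.R2.H38
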