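import Vale.Agent.P240.R2.H38.V3
import Vale.Agent.P240.R2.H687.Fy
import Vale.Agent.P240.R2.H945.SemiG
import Vale.Agent.P240.R2.H938.LocG
import Vale.Agent.P240.R2.H938.M4c

/-!
The combinatorial hypotheses for the image of `S`; the three kinds of top cycles; `LocTopF`.
-/

set_option autoImplicit false
set_option linter.all false

namespace Vale.Agent.P240.R2.H38

open Matrix Vale.Agent.P240.R2.AS Vale.Agent.P240.R2.H487 Vale.Agent.P240.K
open scoped Classical

universe u v w

noncomputable section

section comb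
variable {K : Type u} [Field K] [Fintype K] [StarRing K] {n p : ℕ}

/-- transport of the hypotheses to a group with an injective homomorphism -/
lemma comb_of {G : Type*} {G' : Type*} [Group G] [Group G'] {e : List (Ln K n) → G}
    {e' : List (Ln K n) → G'} (f : G →* G') (hf : Function.Injective f)
    (h : ∀ w, Orth w → f (e w) = e' w) (hc : Comb p n (Fr K n) e') : Comb p n (Fr K n) e := by
  have ho : ∀ {w w' : List (Ln K n)}, w ∈ Fr K n → w'.Sublist w → Orth w' :=
    fun {w w'} hw hs => List.Pairwise.sublist hs ((mem_Fr K).1 hw).2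
  have hpre : ∀ u v : List (Ln K n), u ++ v ∈ Fr K n → Orth u :=
    fun u v huv => ho huv (List.sublist_append_left u v)
  have hSS : ∀ w : List (Ln K n), AS.SS e' w = (AS.SS e w).map f := by
    intro w
    rw [AS.SS, AS.SS, MonoidHom.map_closure]
    congr 1
    ext y
    constructor
    · rintro ⟨x, hx, rfl⟩
      exact ⟨_, ⟨x, hx, rfl⟩, h [x] (List.pairwise_singleton _ _)⟩
    · rintro ⟨_, ⟨x, hx, rfl⟩, rfl⟩
      exact ⟨x, hx, h [x] (List.pairwise_singleton _ _)⟩
  refine ⟨hc.len, hc.nodup, hc.perm, ?_, ?_, ?_, ?_, ?_, ?_, ?_⟩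
  · intro u a b c d v w h1 h2
    have s1 : Orth (u ++ a :: b :: v) := by
      refine hpre _ w ?_
      simpa using h1
    have s2 : Orth (u ++ c :: d :: v) := by
      refine hpre _ w ?_
      simpa using h2
    apply hf
    rw [h _ s1, h _ s2]
    exact hc.plane u a b c d v w h1 h2
  · intro u v w h1
    apply hf
    rw [map_mul, map_mul, h u (hpre u _ h1), h (u ++ v) (hpre _ w (by simpa using h1))]
    exact hc.comm u v w h1
  · intro u v h1
    apply hf
    rw [map_pow, h u (hpre u _ h1), map_one]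
    exact hc.pow u v h1
  · apply hf
    rw [h [] List.Pairwise.nil, map_one]
    exact hc.nil
  · intro w hw
    apply hf
    rw [h w ((mem_Fr K).1 hw).2, map_one]
    exact hc.full w hw
  · intro w hw
    rw [← hc.card w hw, ← Subgroup.card_map_of_injective hf, MonoidHom.map_closure]
    have hset : f '' {y | ∃ u v, w = u ++ v ∧ y = e u} = {y | ∃ u v, w = u ++ v ∧ y = e' u} := by
      ext y
      constructor
      · rintro ⟨_, ⟨u, v, rfl, rfl⟩, rfl⟩
        exact ⟨u, v, rfl, h u (hpre u v hw)⟩
      · rintro ⟨u, v, rfl, rfl⟩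
        exact ⟨_, ⟨u, v, rfl, rfl⟩, h u (hpre u v hw)⟩
    rw [hset]
  · intro A u v B l g h1 h2 hu hv
    have s1 : Orth (A ++ u) := by
      refine hpre _ (v ++ B) ?_
      simpa using h1
    rw [← hc.sep A u v B l g h1 h2 hu hv, hSS, ← h _ s1, ← h [l] (List.pairwise_singleton _ _),
      ← MonoidHom.map_zpowers, ← MonoidHom.map_zpowers, ← Subgroup.map_sup, ← Subgroup.map_sup,
      (Subgroup.map_injective hf).eq_iff]

/-- injective homomorphisms preserve the combinatorial hypotheses -/
lemma comb_map {G : Type*} {G' : Type*} [Group G] [Group G'] {L : Type*} {F : Finset (List L)}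
    {e : List L → G} (h : Comb p n F e) (f : G →* G') (hf : Function.Injective f) :
    Comb p n F (fun w => f (e w)) where
  len := h.len
  nodup := h.nodup
  perm := h.perm
  plane := fun u a b c d v w h1 h2 => by
    show f _ = f _
    rw [h.plane u a b c d v w h1 h2]
  comm := fun u v w h1 => by
    show f _ * f _ = f _ * f _
    rw [← map_mul, h.comm u v w h1, map_mul]
  pow := fun u v h1 => by
    show f _ ^ p = 1
    rw [← map_pow, h.pow u v h1, map_one]
  nil := by
    show f _ = 1
    rw [h.nil, map_one]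
  full := fun w hw => by
    show f _ = 1
    rw [h.full w hw, map_one]
  card := fun w hw => by
    have hset : {y | ∃ u v, w = u ++ v ∧ y = f (e u)} = f '' {y | ∃ u v, w = u ++ v ∧ y = e u} := by
      ext y
      constructor
      · rintro ⟨u, v, hw, rfl⟩
        exact ⟨_, ⟨u, v, hw, rfl⟩, rfl⟩
      · rintro ⟨_, ⟨u, v, hw, rfl⟩, rfl⟩
        exact ⟨u, v, hw, rfl⟩
    rw [← h.card w hw, ← Subgroup.card_map_of_injective hf, MonoidHom.map_closure, ← hset]
  sep := fun A u v B l g h1 h2 hu hv => by
    have e1 : ∀ w : List L, AS.SS (fun w => f (e w)) w = (AS.SS e w).map f := by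
      intro w
      rw [AS.SS, AS.SS, MonoidHom.map_closure]
      congr 1
      ext y
      constructor
      · rintro ⟨x, hx, rfl⟩
        exact ⟨_, ⟨x, hx, rfl⟩, rfl⟩
      · rintro ⟨_, ⟨x, hx, rfl⟩, rfl⟩
        exact ⟨x, hx, rfl⟩
    rw [e1, ← MonoidHom.map_zpowers, ← MonoidHom.map_zpowers, ← Subgroup.map_sup,
      ← Subgroup.map_sup, (Subgroup.map_injective hf).eq_iff]
    exact h.sep A u v B l g h1 h2 hu hv

end comb

section
variable {K : Type u} [Field K] [Fintype K] [StarRing K] {n : ℕ}
variable {S : Subgroup (GU K n)} {p : ℕ} {ζ c : K} {G : Type v} [Group G]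

lemma SGood.norm (hS : SGood p ζ c S) : ζ * star ζ = 1 := by
  have hn := hS.hn
  set i : Fin n := ⟨0, by omega⟩ with hi
  set j : Fin n := ⟨1, by omega⟩ with hj
  have hij : j ≠ i := by
    intro h
    have := congrArg Fin.val h
    simp [hi, hj] at this
  have h1 := mx_star (sS S ζ c [E1 i])
  rw [mx_sS hS (List.pairwise_singleton _ _), sM_E1, star_smul, star_eq_conjTranspose,
    diagonal_conjTranspose, smul_mul_smul_comm, diagonal_mul_diagonal] at h1
  have h2 := congrFun (congrFun h1 i) i
  have h3 := congrFun (congrFun h1 j) j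
  rw [Matrix.smul_apply, diagonal_apply_eq, one_apply_eq] at h2 h3
  simp only [Pi.star_apply, if_pos, if_neg hij, star_one, mul_one, smul_eq_mul] at h2 h3
  rw [h3, one_mul] at h2
  exact h2

/-- the combinatorial hypotheses for the image of `S` -/
theorem comb_eS [Fact p.Prime] (hS : SGood p ζ c S) {ε : S →* G}
    (hker : ∀ g : S, ε g = 1 ↔ ∃ a : K, mx g = a • (1 : Matrix (Fin n) (Fin n) K)) :
    Comb p n (Fr K n) (eS S ζ c ε) := by
  have hW : Comb p n (Fr K n) (eW ζ) := H938.comb_eW hS.pow hS.ne hS.norm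
  let π : S →* PGU K n := (QuotientGroup.mk' (Subgroup.center (GU K n))).comp S.subtype
  have hcen : ∀ g : GU K n, (∃ a : K, g.1 = a • (1 : Matrix (Fin n) (Fin n) K)) →
      g ∈ Subgroup.center (GU K n) := fun g hg => (H296.mem_center_iff hS.ne hS.norm g).2 hg
  have hπ : ∀ g : S, π g = 1 ↔ ∃ a : K, mx g = a • (1 : Matrix (Fin n) (Fin n) K) := by
    intro g
    have h1 : π g = 1 ↔ g.1 ∈ Subgroup.center (GU K n) := QuotientGroup.eq_one_iff g.1
    rw [h1, H296.mem_center_iff hS.ne hS.norm]
    exact Iff.rfl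
  have hk : ε.ker ≤ π.ker := by
    intro g hg
    rw [MonoidHom.mem_ker] at hg ⊢
    exact (hπ g).2 ((hker g).1 hg)
  let f : S ⧸ ε.ker →* PGU K n := QuotientGroup.lift ε.ker π hk
  have hf : Function.Injective f := by
    rw [injective_iff_map_eq_one]
    intro a
    obtain ⟨g, rfl⟩ := QuotientGroup.mk_surjective a
    intro h1
    have h2 : π g = 1 := h1
    exact (QuotientGroup.eq_one_iff g).2 ((hker g).2 ((hπ g).1 h2))
  have h1 : Comb p n (Fr K n) (fun w => (QuotientGroup.mk (sS S ζ c w) : S ⧸ ε.ker)) := by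
    refine comb_of f hf (fun w hw => ?_) hW
    show π (sS S ζ c w) = QuotientGroup.mk (eU ζ (sm w))
    show (QuotientGroup.mk (sS S ζ c w).1 : PGU K n) = QuotientGroup.mk (eU ζ (sm w))
    rw [QuotientGroup.eq]
    apply hcen
    have h2 : (sS S ζ c w).1.1 = c ^ w.length • (eU ζ (sm w)).1 := by
      rw [H687.eU_val (H687.isPr_sm hw) hS.norm]
      exact mx_sS hS hw
    refine ⟨star (c ^ w.length), ?_⟩
    rw [gu_mul, gu_inv, h2, star_smul, smul_mul_assoc, star_gu]
  have h2 := comb_map h1 (QuotientGroup.kerLift ε) (QuotientGroup.kerLift_injective ε)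
  exact h2

end

end

end Vale.Agent.P240.R2.H38
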