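import Vale.Agent.P240.R2.H38.V6
import Vale.Agent.P240.R2.H945.SemiN

/-!
The factor `n` in the count.
-/

set_option autoImplicit false
set_option linter.all false

namespace Vale.Agent.P240.R2.H38

open Matrix Vale.Agent.P240.R2.AS Vale.Agent.P240.R2.H487 Vale.Agent.P240.K
open scoped Classical

universe u v w

noncomputable section

section
variable {K : Type u} [Field K] [Fintype K] [StarRing K] {n : ℕ}
variable {S : Subgroup (GU K n)} {p : ℕ} {ζ c : K} {G : Type v} [Group G]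

/-- the count for the field automorphism `σ`, with the factor `n` -/
def SCntN (S : Subgroup (GU K n)) (σ : K ≃+* K) : Prop :=
  ∃ F : Finset (List (Ln K n)), F ⊆ Fr K n ∧ (∀ w ∈ F, ∀ w', w.Perm w' → w' ∈ F) ∧
    (∀ w ∈ F, ∀ P ∈ w, P.1.map σ = P.1) ∧
    (Fr K n).card * Nat.card {h : S // ∃ a : K, (mx h).map σ = a • mx h} <
      n * (Nat.card S * AS.t F)

lemma SCnt.toN {σ : K ≃+* K} (hn : 2 ≤ n) (h : SCnt S σ) : SCntN S σ := by
  obtain ⟨F, h1, h2, h3, h4⟩ := h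
  exact ⟨F, h1, h2, h3, h4.trans_le (Nat.mul_le_mul_right _ hn)⟩

variable [Finite G] [Fact p.Prime]

/-- T3 for a literal field automorphism -/
lemma t3_litN (𝕜 : Type w) [Field 𝕜] (hS : SGood p ζ c S) {L : Subgroup G} {ε : S →* G}
    (hr : ε.range = L)
    (hker : ∀ g : S, ε g = 1 ↔ ∃ a : K, mx g = a • (1 : Matrix (Fin n) (Fin n) K)) {t : G} {σ : K ≃+* K}
    (ht : ActsS ε t 1 σ) (hσ : σ ζ = ζ) (htn : t ∈ Subgroup.normalizer (L : Set G)) (htp : t ^ p = 1)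
    (htL : t ∉ L) (hcnt : SCntN S σ) :
    ∃ w ∈ Fr K n, ∃ y, y * t⁻¹ ∈ L ∧ y ^ p = 1 ∧ (∀ a ∈ De (eS S ζ c ε) w, y * a = a * y) ∧
      ∃ (α : Ch 𝕜 (Subgroup G)) (φ : List (Subgroup G)),
        TopCycle 𝕜 p (L ⊔ Subgroup.zpowers t) (De (eS S ζ c ε) w ⊔ Subgroup.zpowers y) α φ := by
  obtain ⟨F, hF, hp, hfix, hcount⟩ := hcnt
  have hc := comb_eS hS hker
  haveI : Finite (Matrix (Fin n) (Fin n) K) := inferInstanceAs (Finite (Fin n → Fin n → K))
  haveI : Finite (GU K n) := Subtype.finite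
  haveI : Finite S := Subtype.finite
  let f : S → G := fun h => ε h * t * (ε h)⁻¹
  haveI : Finite (Set.range f) := Set.finite_range f
  set Y : Finset G := (Set.finite_range f).toFinset with hY
  have hmem : ∀ y, y ∈ Y ↔ ∃ h : S, ε h * t * (ε h)⁻¹ = y := by
    intro y
    rw [hY, Set.Finite.mem_toFinset]
    exact Iff.rfl
  have hr' : ∀ y : G, ∃ h : S, y ∈ Y → ε h * t * (ε h)⁻¹ = y := by
    intro y
    by_cases h : y ∈ Y
    · obtain ⟨h', hh⟩ := (hmem y).1 h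
      exact ⟨h', fun _ => hh⟩
    · exact ⟨1, fun h' => absurd h' h⟩
  choose r hr1 using hr'
  have hεL : ∀ h : S, ε h ∈ L := fun h => by rw [← hr]; exact ⟨h, rfl⟩
  let Fy : G → Finset (List (Ln K n)) := fun y => H687.mapW (lnU (r y).1) (lnU_inj _) F
  have hsub : ∀ y, Fy y ⊆ Fr K n := by
    intro y w hw
    obtain ⟨w', hw', rfl⟩ := H687.mem_mapW.1 hw
    exact (mem_Fr_map _).2 (hF hw')
  have hperm : ∀ y, ∀ w ∈ Fy y, ∀ w', w.Perm w' → w' ∈ Fy y := fun y => H687.mapW_perm hp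
  have hfixc : ∀ y ∈ Y, ∀ u v : List (Ln K n), u ++ v ∈ Fy y →
      eS S ζ c ε u * y = y * eS S ζ c ε u := by
    intro y hy u v huv
    obtain ⟨w', hw', h1⟩ := H687.mem_mapW.1 huv
    obtain ⟨a, b, rfl, rfl, rfl⟩ := List.map_eq_append_iff.1 h1
    have hoa : Orth a := (List.pairwise_append.1 ((mem_Fr K).1 (hF hw')).2).1
    have h2 := comm_lit hS hker ht hσ hoa (fun P hP => hfix _ hw' P (by simp [hP]))
    have h3 : eS S ζ c ε (a.map (lnU (r y).1)) = ε (r y) * eS S ζ c ε a * (ε (r y))⁻¹ := by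
      rw [eS, sS_map hS (r y).1 hoa]
      have h4 : cjS hS (r y).1 (sS S ζ c a) = r y * sS S ζ c a * (r y)⁻¹ := rfl
      rw [h4, map_mul, map_mul, map_inv]
      rfl
    have h4 := hr1 y hy
    rw [h3]
    have key : ∀ g e y : G, g * t * g⁻¹ = y → t * e = e * t →
        (g * e * g⁻¹) * y = y * (g * e * g⁻¹) := by
      rintro g e _ rfl h
      calc (g * e * g⁻¹) * (g * t * g⁻¹) = g * (e * t) * g⁻¹ := by group
        _ = g * (t * e) * g⁻¹ := by rw [h]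
        _ = _ := by group
    exact key _ _ _ h4 h2
  have hyt : ∀ y ∈ Y, y * t⁻¹ ∈ L := by
    intro y hy
    obtain ⟨h, rfl⟩ := (hmem y).1 hy
    have h1 : t * (ε h)⁻¹ * t⁻¹ ∈ L := (Subgroup.mem_normalizer_iff.1 htn _).1 (L.inv_mem (hεL h))
    have h2 : ε h * t * (ε h)⁻¹ * t⁻¹ = ε h * (t * (ε h)⁻¹ * t⁻¹) := by group
    rw [h2]
    exact L.mul_mem (hεL h) h1
  have hyp : ∀ y ∈ Y, y ^ p = 1 := by
    intro y hy
    obtain ⟨h, rfl⟩ := (hmem y).1 hy
    rw [conj_pow, htp, mul_one, mul_inv_cancel]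
  have hd : H945.SemiData p (Fr K n) (eS S ζ c ε) L (L ⊔ Subgroup.zpowers t) Y Fy := by
    refine ⟨fun u v _ => hεL _, le_sup_left, hyp, ?_, ?_, ?_, fun y _ => hsub y, fun y _ => hperm y,
      fun y hy u v huv => hfixc y hy u v huv⟩
    · intro y hy
      have h1 := hyt y hy
      have h2 : y = (y * t⁻¹) * t := by group
      rw [h2]
      exact Subgroup.mul_mem _ (Subgroup.mem_sup_left h1)
        (Subgroup.mem_sup_right (Subgroup.mem_zpowers t))
    · intro y hy h1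
      apply htL
      obtain ⟨h, rfl⟩ := (hmem y).1 hy
      have h2 := L.mul_mem (L.mul_mem (L.inv_mem (hεL h)) h1) (hεL h)
      have h3 : (ε h)⁻¹ * (ε h * t * (ε h)⁻¹) * ε h = t := by group
      rwa [h3] at h2
    · intro y hy y' hy'
      have h1 := hyt y hy
      have h2 := hyt y' hy'
      have h3 : y⁻¹ * y' = t⁻¹ * ((y * t⁻¹)⁻¹ * (y' * t⁻¹)) * t := by group
      rw [h3]
      have h4 := (Subgroup.mem_normalizer_iff.1 (Subgroup.inv_mem _ htn)
        ((y * t⁻¹)⁻¹ * (y' * t⁻¹))).1 (L.mul_mem (L.inv_mem h1) h2)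
      rwa [inv_inv] at h4
  have hcard : (Fr K n).card < n * ∑ y ∈ Y, AS.t (Fy y) := by
    have h1 : ∀ y ∈ Y, AS.t (Fy y) = AS.t F := fun y _ => H687.t_map _ F
    rw [Finset.sum_congr rfl h1, Finset.sum_const, smul_eq_mul]
    have h2 := H687.card_le_range_mul f {h : S | ∃ a : K, (mx h).map σ = a • mx h} (by
      intro g g' hgg
      have hgg' : ε g * t * (ε g)⁻¹ = ε g' * t * (ε g')⁻¹ := hgg
      have h3 : t * ε (g⁻¹ * g') * t⁻¹ = ε (g⁻¹ * g') := by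
        rw [map_mul, map_inv]
        calc t * ((ε g)⁻¹ * ε g') * t⁻¹ = (ε g)⁻¹ * (ε g * t * (ε g)⁻¹) * ε g' * t⁻¹ := by group
          _ = (ε g)⁻¹ * (ε g' * t * (ε g')⁻¹) * ε g' * t⁻¹ := by rw [hgg']
          _ = _ := by group
      have e1 : ((1 : GU K n) : Matrix (Fin n) (Fin n) K) = 1 := rfl
      have h4 := ht.2 (g⁻¹ * g') (frS hS σ ht.1 (g⁻¹ * g')) (by
        rw [mx_frS, e1, star_one, one_mul, mul_one])
      rw [h3] at h4
      obtain ⟨a, ha⟩ := (eps_eq hker).1 h4.symm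
      exact ⟨a, by rw [← ha, mx_frS]⟩)
    have h3 : Nat.card (Set.range f) = Y.card := by
      rw [hY, Nat.card_coe_set_eq, Set.ncard_eq_toFinset_card _ (Set.finite_range f)]
    rw [h3] at h2
    have h4 : (Fr K n).card * Nat.card {h : S // ∃ a : K, (mx h).map σ = a • mx h} <
        (n * (Y.card * AS.t F)) * Nat.card {h : S // ∃ a : K, (mx h).map σ = a • mx h} := by
      refine hcount.trans_le ?_
      calc n * (Nat.card S * AS.t F)
          ≤ n * ((Y.card * Nat.card {h : S // ∃ a : K, (mx h).map σ = a • mx h}) * AS.t F) :=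
            Nat.mul_le_mul_left _ (Nat.mul_le_mul_right _ h2)
        _ = _ := by ring
    exact lt_of_mul_lt_mul_right h4 (Nat.zero_le _)
  obtain ⟨y, hy, w, hw, α, φ, h1, -⟩ := H945.top_of_semi_n (by have := hS.hn; omega) hc
    (fun u v h => eS_rev hS hker h) (fun u v w h => eS_append hS ε (by
      have h1 := ((mem_Fr K).1 h).2
      rw [← List.append_assoc] at h1
      exact (List.pairwise_append.1 h1).1)) hd hcard 𝕜
  refine ⟨w, hsub y hw, y, hyt y hy, hyp y hy, fun a ha => ?_, α, φ, ?_⟩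
  · have h2 : De (eS S ζ c ε) w ≤ Subgroup.centralizer ({y} : Set G) := by
      rw [De, Subgroup.closure_le]
      rintro _ ⟨u, v, rfl, rfl⟩
      exact Subgroup.mem_centralizer_iff.2 (by
        rintro _ rfl
        exact (hfixc _ hy u v hw).symm)
    exact Subgroup.mem_centralizer_iff.1 (h2 ha) y rfl
  · rw [sup_comm (De (eS S ζ c ε) w) (Subgroup.zpowers y)]
    exact h1


/-- **`LocTopF`** for the image of `S`. -/
theorem locTopF_of_PHomN [Finite G] [Fact p.Prime] (𝕜 : Type w) [Field 𝕜] (hS : SGood p ζ c S)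
    (h90 : H90 n p K) {L : Subgroup G} {ε : S →* G} (hε : PHom p ζ c L ε)
    (hT1 : 0 < AS.t (Fr K n))
    (hcnt : ∀ σ : K ≃+* K, (∀ a, σ (star a) = star (σ a)) → (σ : RingAut K) ^ p = 1 →
      σ ≠ RingEquiv.refl K → σ ζ = ζ → SCntN S σ) :
    LocTopF 𝕜 p L := by
  have hn := hS.hn
  have hc := comb_eS hS hε.ker
  have htw : ∀ (u : GU K n) {w : List (Ln K n)}, w ∈ Fr K n →
      ∃ w' ∈ Fr K n, De (eS S ζ c (ε.comp (cjS hS u))) w = De (eS S ζ c ε) w' := by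
    intro u w hw
    exact ⟨w.map (lnU u), (mem_Fr_map u).2 hw, De_map hS ε u ((mem_Fr K).1 hw).2⟩
  have hcomp : ∀ u u' : GU K n, (ε.comp (cjS hS u)).comp (cjS hS u') = ε.comp (cjS hS (u * u')) := by
    intro u u'
    ext h
    show ε (cjS hS u (cjS hS u' h)) = ε (cjS hS (u * u') h)
    congr 1
    apply Subtype.ext
    show u * (u' * h.1 * u'⁻¹) * u⁻¹ = (u * u') * h.1 * (u * u')⁻¹
    group
  refine H938.locTopF_of 𝕜 (𝒜 := {A | ∃ w ∈ Fr K n, A = De (eS S ζ c ε) w}) (N := p ^ (n - 1))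
    ⟨_, w0 K n, w0_mem, rfl⟩ ?_ (inf_cen hS hε) ?_ ?_ ?_ ?_ ?_
  · rintro _ ⟨w, hw, rfl⟩
    exact ⟨De_le ε hε.range w, De_ApS hc (by omega) hw, hc.card w hw⟩
  · rintro _ ⟨w, hw, rfl⟩ l hl hlp hlc
    obtain ⟨u, hu⟩ := exists_tw hS ε hw
    rw [hu] at hlc ⊢
    exact hC0 hS (hε.tw hS u) hl hlp hlc
  · rintro _ ⟨w, hw, rfl⟩ t ht x hx htp hxp htx htc hxc htL
    obtain ⟨u, hu⟩ := exists_tw hS ε hw
    rw [hu] at htc hxc
    exact hF0 hS (hε.tw hS u) ht hx htp hxp htx htc hxc htL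
  · obtain ⟨w, hw, α, φ, h1⟩ := H945.top_of_comb (by omega) hc hT1 𝕜 L (fun u v _ => by
      rw [← hε.range]; exact ⟨_, rfl⟩)
    exact ⟨_, ⟨w, hw, rfl⟩, α, φ, h1⟩
  · rintro _ ⟨w, hw, rfl⟩ t ht htp htc htL
    obtain ⟨u, hu⟩ := exists_tw hS ε hw
    rw [hu] at htc
    obtain ⟨u', σ, s1, s2, s3, s4, hact⟩ := exists_lit h90 hS (hε.tw hS u) ht htp htc htL
    rw [hcomp] at hact
    have hε' := hε.tw hS (u * u')
    obtain ⟨F, hF, hp, hfix, hcount⟩ := hcnt σ s1 s2 s3 s4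
    have htF : 0 < AS.t F := by
      by_contra h0
      have h1 : AS.t F = 0 := by omega
      rw [h1, mul_zero, mul_zero] at hcount
      exact Nat.not_lt_zero _ hcount
    obtain ⟨w', hw', h1, α, φ, h2⟩ := t2_lit 𝕜 hS hε'.range hε'.ker hact s4 hF hp hfix htF
    obtain ⟨w'', hw'', h3⟩ := htw (u * u') hw'
    rw [h3] at h1 h2
    exact ⟨_, ⟨w'', hw'', rfl⟩, h1, α, φ, h2⟩
  · rintro _ ⟨w, hw, rfl⟩ t ht htp htc htL
    obtain ⟨u, hu⟩ := exists_tw hS ε hw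
    rw [hu] at htc
    obtain ⟨u', σ, s1, s2, s3, s4, hact⟩ := exists_lit h90 hS (hε.tw hS u) ht htp htc htL
    rw [hcomp] at hact
    have hε' := hε.tw hS (u * u')
    obtain ⟨w', hw', y, h0, h1, h2, α, φ, h3⟩ := t3_litN 𝕜 hS hε'.range hε'.ker hact s4 ht htp
      (fun h => htL (Subgroup.mem_sup_left h)) (hcnt σ s1 s2 s3 s4)
    obtain ⟨w'', hw'', h4⟩ := htw (u * u') hw'
    rw [h4] at h2 h3
    exact ⟨_, ⟨w'', hw'', rfl⟩, y, h0, h1, h2, α, φ, h3⟩


end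

end

end Vale.Agent.P240.R2.H38
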