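import Vale.Agent.P240.R2.H38.V6
import Vale.Agent.P240.R2.H257.SUFin
import Vale.Agent.P240.R2.H651.Grp5
import Vale.Agent.P240.R2.H687.NL6
import Vale.Agent.P240.R2.H387.M2

/-!
The hypotheses of `locTopF_of_PHom` for `SU_n(q)`.
-/

set_option autoImplicit false
set_option linter.all false

namespace Vale.Agent.P240.R2.H38

open Matrix Vale.Agent.P240.R2.AS
open scoped Classical

universe u v w

noncomputable section

section
variable {K : Type u} [Field K] [Fintype K] [StarRing K] {n q : ℕ} {p : ℕ} {ζ c : K}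

omit [Fintype K] in
/-- a rotation in the coordinates `i, j` -/
lemma exists_rot {i j : Fin n} (hij : i ≠ j) {α β : K} (h : α * star α + β * star β = 1) :
    ∃ k : SU K n, mx k i i = α ∧ mx k i j = - star β ∧ ∀ l, l ≠ i → l ≠ j → mx k l l = 1 := by
  refine ⟨⟨H257.su2 hij h, H257.su2_det hij h⟩, ?_, ?_, ?_⟩
  · have h1 := congrFun (H257.su2_mulVec hij h (Pi.single i 1)) i
    rw [mulVec_single_one, Function.update_of_ne hij, Function.update_self, Pi.single_eq_same,
      Pi.single_eq_of_ne (Ne.symm hij)] at h1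
    have h2 : mx (⟨H257.su2 hij h, H257.su2_det hij h⟩ : SU K n) i i = (H257.su2 hij h).1.col i i := rfl
    rw [h2, h1]; ring
  · have h1 := congrFun (H257.su2_mulVec hij h (Pi.single j 1)) i
    rw [mulVec_single_one, Function.update_of_ne hij, Function.update_self, Pi.single_eq_same,
      Pi.single_eq_of_ne hij] at h1
    have h2 : mx (⟨H257.su2 hij h, H257.su2_det hij h⟩ : SU K n) i j = (H257.su2 hij h).1.col j i := rfl
    rw [h2, h1]; ring
  · intro l hl hl'
    have h1 := congrFun (H257.su2_mulVec hij h (Pi.single l 1)) l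
    rw [mulVec_single_one, Function.update_of_ne hl', Function.update_of_ne hl, Pi.single_eq_same] at h1
    exact h1

/-- `SU_n(q)` is a good subgroup -/
theorem sgood_SU (hn : 3 ≤ n) (hq : 3 ≤ q) (hK : Nat.card K = q ^ 2) (hs : ∀ x : K, star x = x ^ q)
    (hp : ζ ^ p = 1) (h1 : ζ ≠ 1) (hz : ζ * star ζ = 1) (hc : c * star c = 1) (hcn : c ^ n * ζ = 1) :
    SGood p ζ c (SU K n) := by
  have hN : Nums K p n ζ c := ⟨hn, hp, h1, hz, hc, hcn⟩
  refine ⟨hn, hp, h1, fun w hw => ?_, fun w hw => ?_, fun u g hg => ?_, fun σ hσ g hg => ?_,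
    fun u σ hσ hd hu => ?_⟩
  · exact ⟨⟨⟨_, sM_unitary hN hw⟩, sM_det hN hw⟩, rfl⟩
  · obtain ⟨h2, h3⟩ := (mem_Fr K).1 hw
    rw [sM, H472.sm_eq_one h2 h3, h2]
    have h4 : (1 : Matrix (Fin n) (Fin n) K) + (ζ - 1) • (1 : Matrix (Fin n) (Fin n) K) =
        ζ • (1 : Matrix (Fin n) (Fin n) K) := by
      rw [sub_smul, one_smul]; abel
    rw [h4, smul_smul, hcn, one_smul]
  · show (u * g * u⁻¹ : GU K n).1.det = 1
    have hg' : g.1.det = 1 := hg
    rw [gu_mul, gu_mul, gu_inv, det_mul, det_mul, hg', mul_one, ← det_mul, gu_star, det_one]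
  · show (gmap σ hσ g).1.det = 1
    have hg' : g.1.det = 1 := hg
    have h2 : (g.1.map σ).det = σ g.1.det := (RingHom.map_det (σ : K →+* K) g.1).symm
    rw [gmap_coe, h2, hg', map_one]
  · obtain ⟨d, hd⟩ := hd
    have hdn : ∀ i, d i * star (d i) = 1 := by
      intro i
      have h3 := gu_star u
      rw [hd, star_eq_conjTranspose, diagonal_conjTranspose, diagonal_mul_diagonal, ← diagonal_one] at h3
      exact congrFun (diagonal_injective h3) i
    have hent : ∀ k : SU K n, ∃ a : K, ∀ r s, d r * σ (mx k r s) * star (d s) = a * mx k r s := by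
      intro k
      obtain ⟨a, ha⟩ := hu k
      refine ⟨a, fun r s => ?_⟩
      have h3 := congrFun (congrFun ha r) s
      rw [hd, star_eq_conjTranspose, diagonal_conjTranspose, mul_diagonal, diagonal_mul,
        Matrix.smul_apply] at h3
      exact h3
    set i0 : Fin n := ⟨0, by omega⟩ with hi0
    set j0 : Fin n := ⟨1, by omega⟩ with hj0
    set l0 : Fin n := ⟨2, by omega⟩ with hl0
    have e1 : i0 ≠ j0 := by intro h; have := congrArg Fin.val h; simp [hi0, hj0] at this
    have e2 : l0 ≠ i0 := by intro h; have := congrArg Fin.val h; simp [hi0, hl0] at this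
    have e3 : l0 ≠ j0 := by intro h; have := congrArg Fin.val h; simp [hl0, hj0] at this
    have hσ1 : σ = 1 := by
      refine H401.eq_one_of_norm_one hK hs σ fun x hx => ?_
      obtain ⟨k, k1, -, k3⟩ := exists_rot e1 (α := x) (β := 0) (by rw [hx, zero_mul, add_zero])
      obtain ⟨a, ha⟩ := hent k
      have h3 := ha l0 l0
      rw [k3 l0 e2 e3, map_one, mul_one, hdn, mul_one] at h3
      have h4 := ha i0 i0
      rw [k1, ← h3, one_mul] at h4
      calc σ x = (d i0 * star (d i0)) * σ x := by rw [hdn, one_mul]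
        _ = d i0 * σ x * star (d i0) := by ring
        _ = x := h4
    subst hσ1
    refine ⟨fun x => rfl, d i0, ?_⟩
    obtain ⟨x, hx0, hx1⟩ := H257.exists_norm_ne hq (by rw [← Nat.card_eq_fintype_card]; exact hK) hs
    obtain ⟨y, hy⟩ := H472.exists_norm (K := K) (q := q) (c := 1 - star x * x)
      (by rw [← Nat.card_eq_fintype_card]; exact hK) hs (by
        intro h; exact hx1 (sub_eq_zero.1 h).symm) (by
        rw [star_sub, star_one, H257.nrm_star])
    have hy0 : y ≠ 0 := by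
      rintro rfl
      rw [mul_zero] at hy
      exact hx1 (sub_eq_zero.1 hy.symm).symm
    have hxy : x * star x + y * star y = 1 := by
      rw [mul_comm y, hy]; ring
    rw [hd]
    ext i j
    rw [diagonal_apply, Matrix.smul_apply, one_apply]
    by_cases hij : i = j
    · subst hij
      rw [if_pos rfl, if_pos rfl, smul_eq_mul, mul_one]
      by_cases hi : i0 = i
      · rw [hi]
      · obtain ⟨k, k1, k2, -⟩ := exists_rot hi hxy
        obtain ⟨a, ha⟩ := hent k
        have h3 := ha i0 i0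
        have h4 := ha i0 i
        have e5 : ∀ z : K, (1 : K ≃+* K) z = z := fun z => rfl
        rw [k1, e5] at h3
        rw [k2, e5] at h4
        have h5 : a = 1 := by
          have h6 : a * x = x := by
            rw [← h3]
            calc d i0 * x * star (d i0) = (d i0 * star (d i0)) * x := by ring
              _ = x := by rw [hdn, one_mul]
          exact mul_right_cancel₀ hx0 (h6.trans (one_mul x).symm)
        rw [h5, one_mul] at h4
        have h6 : d i0 * star (d i) = 1 := by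
          have h7 : (d i0 * star (d i)) * (-star y) = 1 * (-star y) := by
            rw [one_mul]
            calc (d i0 * star (d i)) * (-star y) = d i0 * -star y * star (d i) := by ring
              _ = -star y := h4
          exact mul_right_cancel₀ (neg_ne_zero.2 (by simpa using hy0)) h7
        calc d i = (d i0 * star (d i)) * d i := by rw [h6, one_mul]
          _ = d i0 * (d i * star (d i)) := by ring
          _ = d i0 := by rw [hdn, mul_one]
    · rw [if_neg hij, if_neg hij, smul_zero]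

variable {G : Type v} [Group G]

/-- the homomorphisms `SU_n(q) → G` with image `L` and kernel the scalars -/
theorem phom_SU (hn : 3 ≤ n) (hq : 3 ≤ q) (hK : Nat.card K = q ^ 2) (hs : ∀ x : K, star x = x ^ q)
    (h1 : ζ ≠ 1) (hz : ζ * star ζ = 1) (hc : c * star c = 1) (hcn : c ^ n * ζ = 1)
    {L : Subgroup G} {ε : SU K n →* G} (hr : ε.range = L)
    (hker : ∀ g : SU K n, ε g = 1 ↔ ∃ a : K, mx g = a • (1 : Matrix (Fin n) (Fin n) K)) :
    PHom p ζ c L ε := by
  refine ⟨hr, hker, fun w hw x hx _ hfix => ?_⟩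
  refine H651.acts_of_fix hn hq hK hs h1 hz hc hcn hker x (fun g => ?_) hw hfix
  have h2 : ε g ∈ L := by rw [← hr]; exact ⟨g, rfl⟩
  have h3 := (Subgroup.mem_normalizer_iff.1 hx _).1 h2
  rw [← hr] at h3
  obtain ⟨g', hg'⟩ := h3
  exact ⟨g', hg'.symm⟩

/-- Hilbert 90, odd prime -/
theorem h90_odd (hK : Nat.card K = q ^ 2) (hs : ∀ x : K, star x = x ^ q) (hp : p.Prime) (hp2 : p ≠ 2) :
    H90 n p K := by
  intro σ hσ hσp hσ1 a ha hprod
  have h1 : ∀ x, (σ^[p]) x = x := by
    intro x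
    rw [← H401.coe_pow_aut (σ : RingAut K), hσp]; rfl
  obtain ⟨c, b, hc, hb, hab⟩ := H401.hilb_odd hK hs hp hp2 σ h1 hσ1 a ha hprod
  have hu : diagonal b ∈ Matrix.unitaryGroup (Fin n) K := by
    rw [Matrix.mem_unitaryGroup_iff, star_eq_conjTranspose, diagonal_conjTranspose,
      diagonal_mul_diagonal, ← diagonal_one]
    congr 1
    funext i
    exact hb i
  refine ⟨⟨diagonal b, hu⟩, c, ?_⟩
  show diagonal a * (diagonal b).map σ = c • diagonal b
  rw [diagonal_map (map_zero σ), diagonal_mul_diagonal, ← diagonal_smul]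
  congr 1
  funext i
  have h2 : σ (b i) ≠ 0 := by
    have : b i ≠ 0 := left_ne_zero_of_mul_eq_one (hb i)
    simpa using this
  show a i * σ (b i) = c * b i
  rw [hab i, mul_assoc, div_mul_cancel₀ _ h2]

/-- Hilbert 90, the prime `2` -/
theorem h90_two (hK : Nat.card K = q ^ 2) (hs : ∀ x : K, star x = x ^ q) (hq : Odd q) (hn : Odd n) :
    H90 n 2 K := by
  intro σ hσ hσp hσ1 a ha _
  obtain ⟨u, hu, c, hc⟩ := H401.hilb_two hK hs hq hn a ha
  refine ⟨⟨u, hu⟩, c, ?_⟩
  have h1 : u.map σ = u.map star := by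
    ext i j
    exact H401.aut_eq_star hK hs σ hσp hσ1 (u i j)
  show diagonal a * u.map σ = c • u
  rw [h1, hc]

/-- `0 < t` -/
theorem t_pos (hn : 2 ≤ n) (hq : 3 ≤ q) (hK : Nat.card K = q ^ 2) (hs : ∀ x : K, star x = x ^ q) :
    0 < AS.t (Fr K n) := by
  have h1 := H387.stmtM2 K q hq hK hs n hn
  by_contra h
  have h2 : AS.t (Fr K n) = 0 := by omega
  rw [h2, mul_zero] at h1
  exact Nat.not_lt_zero _ h1

/-- the form of the count -/
lemma scnt_of {S : Subgroup (GU K n)} {σ : K ≃+* K} (hσ : ∀ a, σ (star a) = star (σ a))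
    {F : Finset (List (Ln K n))} (hF : F ⊆ Fr K n)
    (hp : ∀ w ∈ F, ∀ w', w.Perm w' → w' ∈ F) (hfix : ∀ w ∈ F, ∀ P ∈ w, P.1.map σ = P.1)
    (h : ∀ P : ℕ, Nat.card S ≤ P * Nat.card {h : S // ∃ a : K, (mx h).map σ = a • mx h} →
      (Fr K n).card < 2 * (P * AS.t F)) : SCnt S σ := by
  haveI : Finite (Matrix (Fin n) (Fin n) K) := inferInstanceAs (Finite (Fin n → Fin n → K))
  haveI : Finite (GU K n) := Subtype.finite
  haveI : Finite S := Subtype.finite
  refine ⟨F, hF, hp, hfix, ?_⟩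
  let C : Subgroup S :=
    { carrier := {h | ∃ a : K, (mx h).map σ = a • mx h}
      mul_mem' := by
        rintro g h ⟨a, ha⟩ ⟨b, hb⟩
        exact ⟨a * b, by rw [mx_mul, map_mul_mat, ha, hb, smul_mul_smul_comm]⟩
      one_mem' := ⟨1, by rw [mx_one, map_one_mat, one_smul]⟩
      inv_mem' := by
        rintro g ⟨a, ha⟩
        exact ⟨star a, by rw [mx_inv, map_star_mat hσ, ha, star_smul]⟩ }
  have h1 : Nat.card {h : S // ∃ a : K, (mx h).map σ = a • mx h} = Nat.card C := rfl
  obtain ⟨m, hm⟩ := Subgroup.card_subgroup_dvd_card C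
  have h2 := h m (by rw [h1, hm, mul_comm])
  have hC0 : 0 < Nat.card C := Nat.card_pos
  rw [h1, hm]
  calc (Fr K n).card * Nat.card C < (2 * (m * AS.t F)) * Nat.card C :=
        Nat.mul_lt_mul_of_pos_right h2 hC0
    _ = _ := by ring

omit [Fintype K] in
lemma card_le_SUg [Finite K] (σ : K ≃+* K) :
    Nat.card {h : SU K n // ∃ a : K, (mx h).map σ = a • mx h} ≤
      Nat.card {g : GU K n // g ∈ H986.St.SUg K n ∧
        ∃ c : K, (g : Matrix (Fin n) (Fin n) K).map σ = c • (g : Matrix (Fin n) (Fin n) K)} := by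
  haveI : Finite (Matrix (Fin n) (Fin n) K) := inferInstanceAs (Finite (Fin n → Fin n → K))
  haveI : Finite (GU K n) := Subtype.finite
  refine Nat.card_le_card_of_injective (fun g => ⟨g.1.1, ?_, g.2⟩) ?_
  · have h1 := g.1.2
    rw [← H687.SU_eq]
    exact h1
  · intro g g' h
    have h2 := congrArg (fun y : {g : GU K n // g ∈ H986.St.SUg K n ∧
      ∃ c : K, (g : Matrix (Fin n) (Fin n) K).map σ = c • (g : Matrix (Fin n) (Fin n) K)} => y.1) h
    exact Subtype.ext (Subtype.ext h2)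

/-- **the count, `p` odd** -/
theorem scnt_odd (hn : 2 ≤ n) (hq : 3 ≤ q) (hK : Nat.card K = q ^ 2) (hs : ∀ x : K, star x = x ^ q)
    (hp : p.Prime) (hp2 : p ≠ 2) (hpq : p ∣ q + 1) (h38 : ¬ (p = 3 ∧ q = 8)) (σ : K ≃+* K)
    (hσ : ∀ a, σ (star a) = star (σ a)) (hσp : (σ : RingAut K) ^ p = 1) (hσ1 : σ ≠ RingEquiv.refl K) :
    SCnt (SU K n) σ := by
  let τ : SA K := ⟨σ, hσ⟩
  have hτ : orderOf τ = p := by
    haveI : Fact p.Prime := ⟨hp⟩
    refine orderOf_eq_prime (Subtype.ext hσp) ?_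
    intro h
    exact hσ1 (congrArg Subtype.val h)
  obtain ⟨a, k, ha4, hqa, hpa, hFa, hFs, hk, hfix⟩ := H687.fix_data2 hq hK hs hp hp2 hpq h38 τ hτ
  refine scnt_of hσ (F := H687.Fg (H687.FI τ) (H687.FI_star τ) 1) (H687.Fg_sub _ _ _)
    (H687.Fg_perm _ _ _) ?_ ?_
  · intro w hw P hP
    obtain ⟨w₀, -, rfl⟩ := H687.mem_mapW.1 hw
    obtain ⟨Q, -, rfl⟩ := List.mem_map.1 hP
    have e1 : ((1 : GU K n) : Matrix (Fin n) (Fin n) K) = 1 := rfl
    rw [H687.lam_coe, H687.conjM, e1, star_one, one_mul, mul_one]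
    ext i j
    exact H687.FI_fix τ (Q.1 i j)
  · intro P hP
    rw [H687.t_Fg]
    have h1 := H687.card_lt_abs hq hK hs hp hp2 hn τ ha4 hqa hFa hFs
      (H387.stmtM2 (H687.FT τ) a (by omega) hFa hFs n hn) hk hfix (P := P) (by
        have h2 := hP.trans (Nat.mul_le_mul_left _ (card_le_SUg σ))
        rw [H687.SU_eq] at h2
        exact h2)
    omega

/-- **the count, `p = 2`** -/
theorem scnt_two (hn : 0 < n) (hqo : Odd q) (hK : Nat.card K = q ^ 2) (hs : ∀ x : K, star x = x ^ q)
    (ht : (Fr (H986.St.F0 K) n).card < 3 * 2 ^ n * AS.t (Fr (H986.St.F0 K) n))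
    (hnum : (q + 1) * Nat.gcd n (q + 1) * (3 * 4 ^ n) ≤ 2 * (2 * (q + 1) ^ n)) (σ : K ≃+* K)
    (hσ : ∀ a, σ (star a) = star (σ a)) (hσp : (σ : RingAut K) ^ 2 = 1) (hσ1 : σ ≠ RingEquiv.refl K) :
    SCnt (SU K n) σ := by
  have hq2 : 2 ≤ q := by
    have hq1 : 1 < q := by
      rw [Nat.card_eq_fintype_card] at hK
      exact H472.one_lt hK
    omega
  have hst : ∀ x, σ x = star x := H401.aut_eq_star hK hs σ hσp hσ1
  refine scnt_of hσ (F := H687.Fg (H986.St.toK K) (H986.St.toK_star K) 1) (H687.Fg_sub _ _ _)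
    (H687.Fg_perm _ _ _) ?_ ?_
  · intro w hw P hP
    obtain ⟨w₀, -, rfl⟩ := H687.mem_mapW.1 hw
    obtain ⟨Q, -, rfl⟩ := List.mem_map.1 hP
    have e1 : ((1 : GU K n) : Matrix (Fin n) (Fin n) K) = 1 := rfl
    rw [H687.lam_coe, H687.conjM, e1, star_one, one_mul, mul_one]
    ext i j
    show σ ((Q.1 i j).1) = (Q.1 i j).1
    rw [hst]
    exact (Q.1 i j).2
  · intro P hP
    rw [H687.t_Fg]
    have h1 := H687.card_lt_two (r := 2) hq2 hK (H986.St.two_ne hqo hK hs) hs hn ht hnum (P := P) (by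
        have h2 := hP.trans (Nat.mul_le_mul_left _ (card_le_SUg σ))
        rw [H687.SU_eq] at h2
        have h3 : ∀ g : GU K n, g.1.map σ = g.1.map (starRingEnd K) := by
          intro g
          ext i j
          exact hst _
        simp only [h3] at h2
        exact h2)
    exact h1

end

end

end Vale.Agent.P240.R2.H38
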