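import Vale.Agent.P240.R2.H38.W1
import Vale.Agent.P240.R2.H281.B1

/-!
`LocTopF` for `PSU_n(q)`.
-/

set_option autoImplicit false
set_option linter.all false

namespace Vale.Agent.P240.R2.H38

open Matrix Vale.Agent.P240.R2.AS Vale.Agent.P240.R2.H487
open scoped Classical

universe u v w

noncomputable section

section
variable {K : Type u} [Field K] [Fintype K] [StarRing K] {n q : ℕ} {p : ℕ}

/-- the numbers `ζ` and `c` -/
theorem exists_nums (hn : 0 < n) (hK : Nat.card K = q ^ 2) (hs : ∀ x : K, star x = x ^ q)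
    (hp : p.Prime) (hpn : p * n.gcd (q + 1) ∣ q + 1) :
    ∃ ζ c : K, ζ ^ p = 1 ∧ ζ ≠ 1 ∧ ζ * star ζ = 1 ∧ c * star c = 1 ∧ c ^ n * ζ = 1 := by
  have hq := H401.one_lt_q (q := q) hK
  obtain ⟨g, hg⟩ := IsCyclic.exists_generator (α := Kˣ)
  have hord : orderOf g = (q - 1) * (q + 1) := by
    rw [orderOf_eq_card_of_forall_mem_zpowers hg, Nat.card_units, hK]
    obtain ⟨m, rfl⟩ : ∃ m, q = m + 2 := ⟨q - 2, by omega⟩
    have e1 : m + 2 - 1 = m + 1 := by omega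
    rw [e1]
    have e2 : (m + 2) ^ 2 = (m + 1) * (m + 2 + 1) + 1 := by ring
    omega
  set η := g ^ (q - 1) with hη
  have hη1 : orderOf η = q + 1 := by
    rw [hη, orderOf_pow_of_dvd (by omega) (by rw [hord]; exact Dvd.intro _ rfl), hord,
      Nat.mul_div_cancel_left _ (by omega)]
  set d := n.gcd (q + 1) with hd
  have hd0 : 0 < d := Nat.gcd_pos_of_pos_left _ hn
  obtain ⟨r, hr⟩ := hpn
  obtain ⟨n', hn'⟩ := Nat.gcd_dvd_left n (q + 1)
  rw [← hd] at hn'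
  have hpn' : ¬ p ∣ n' := by
    rintro ⟨m, hm⟩
    have h1 : p * d ∣ n := ⟨m, by rw [hn', hm]; ring⟩
    have h2 : p * d ∣ q + 1 := ⟨r, hr⟩
    have h3 : p * d ∣ d := Nat.dvd_gcd h1 h2
    have h4 := Nat.le_of_dvd hd0 h3
    have h5 := hp.two_le
    nlinarith
  have hr0 : 0 < r := by
    rcases Nat.eq_zero_or_pos r with h | h
    · rw [h, mul_zero] at hr; omega
    · exact h
  -- `c = η ^ r`
  set c : Kˣ := η ^ r with hc
  have h1 : c ^ n * c ^ (n * (p - 1)) = 1 := by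
    rw [← pow_add, hc, ← pow_mul]
    apply orderOf_dvd_iff_pow_eq_one.1
    rw [hη1, hr]
    refine ⟨n', ?_⟩
    obtain ⟨p', rfl⟩ : ∃ p', p = p' + 1 := ⟨p - 1, by have := hp.two_le; omega⟩
    rw [Nat.add_sub_cancel, hn']
    ring
  have h2 : c ^ n ≠ 1 := by
    intro h
    rw [hc, ← pow_mul] at h
    have h3 := orderOf_dvd_iff_pow_eq_one.2 h
    rw [hη1, hr, hn'] at h3
    apply hpn'
    have h4 : (d * r) * p ∣ (d * r) * n' := by
      convert h3 using 1 <;> ring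
    exact (Nat.mul_dvd_mul_iff_left (Nat.mul_pos hd0 hr0)).1 h4
  have hcst : (c : K) * star (c : K) = 1 := by
    rw [hs, ← pow_succ']
    have h3 : c ^ (q + 1) = 1 := by
      rw [hc, ← pow_mul, mul_comm, pow_mul, ← hη1, pow_orderOf_eq_one, one_pow]
    rw [← Units.val_pow_eq_pow_val, h3, Units.val_one]
  have hc0 : (c : K) ≠ 0 := c.ne_zero
  refine ⟨((c : K) ^ n)⁻¹, c, ?_, ?_, ?_, hcst, ?_⟩
  · rw [inv_pow, inv_eq_one, ← pow_mul]
    have h3 : c ^ (n * p) = 1 := by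
      rw [← h1, ← pow_add]
      congr 1
      obtain ⟨p', rfl⟩ : ∃ p', p = p' + 1 := ⟨p - 1, by have := hp.two_le; omega⟩
      rw [Nat.add_sub_cancel]; ring
    rw [← Units.val_pow_eq_pow_val, h3, Units.val_one]
  · intro h
    rw [inv_eq_one] at h
    apply h2
    exact Units.ext (by rw [Units.val_pow_eq_pow_val, h, Units.val_one])
  · rw [star_inv₀, star_pow, ← mul_inv, ← mul_pow, hcst, one_pow, inv_one]
  · exact mul_inv_cancel₀ (pow_ne_zero _ hc0)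

variable {G : Type v} [Group G]

/-- the homomorphism `SU_n(q) → PSU_n(q)` -/
def toP (K : Type u) [Field K] [Fintype K] [StarRing K] (n : ℕ) : SU K n →* PSU K n where
  toFun g := ⟨QuotientGroup.mk' _ g.1, ⟨g.1, by
    have h : g.1.1.det = 1 := g.2
    exact h, rfl⟩⟩
  map_one' := rfl
  map_mul' _ _ := rfl

lemma toP_surj : Function.Surjective (toP K n) := by
  rintro ⟨_, g, hg, rfl⟩
  have h : g.1.det = 1 := hg
  exact ⟨⟨g, h⟩, rfl⟩

lemma toP_ker {ζ : K} (h1 : ζ ≠ 1) (hz : ζ * star ζ = 1) (g : SU K n) :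
    toP K n g = 1 ↔ ∃ a : K, mx g = a • (1 : Matrix (Fin n) (Fin n) K) := by
  exact Subtype.ext_iff.trans ((QuotientGroup.eq_one_iff g.1).trans (H296.mem_center_iff h1 hz g.1))

/-- **`LocTopF` for `PSU_n(q)`**, `p ∣ q + 1`, `n ≥ 3`, the `p`-part of `n` smaller than that of `q + 1`. -/
theorem locTopF_PSU [Finite G] [Fact p.Prime] (𝕜 : Type w) [Field 𝕜] (hn : 3 ≤ n) (hq : 3 ≤ q)
    (hK : Nat.card K = q ^ 2) (hs : ∀ x : K, star x = x ^ q) (hpn : p * n.gcd (q + 1) ∣ q + 1)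
    (h38 : ¬ (p = 3 ∧ q = 8)) (h2 : p = 2 → Odd n ∧ 11 ≤ q) {L : Subgroup G}
    (e : Nonempty (L ≃* PSU K n)) : LocTopF 𝕜 p L := by
  have hp : p.Prime := Fact.out
  obtain ⟨ζ, c, hζ, h1, hz, hc, hcn⟩ := exists_nums (by omega) hK hs hp hpn
  obtain ⟨e⟩ := e
  let ε : SU K n →* G := L.subtype.comp (e.symm.toMonoidHom.comp (toP K n))
  have hr : ε.range = L := by
    ext y
    constructor
    · rintro ⟨g, rfl⟩
      exact (e.symm (toP K n g)).2
    · intro hy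
      obtain ⟨g, hg⟩ := toP_surj (e ⟨y, hy⟩)
      refine ⟨g, ?_⟩
      show ((e.symm (toP K n g) : L) : G) = y
      rw [hg, MulEquiv.symm_apply_apply]
  have hker : ∀ g : SU K n, ε g = 1 ↔ ∃ a : K, mx g = a • (1 : Matrix (Fin n) (Fin n) K) := by
    intro g
    rw [← toP_ker h1 hz g]
    show ((e.symm (toP K n g) : L) : G) = 1 ↔ _
    rw [OneMemClass.coe_eq_one, EmbeddingLike.map_eq_one_iff]
  have hpq : p ∣ q + 1 := (Dvd.intro _ rfl : p ∣ p * n.gcd (q + 1)).trans hpn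
  have hG := sgood_SU (p := p) hn hq hK hs hζ h1 hz hc hcn
  have hP := phom_SU (p := p) hn hq hK hs h1 hz hc hcn hr hker
  by_cases hp2 : p = 2
  · subst hp2
    obtain ⟨hno, hq11⟩ := h2 rfl
    have hqo : Odd q := by
      obtain ⟨m, hm⟩ := hpq
      exact ⟨m - 1, by omega⟩
    have hB1 := H281.stmtB1 (H986.St.F0 K) (H986.St.star_F0 K)
      (by rw [H986.St.card_F0 hK hs]; exact hqo) (by rw [H986.St.card_F0 hK hs]; exact hq11) n (by omega)
    refine locTopF_of_PHom 𝕜 hG (h90_two hK hs hqo hno) hP (t_pos (by omega) hq hK hs) ?_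
    intro σ s1 s2 s3 _
    refine scnt_two (by omega) hqo hK hs hB1 ?_ σ s1 s2 s3
    -- the numerical inequality
    have hg : n.gcd (q + 1) ≤ n := Nat.gcd_le_left _ (by omega)
    obtain ⟨m, rfl⟩ : ∃ m, n = 2 * m + 3 := by
      obtain ⟨m, hm⟩ := hno
      exact ⟨m - 1, by omega⟩
    obtain ⟨Q, rfl⟩ : ∃ Q, q = Q + 11 := ⟨q - 11, by omega⟩
    have key : ∀ m : ℕ, 3 * (2 * m + 3) * 4 ^ (2 * m + 3) ≤ 4 * 12 ^ (2 * m + 2) := by
      intro m
      induction m with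
      | zero => norm_num
      | succ m ih =>
        have e1 : 4 ^ (2 * (m + 1) + 3) = 16 * 4 ^ (2 * m + 3) := by ring
        have e2 : 12 ^ (2 * (m + 1) + 2) = 144 * 12 ^ (2 * m + 2) := by ring
        rw [e1, e2]
        calc 3 * (2 * (m + 1) + 3) * (16 * 4 ^ (2 * m + 3))
            = (3 * (2 * (m + 1) + 3) * 16) * 4 ^ (2 * m + 3) := by ring
          _ ≤ (144 * (3 * (2 * m + 3))) * 4 ^ (2 * m + 3) := Nat.mul_le_mul_right _ (by omega)
          _ = 144 * (3 * (2 * m + 3) * 4 ^ (2 * m + 3)) := by ring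
          _ ≤ 144 * (4 * 12 ^ (2 * m + 2)) := Nat.mul_le_mul_left _ ih
          _ = _ := by ring
    have k1 := key m
    have k2 : 12 ^ (2 * m + 2) ≤ (Q + 11 + 1) ^ (2 * m + 2) := Nat.pow_le_pow_left (by omega) _
    calc (Q + 11 + 1) * (2 * m + 3).gcd (Q + 11 + 1) * (3 * 4 ^ (2 * m + 3))
        ≤ (Q + 11 + 1) * (2 * m + 3) * (3 * 4 ^ (2 * m + 3)) :=
          Nat.mul_le_mul_right _ (Nat.mul_le_mul_left _ hg)
      _ = (Q + 11 + 1) * (3 * (2 * m + 3) * 4 ^ (2 * m + 3)) := by ring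
      _ ≤ (Q + 11 + 1) * (4 * 12 ^ (2 * m + 2)) := Nat.mul_le_mul_left _ k1
      _ ≤ (Q + 11 + 1) * (4 * (Q + 11 + 1) ^ (2 * m + 2)) :=
          Nat.mul_le_mul_left _ (Nat.mul_le_mul_left _ k2)
      _ = 2 * (2 * (Q + 11 + 1) ^ (2 * m + 3)) := by ring
  · refine locTopF_of_PHom 𝕜 hG (h90_odd hK hs hp hp2) hP (t_pos (by omega) hq hK hs) ?_
    intro σ s1 s2 s3 _
    exact scnt_odd (by omega) hq hK hs hp hp2 hpq h38 σ s1 s2 s3

end

end

end Vale.Agent.P240.R2.H38
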